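import Vale.Agent.Lib.P072.Lyap

/-!
Cut-off functions and uniform bounds for the flattened Lyapunov function.
-/

open Finset Filter Topology

namespace Vale.Agent.Lib.P072

variable {d : ℕ} {α : Type*}

/-- A cut-off profile equal to one on `|r| < R₁`, zero on `|r| > R₂`. -/
structure IsCutOff (χ χ' : ℝ → ℝ) (R₁ R₂ C : ℝ) : Prop where
  hderiv : ∀ r, HasDerivAt χ (χ' r) r
  nonneg : ∀ r, 0 ≤ χ r
  le_one : ∀ r, χ r ≤ 1
  core : ∀ r, |r| < R₁ → χ r = 1 ∧ χ' r = 0
  far : ∀ r, R₂ < |r| → χ r = 0 ∧ χ' r = 0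
  bdd : ∀ r, |χ' r| ≤ C
  sign : ∀ r, χ' r * r ≤ 0

lemma exists_cutOff {R₁ R₂ : ℝ} (h0 : 0 < R₁) (h : R₁ < R₂) :
    ∃ (χ χ' : ℝ → ℝ) (C : ℝ), 0 ≤ C ∧ IsCutOff χ χ' R₁ R₂ C := by
  set A := R₂ ^ 2 - R₁ ^ 2 with hA
  have hApos : 0 < A := by
    have : R₁ ^ 2 < R₂ ^ 2 := by nlinarith
    linarith
  set u : ℝ → ℝ := fun r => (R₂ ^ 2 - r ^ 2) / A with hu
  set χ : ℝ → ℝ := fun r => Real.smoothTransition (u r) with hχ
  have hucd : ContDiff ℝ 1 u := by
    simp only [hu]
    fun_prop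
  have hcd : ContDiff ℝ 1 χ := Real.smoothTransition.contDiff.comp hucd
  have hdiff : Differentiable ℝ χ := hcd.differentiable (by norm_num)
  have hderiv : ∀ r, HasDerivAt χ (deriv χ r) r := fun r => (hdiff r).hasDerivAt
  have huder : ∀ r, HasDerivAt u (-(2 * r) / A) r := by
    intro r
    have h1 : HasDerivAt (fun r : ℝ => R₂ ^ 2 - r ^ 2) (-(2 * r)) r := by
      have := ((hasDerivAt_id r).pow 2).const_sub (R₂ ^ 2)
      simpa using this
    exact h1.div_const A
  have hformula : ∀ r, deriv χ r = deriv Real.smoothTransition (u r) * (-(2 * r) / A) := by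
    intro r
    have h1 : HasDerivAt Real.smoothTransition (deriv Real.smoothTransition (u r)) (u r) :=
      (Real.smoothTransition.contDiff (n := 1)).differentiable (by norm_num) (u r) |>.hasDerivAt
    exact (h1.comp r (huder r)).deriv
  have hcore : ∀ r, |r| < R₁ → χ r = 1 := by
    intro r hr
    apply Real.smoothTransition.one_of_one_le
    simp only [hu]
    rw [le_div_iff₀ hApos, one_mul]
    have : r ^ 2 ≤ R₁ ^ 2 := by
      rw [← sq_abs r]
      exact pow_le_pow_left₀ (abs_nonneg r) hr.le 2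
    linarith
  have hfar : ∀ r, R₂ < |r| → χ r = 0 := by
    intro r hr
    apply Real.smoothTransition.zero_of_nonpos
    simp only [hu]
    apply div_nonpos_of_nonpos_of_nonneg _ hApos.le
    have : R₂ ^ 2 ≤ r ^ 2 := by
      rw [← sq_abs r]
      exact pow_le_pow_left₀ (by linarith) hr.le 2
    linarith
  have hcore' : ∀ r, |r| < R₁ → deriv χ r = 0 := by
    intro r hr
    have hev : χ =ᶠ[𝓝 r] fun _ => (1 : ℝ) := by
      have hopen : IsOpen {s : ℝ | |s| < R₁} := isOpen_lt continuous_abs continuous_const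
      filter_upwards [hopen.mem_nhds hr] with s hs using hcore s hs
    rw [hev.deriv_eq]
    simp
  have hfar' : ∀ r, R₂ < |r| → deriv χ r = 0 := by
    intro r hr
    have hev : χ =ᶠ[𝓝 r] fun _ => (0 : ℝ) := by
      have hopen : IsOpen {s : ℝ | R₂ < |s|} := isOpen_lt continuous_const continuous_abs
      filter_upwards [hopen.mem_nhds hr] with s hs using hfar s hs
    rw [hev.deriv_eq]
    simp
  have hcont : Continuous (deriv χ) := hcd.continuous_deriv (by norm_num)
  obtain ⟨C, hC⟩ := (isCompact_Icc (a := -R₂) (b := R₂)).exists_bound_of_continuousOn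
    hcont.continuousOn
  refine ⟨χ, deriv χ, max C 0, le_max_right _ _, ?_⟩
  refine ⟨hderiv, fun r => Real.smoothTransition.nonneg _, fun r => Real.smoothTransition.le_one _,
    fun r hr => ⟨hcore r hr, hcore' r hr⟩, fun r hr => ⟨hfar r hr, hfar' r hr⟩, ?_, ?_⟩
  · intro r
    by_cases hr : R₂ < |r|
    · rw [hfar' r hr, abs_zero]
      exact le_max_right _ _
    · have hmem : r ∈ Set.Icc (-R₂) R₂ := abs_le.mp (not_lt.mp hr)
      exact le_trans (hC r hmem) (le_max_left _ _)
  · intro r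
    rw [hformula r]
    have h1 : 0 ≤ deriv Real.smoothTransition (u r) :=
      Real.smoothTransition.monotone.deriv_nonneg
    have h2 : (-(2 * r) / A) * r ≤ 0 := by
      have : (-(2 * r) / A) * r = -(2 * r ^ 2 / A) := by ring
      rw [this]
      have : 0 ≤ 2 * r ^ 2 / A := by positivity
      linarith
    calc deriv Real.smoothTransition (u r) * (-(2 * r) / A) * r
        = deriv Real.smoothTransition (u r) * ((-(2 * r) / A) * r) := by ring
      _ ≤ 0 := mul_nonpos_of_nonneg_of_nonpos h1 h2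

lemma dot_logv_eq_phi (v x : Fin d → ℝ) : dot (logv x) v = phi v x := by
  unfold dot logv phi
  refine Finset.sum_congr rfl fun i _ => by ring

/-- The contribution of one direction to the gradient is uniformly bounded. -/
lemma term_bound {v x w : Fin d → ℝ} (hv : v ≠ 0) (hI : IntLike v) (hx : ∀ i, 0 < x i) {R : ℝ}
    (hφ : |phi v x| ≤ R) {ca cb C : ℝ} (hca : |ca| ≤ C) (hcb : |cb| ≤ 1) :
    |ca * (∑ i, v i / x i * w i) * Delta v x +
        cb * (dot (logv x) w - dot (logv (xstar v x)) w)| ≤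
      (C * R * (Real.exp R - 1) + R) * ∑ i, |w i| := by
  have hR : 0 ≤ R := le_trans (abs_nonneg _) hφ
  have hC : 0 ≤ C := le_trans (abs_nonneg _) hca
  have hexp : Real.exp |phi v x| - 1 ≤ Real.exp R - 1 := by
    have := Real.exp_le_exp.mpr hφ
    linarith
  have hexp0 : 0 ≤ Real.exp R - 1 := by
    have := Real.add_one_le_exp R
    linarith
  have hD0 := Delta_nonneg v x hv hx
  have hD1 := Delta_le v x hv hx
  have hD2 : Delta v x ≤ |tstar v x| * R :=
    le_trans hD1 (mul_le_mul_of_nonneg_left hφ (abs_nonneg _))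
  -- first part
  have h1 : |(∑ i, v i / x i * w i) * Delta v x| ≤ R * (Real.exp R - 1) * ∑ i, |w i| := by
    rw [abs_mul, abs_of_nonneg hD0]
    have h2 : |∑ i, v i / x i * w i| * |tstar v x| ≤ (Real.exp R - 1) * ∑ i, |w i| := by
      have h3 : |∑ i, v i / x i * w i| ≤ ∑ i, |v i / x i * w i| :=
        Finset.abs_sum_le_sum_abs _ _
      have h4 : (∑ i, |v i / x i * w i|) * |tstar v x| ≤ (Real.exp R - 1) * ∑ i, |w i| := by
        rw [Finset.sum_mul, Finset.mul_sum]
        refine Finset.sum_le_sum fun i _ => ?_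
        have h5 := tstar_mul_le v x hv hI hx i
        have h6 : |v i / x i| * |tstar v x| ≤ Real.exp R - 1 := by
          rw [abs_div, abs_of_pos (hx i)]
          have : |v i| / x i * |tstar v x| = (|tstar v x| * |v i|) / x i := by ring
          rw [this, div_le_iff₀ (hx i)]
          nlinarith [hx i]
        rw [abs_mul]
        have := abs_nonneg (w i)
        calc |v i / x i| * |w i| * |tstar v x| = (|v i / x i| * |tstar v x|) * |w i| := by ring
          _ ≤ (Real.exp R - 1) * |w i| := mul_le_mul_of_nonneg_right h6 this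
      exact le_trans (mul_le_mul_of_nonneg_right h3 (abs_nonneg _)) h4
    calc |∑ i, v i / x i * w i| * Delta v x
        ≤ |∑ i, v i / x i * w i| * (|tstar v x| * R) :=
          mul_le_mul_of_nonneg_left hD2 (abs_nonneg _)
      _ = (|∑ i, v i / x i * w i| * |tstar v x|) * R := by ring
      _ ≤ ((Real.exp R - 1) * ∑ i, |w i|) * R := mul_le_mul_of_nonneg_right h2 hR
      _ = R * (Real.exp R - 1) * ∑ i, |w i| := by ring
  -- second part
  have h2 : |dot (logv x) w - dot (logv (xstar v x)) w| ≤ R * ∑ i, |w i| := by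
    unfold dot logv
    rw [← Finset.sum_sub_distrib, Finset.mul_sum]
    refine le_trans (Finset.abs_sum_le_sum_abs _ _) (Finset.sum_le_sum fun i _ => ?_)
    have : Real.log (x i) * w i - Real.log (xstar v x i) * w i =
        (Real.log (x i) - Real.log (xstar v x i)) * w i := by ring
    rw [this, abs_mul]
    refine mul_le_mul_of_nonneg_right ?_ (abs_nonneg _)
    rw [abs_sub_comm]
    exact le_trans (abs_log_xstar_sub_le v x hv hI hx i) hφ
  have hS : 0 ≤ ∑ i, |w i| := Finset.sum_nonneg fun i _ => abs_nonneg _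
  calc |ca * (∑ i, v i / x i * w i) * Delta v x +
        cb * (dot (logv x) w - dot (logv (xstar v x)) w)|
      ≤ |ca * (∑ i, v i / x i * w i) * Delta v x| +
          |cb * (dot (logv x) w - dot (logv (xstar v x)) w)| := abs_add_le _ _
    _ = |ca| * |(∑ i, v i / x i * w i) * Delta v x| +
          |cb| * |dot (logv x) w - dot (logv (xstar v x)) w| := by
        rw [mul_assoc, abs_mul, abs_mul cb]
    _ ≤ C * (R * (Real.exp R - 1) * ∑ i, |w i|) + 1 * (R * ∑ i, |w i|) := by
        gcongr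
    _ = (C * R * (Real.exp R - 1) + R) * ∑ i, |w i| := by ring

section cutoff

variable {χ χ' : ℝ → ℝ} {R₁ R₂ C : ℝ}

/-- Uniform bound for the gradient against the plain logarithm. -/
lemma grad_sub_log_bound (hcut : IsCutOff χ χ' R₁ R₂ C) (hC : 0 ≤ C) (hR₂ : 0 ≤ R₂)
    (D : Finset α) (v : α → Fin d → ℝ)
    (hv : ∀ g ∈ D, v g ≠ 0) (hI : ∀ g ∈ D, IntLike (v g)) {x : Fin d → ℝ} (hx : ∀ i, 0 < x i)
    (w : Fin d → ℝ) :
    |dot (grad D v χ χ' x) w - dot (logv x) w| ≤
      (D.card : ℝ) * ((C * R₂ * (Real.exp R₂ - 1) + R₂) * ∑ i, |w i|) := by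
  rw [dot_grad, sub_sub_cancel_left, abs_neg]
  have hexp0 : 0 ≤ Real.exp R₂ - 1 := by
    have := Real.add_one_le_exp R₂
    linarith
  have hS : 0 ≤ ∑ i, |w i| := Finset.sum_nonneg fun i _ => abs_nonneg _
  have hB : 0 ≤ (C * R₂ * (Real.exp R₂ - 1) + R₂) * ∑ i, |w i| := by positivity
  refine le_trans (Finset.abs_sum_le_sum_abs _ _) ?_
  rw [← nsmul_eq_mul]
  refine Finset.sum_le_card_nsmul _ _ _ fun g hg => ?_
  by_cases hfar : R₂ < |phi (v g) x|
  · obtain ⟨h1, h2⟩ := hcut.far _ hfar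
    rw [h1, h2]
    simpa using hB
  · exact term_bound (v := v g) (x := x) (w := w) (hv g hg) (hI g hg) hx (not_lt.mp hfar)
      (hcut.bdd (phi (v g) x)) (by
        rw [abs_of_nonneg (hcut.nonneg _)]; exact hcut.le_one _)

lemma WW_le_Vf (hcut : IsCutOff χ χ' R₁ R₂ C) (D : Finset α) (v : α → Fin d → ℝ)
    (hv : ∀ g ∈ D, v g ≠ 0) {x : Fin d → ℝ} (hx : ∀ i, 0 < x i) :
    WW D v χ x ≤ Vf x := by
  unfold WW
  have : 0 ≤ ∑ g ∈ D, χ (phi (v g) x) * Delta (v g) x :=
    Finset.sum_nonneg fun g hg => mul_nonneg (hcut.nonneg _) (Delta_nonneg (v g) x (hv g hg) hx)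
  linarith

/-- `χ * Delta` is at most linear in the size of `x`. -/
lemma chi_mul_Delta_le (hcut : IsCutOff χ χ' R₁ R₂ C) (hR₂ : 0 ≤ R₂) {v x : Fin d → ℝ}
    (hv : v ≠ 0) (hI : IntLike v) (hx : ∀ i, 0 < x i) {X : ℝ} (hX : ∀ i, x i ≤ X) :
    χ (phi v x) * Delta v x ≤ R₂ * (Real.exp R₂ - 1) * X := by
  have hexp0 : 0 ≤ Real.exp R₂ - 1 := by
    have := Real.add_one_le_exp R₂
    linarith
  obtain ⟨i, hi⟩ : ∃ i, v i ≠ 0 := by
    by_contra h
    push Not at h
    exact hv (funext h)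
  have hXpos : 0 < X := lt_of_lt_of_le (hx i) (hX i)
  by_cases hfar : R₂ < |phi v x|
  · rw [(hcut.far _ hfar).1, zero_mul]
    positivity
  · have hφ := not_lt.mp hfar
    have h0 := hcut.nonneg (phi v x)
    have h1 := hcut.le_one (phi v x)
    have hD0 := Delta_nonneg v x hv hx
    have hD1 := Delta_le v x hv hx
    have ht := tstar_mul_le v x hv hI hx i
    have hvi := hI i hi
    have ht2 : |tstar v x| ≤ X * (Real.exp R₂ - 1) := by
      have h3 : Real.exp |phi v x| - 1 ≤ Real.exp R₂ - 1 := by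
        have := Real.exp_le_exp.mpr hφ
        linarith
      have h4 : x i * (Real.exp |phi v x| - 1) ≤ X * (Real.exp R₂ - 1) :=
        mul_le_mul (hX i) h3 (by
          have := Real.add_one_le_exp |phi v x|
          have := abs_nonneg (phi v x)
          linarith) hXpos.le
      have h5 : |tstar v x| ≤ |tstar v x| * |v i| := by
        have := abs_nonneg (tstar v x)
        nlinarith
      linarith
    calc χ (phi v x) * Delta v x ≤ 1 * Delta v x := mul_le_mul_of_nonneg_right h1 hD0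
      _ ≤ |tstar v x| * |phi v x| := by linarith
      _ ≤ (X * (Real.exp R₂ - 1)) * R₂ := mul_le_mul ht2 hφ (abs_nonneg _) (by positivity)
      _ = R₂ * (Real.exp R₂ - 1) * X := by ring

/-- Lower bound for `Vf` at the largest coordinate. -/
lemma Vf_ge_max {x : Fin d → ℝ} (hx : ∀ i, 0 < x i) (i₀ : Fin d) :
    x i₀ * Real.log (x i₀) - x i₀ - (d : ℝ) ≤ Vf x := by
  unfold Vf
  have hterm : ∀ i, -1 ≤ x i * Real.log (x i) - x i := by
    intro i
    have := entropy_term_ge (a := x i) (b := 1) (hx i) one_pos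
    simp at this
    linarith
  have hsplit : ∑ i, (x i * Real.log (x i) - x i) =
      (x i₀ * Real.log (x i₀) - x i₀) + ∑ i ∈ Finset.univ.erase i₀, (x i * Real.log (x i) - x i) := by
    exact (Finset.add_sum_erase Finset.univ (fun i => x i * Real.log (x i) - x i)
      (Finset.mem_univ i₀)).symm
  rw [hsplit]
  have hrest : -(d : ℝ) ≤ ∑ i ∈ Finset.univ.erase i₀, (x i * Real.log (x i) - x i) := by
    have h1 : ∑ i ∈ Finset.univ.erase i₀, (-1 : ℝ) ≤
        ∑ i ∈ Finset.univ.erase i₀, (x i * Real.log (x i) - x i) :=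
      Finset.sum_le_sum fun i _ => hterm i
    have h2 : ∑ i ∈ Finset.univ.erase i₀, (-1 : ℝ) = -(((Finset.univ.erase i₀).card : ℕ) : ℝ) := by
      simp
    rw [h2] at h1
    have h3 : (((Finset.univ.erase i₀).card : ℕ) : ℝ) ≤ d := by
      have : (Finset.univ.erase i₀).card ≤ (Finset.univ : Finset (Fin d)).card :=
        Finset.card_le_card (Finset.erase_subset _ _)
      simp only [Finset.card_univ, Fintype.card_fin] at this
      exact_mod_cast this
    linarith
  linarith

/-- Properness: sublevel sets of `WW` are bounded. -/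
lemma coord_le_of_WW_le (hcut : IsCutOff χ χ' R₁ R₂ C) (hR₂ : 0 ≤ R₂) (D : Finset α)
    (v : α → Fin d → ℝ) (hv : ∀ g ∈ D, v g ≠ 0) (hI : ∀ g ∈ D, IntLike (v g)) (w : ℝ) :
    ∃ M : ℝ, ∀ x : Fin d → ℝ, (∀ i, 0 < x i) → WW D v χ x ≤ w → ∀ i, x i ≤ M := by
  set C₁ : ℝ := (D.card : ℝ) * (R₂ * (Real.exp R₂ - 1)) with hC₁
  have hexp0 : 0 ≤ Real.exp R₂ - 1 := by
    have := Real.add_one_le_exp R₂
    linarith
  have hC₁0 : 0 ≤ C₁ := by positivity
  refine ⟨max (Real.exp (C₁ + 2)) (|w| + d), ?_⟩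
  intro x hx hW i
  -- pick the largest coordinate
  obtain ⟨i₀, -, hmax⟩ := Finset.exists_max_image Finset.univ x ⟨i, Finset.mem_univ i⟩
  have hX : ∀ j, x j ≤ x i₀ := fun j => hmax j (Finset.mem_univ j)
  set X := x i₀ with hXdef
  have hXpos : 0 < X := hx i₀
  have hle : ∑ g ∈ D, χ (phi (v g) x) * Delta (v g) x ≤ C₁ * X := by
    have h1 : ∑ g ∈ D, χ (phi (v g) x) * Delta (v g) x ≤
        ∑ g ∈ D, (R₂ * (Real.exp R₂ - 1) * X) :=
      Finset.sum_le_sum fun g hg =>
        chi_mul_Delta_le hcut hR₂ (hv g hg) (hI g hg) hx hX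
    rw [Finset.sum_const, nsmul_eq_mul] at h1
    calc _ ≤ _ := h1
      _ = C₁ * X := by rw [hC₁]; ring
  have hV := Vf_ge_max hx i₀
  unfold WW at hW
  have hmain : X * Real.log X - X - (d : ℝ) - C₁ * X ≤ w := by
    simp only [hXdef] at *
    linarith
  refine le_trans (hX i) ?_
  by_contra hcon
  push Not at hcon
  have h1 : Real.exp (C₁ + 2) < X := lt_of_le_of_lt (le_max_left _ _) hcon
  have h2 : |w| + d < X := lt_of_le_of_lt (le_max_right _ _) hcon
  have hlog : C₁ + 2 < Real.log X := by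
    rwa [Real.lt_log_iff_exp_lt hXpos]
  have h3 : X * (C₁ + 2) < X * Real.log X := mul_lt_mul_of_pos_left hlog hXpos
  have h4 := le_abs_self w
  nlinarith

/-- On a bounded set `Vf` is bounded above. -/
lemma Vf_le_of_le {x : Fin d → ℝ} (hx : ∀ i, 0 < x i) {ρ : ℝ} (hρ : 1 ≤ ρ) (hle : ∀ i, x i ≤ ρ) :
    Vf x ≤ d * (ρ * Real.log ρ) := by
  unfold Vf
  have h : ∀ i, x i * Real.log (x i) - x i ≤ ρ * Real.log ρ := by
    intro i
    have h1 : Real.log (x i) ≤ Real.log ρ := Real.log_le_log (hx i) (hle i)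
    have h2 : 0 ≤ Real.log ρ := Real.log_nonneg hρ
    have h3 : x i * Real.log (x i) ≤ x i * Real.log ρ := mul_le_mul_of_nonneg_left h1 (hx i).le
    have h4 : x i * Real.log ρ ≤ ρ * Real.log ρ := mul_le_mul_of_nonneg_right (hle i) h2
    linarith [hx i]
  calc ∑ i, (x i * Real.log (x i) - x i) ≤ ∑ _i : Fin d, ρ * Real.log ρ :=
        Finset.sum_le_sum fun i _ => h i
    _ = d * (ρ * Real.log ρ) := by simp

end cutoff

/-- If `v₁, v₂` are linearly independent, the coefficients of a combination are controlled. -/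
lemma exists_coeff_bound {v₁ v₂ : Fin d → ℝ} (h : ∀ a b : ℝ, a • v₁ + b • v₂ = 0 → a = 0 ∧ b = 0) :
    ∃ K : ℝ, 0 < K ∧ ∀ a b : ℝ, |a| + |b| ≤ K * ‖a • v₁ + b • v₂‖ := by
  let T : (ℝ × ℝ) →ₗ[ℝ] (Fin d → ℝ) :=
    (LinearMap.fst ℝ ℝ ℝ).smulRight v₁ + (LinearMap.snd ℝ ℝ ℝ).smulRight v₂
  have hT : ∀ p : ℝ × ℝ, T p = p.1 • v₁ + p.2 • v₂ := fun p => rfl
  have hker : LinearMap.ker T = ⊥ := by
    rw [LinearMap.ker_eq_bot']
    intro p hp
    rw [hT] at hp
    obtain ⟨h1, h2⟩ := h _ _ hp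
    exact Prod.ext h1 h2
  obtain ⟨K, -, hK⟩ := LinearMap.exists_antilipschitzWith T hker
  refine ⟨2 * ((K : ℝ) + 1), by positivity, fun a b => ?_⟩
  have h1 := hK.le_mul_dist (a, b) 0
  rw [dist_zero_right, map_zero, dist_zero_right, hT] at h1
  have h2 : |a| ≤ ‖(a, b)‖ := by
    have := norm_fst_le (a, b)
    simpa using this
  have h3 : |b| ≤ ‖(a, b)‖ := by
    have := norm_snd_le (a, b)
    simpa using this
  have h4 : 0 ≤ ‖a • v₁ + b • v₂‖ := norm_nonneg _
  have h5 : (K : ℝ) * ‖a • v₁ + b • v₂‖ ≤ ((K : ℝ) + 1) * ‖a • v₁ + b • v₂‖ := by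
    nlinarith
  simp only at h1
  linarith

/-- Two independent near directions force `x` into a bounded set of the stoichiometric class. -/
lemma bounded_of_two_near {v₁ v₂ c : Fin d → ℝ}
    (h : ∀ a b : ℝ, a • v₁ + b • v₂ = 0 → a = 0 ∧ b = 0) (hc : ∀ i, 0 < c i) (B : ℝ) (hB : 0 ≤ B) :
    ∃ ρ : ℝ, ∀ x : Fin d → ℝ, (∀ i, 0 < x i) → (∃ a b : ℝ, x = c + a • v₁ + b • v₂) →
      |phi v₁ x| ≤ B → |phi v₂ x| ≤ B → ∀ i, x i ≤ ρ := by
  obtain ⟨K, hK, hKb⟩ := exists_coeff_bound h
  set L : ℝ := ∑ i, |Real.log (c i)| with hL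
  have hL0 : 0 ≤ L := Finset.sum_nonneg fun i _ => abs_nonneg _
  set cm : ℝ := ∑ i, c i with hcm
  have hcm0 : ∀ i, c i ≤ cm := fun i =>
    Finset.single_le_sum (f := c) (fun j _ => (hc j).le) (Finset.mem_univ i)
  set X₀ : ℝ := max (cm + 1) (Real.exp (K * B + 2 * L)) with hX₀
  refine ⟨cm + X₀, ?_⟩
  intro x hx ⟨a, b, hxeq⟩ h1 h2 i
  set s : Fin d → ℝ := a • v₁ + b • v₂ with hs
  have hxs : ∀ j, x j = c j + s j := by
    intro j
    rw [hxeq, hs]
    simp [add_assoc]
  -- the largest coordinate of `s`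
  have hi₀ : ∃ i₀, ∀ j, |s j| ≤ |s i₀| := by
    obtain ⟨i₀, -, hm⟩ := Finset.exists_max_image Finset.univ (fun j => |s j|)
      ⟨i, Finset.mem_univ i⟩
    exact ⟨i₀, fun j => hm j (Finset.mem_univ j)⟩
  obtain ⟨i₀, hi₀⟩ := hi₀
  set X := |s i₀| with hX
  have hXnorm : ‖s‖ ≤ X := (pi_norm_le_iff_of_nonneg (abs_nonneg _)).2 fun j => by
    simpa [Real.norm_eq_abs] using hi₀ j
  have hsle : x i ≤ cm + X := by
    rw [hxs i]
    have := le_abs_self (s i)
    have := hi₀ i
    have := hcm0 i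
    linarith
  refine le_trans hsle ?_
  suffices hX₁ : X ≤ X₀ by linarith
  by_contra hcon
  push Not at hcon
  have hXc : cm + 1 < X := lt_of_le_of_lt (le_max_left _ _) hcon
  have hXe : Real.exp (K * B + 2 * L) < X := lt_of_le_of_lt (le_max_right _ _) hcon
  have hXpos : 0 < X := lt_trans (Real.exp_pos _) hXe
  have hlog : K * B + 2 * L < Real.log X := by
    rwa [Real.lt_log_iff_exp_lt hXpos]
  -- s i₀ is positive and equal to X
  have hsi₀ : s i₀ = X := by
    rcases abs_cases (s i₀) with ⟨h3, _⟩ | ⟨h3, h4⟩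
    · rw [hX, h3]
    · exfalso
      have h5 := hx i₀
      rw [hxs i₀] at h5
      have h6 := hcm0 i₀
      have : X = - s i₀ := by rw [hX, h3]
      linarith
  have hsum : ∑ j, s j * Real.log (x j) = a * phi v₁ x + b * phi v₂ x := by
    unfold phi
    rw [Finset.mul_sum, Finset.mul_sum, ← Finset.sum_add_distrib]
    refine Finset.sum_congr rfl fun j _ => ?_
    simp only [hs, Pi.add_apply, Pi.smul_apply, smul_eq_mul]
    ring
  have hup : ∑ j, s j * Real.log (x j) ≤ (K * B) * X := by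
    rw [hsum]
    have h3 : a * phi v₁ x + b * phi v₂ x ≤ |a| * B + |b| * B := by
      have h4 : a * phi v₁ x ≤ |a| * B := by
        calc a * phi v₁ x ≤ |a * phi v₁ x| := le_abs_self _
          _ = |a| * |phi v₁ x| := abs_mul _ _
          _ ≤ |a| * B := mul_le_mul_of_nonneg_left h1 (abs_nonneg _)
      have h5 : b * phi v₂ x ≤ |b| * B := by
        calc b * phi v₂ x ≤ |b * phi v₂ x| := le_abs_self _
          _ = |b| * |phi v₂ x| := abs_mul _ _
          _ ≤ |b| * B := mul_le_mul_of_nonneg_left h2 (abs_nonneg _)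
      linarith
    have h4 : |a| + |b| ≤ K * X := le_trans (hKb a b)
      (mul_le_mul_of_nonneg_left hXnorm hK.le)
    calc a * phi v₁ x + b * phi v₂ x ≤ (|a| + |b|) * B := by linarith
      _ ≤ (K * X) * B := mul_le_mul_of_nonneg_right h4 hB
      _ = (K * B) * X := by ring
  -- lower bound, term by term
  have hterm : ∀ j, s j * Real.log (c j) ≤ s j * Real.log (x j) := by
    intro j
    rcases le_total 0 (s j) with h3 | h3
    · apply mul_le_mul_of_nonneg_left _ h3
      apply Real.log_le_log (hc j)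
      rw [hxs j]; linarith
    · apply mul_le_mul_of_nonpos_left _ h3
      apply Real.log_le_log (hx j)
      rw [hxs j]; linarith
  have hlow0 : -(X * L) ≤ ∑ j, s j * Real.log (c j) := by
    have h3 : ∀ j, -(X * |Real.log (c j)|) ≤ s j * Real.log (c j) := by
      intro j
      have h4 : |s j * Real.log (c j)| ≤ X * |Real.log (c j)| := by
        rw [abs_mul]
        exact mul_le_mul_of_nonneg_right (hi₀ j) (abs_nonneg _)
      have := neg_abs_le (s j * Real.log (c j))
      linarith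
    calc -(X * L) = ∑ j, -(X * |Real.log (c j)|) := by
          rw [hL, Finset.mul_sum, Finset.sum_neg_distrib]
      _ ≤ _ := Finset.sum_le_sum fun j _ => h3 j
  have hlow : ∑ j, s j * Real.log (c j) + X * (Real.log X - L) ≤ ∑ j, s j * Real.log (x j) := by
    have h3 : ∑ j, s j * Real.log (c j) + (s i₀ * Real.log (x i₀) - s i₀ * Real.log (c i₀)) ≤
        ∑ j, s j * Real.log (x j) := by
      have h4 : ∑ j, (s j * Real.log (x j) - s j * Real.log (c j)) ≥
          s i₀ * Real.log (x i₀) - s i₀ * Real.log (c i₀) :=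
        Finset.single_le_sum (f := fun j => s j * Real.log (x j) - s j * Real.log (c j))
          (fun j _ => sub_nonneg.mpr (hterm j)) (Finset.mem_univ i₀)
      rw [Finset.sum_sub_distrib] at h4
      linarith
    have h5 : X * (Real.log X - L) ≤ s i₀ * Real.log (x i₀) - s i₀ * Real.log (c i₀) := by
      rw [hsi₀]
      have h6 : Real.log X ≤ Real.log (x i₀) := by
        apply Real.log_le_log hXpos
        rw [hxs i₀, hsi₀]
        linarith [hc i₀]
      have h7 : Real.log (c i₀) ≤ L :=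
        le_trans (le_abs_self _) (Finset.single_le_sum (f := fun j => |Real.log (c j)|)
          (fun j _ => abs_nonneg _) (Finset.mem_univ i₀))
      have : X * (Real.log X - L) ≤ X * (Real.log (x i₀) - Real.log (c i₀)) :=
        mul_le_mul_of_nonneg_left (by linarith) hXpos.le
      linarith
    linarith
  have hfinal : X * (Real.log X - L) - X * L ≤ (K * B) * X := by linarith
  have h8 : X * (K * B + 2 * L) < X * Real.log X := mul_lt_mul_of_pos_left hlog hXpos
  nlinarith

end Vale.Agent.Lib.P072
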