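import Mathlib

/-!
Mass-action systems over `d` species. A reaction is a pair `(y, y')` of complexes; a network is a
finite set of reactions.
-/

namespace Vale.Agent.Lib.P072

/-- A complex: nonnegative integer stoichiometric coefficients over `d` species. -/
abbrev Cplx (d : ℕ) := Fin d → ℕ

/-- The monomial `x^y = ∏ i, x i ^ y i`. -/
noncomputable def monom {d : ℕ} (x : Fin d → ℝ) (y : Cplx d) : ℝ := ∏ i, x i ^ y i

/-- The reaction vector `y' - y` of the reaction `p = (y, y')`. -/
def rxnVec {d : ℕ} (p : Cplx d × Cplx d) : Fin d → ℝ := fun i => (p.2 i : ℝ) - (p.1 i : ℝ)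

/-- The mass-action vector field `∑_{y → y'} k_{y → y'} x^y (y' - y)`. -/
noncomputable def massAction {d : ℕ} (R : Finset (Cplx d × Cplx d)) (k : Cplx d × Cplx d → ℝ)
    (x : Fin d → ℝ) : Fin d → ℝ :=
  ∑ p ∈ R, (k p * monom x p.1) • rxnVec p

/-- The stoichiometric subspace, spanned by the reaction vectors. -/
def stoich {d : ℕ} (R : Finset (Cplx d × Cplx d)) : Submodule ℝ (Fin d → ℝ) :=
  Submodule.span ℝ (rxnVec '' (R : Set (Cplx d × Cplx d)))

/-- Weak reversibility: for each reaction `y → y'` there is a directed path from `y'` to `y`. -/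
def WeaklyReversible {d : ℕ} (R : Finset (Cplx d × Cplx d)) : Prop :=
  ∀ p ∈ R, Relation.ReflTransGen (fun a b => (a, b) ∈ R) p.2 p.1

end Vale.Agent.Lib.P072
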