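import Mathlib

/-!
Elementary facts about the entropy function `Vf` on the positive orthant and its minimiser along
a line `x + t v`.
-/

open Finset

namespace Vale.Agent.Lib.P072

variable {d : ℕ}

/-- The entropy function. -/
noncomputable def Vf (x : Fin d → ℝ) : ℝ := ∑ i, (x i * Real.log (x i) - x i)

/-- The pairing of `v` with `log x`. -/
noncomputable def phi (v x : Fin d → ℝ) : ℝ := ∑ i, v i * Real.log (x i)

/-- The point `x + t v`. -/
def shift (x v : Fin d → ℝ) (t : ℝ) : Fin d → ℝ := fun i => x i + t * v i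

@[simp] lemma shift_zero (x v : Fin d → ℝ) : shift x v 0 = x := by
  funext i; simp [shift]

lemma shift_apply (x v : Fin d → ℝ) (t : ℝ) (i : Fin d) : shift x v t i = x i + t * v i := rfl

/-- Pointwise convexity inequality for `a log a - a`. -/
lemma entropy_term_ge {a b : ℝ} (ha : 0 < a) (hb : 0 < b) :
    b * Real.log b - b + Real.log b * (a - b) ≤ a * Real.log a - a := by
  have h : Real.log (b / a) ≤ b / a - 1 := Real.log_le_sub_one_of_pos (div_pos hb ha)
  rw [Real.log_div hb.ne' ha.ne'] at h
  have h2 : a * (Real.log b - Real.log a) ≤ a * (b / a - 1) :=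
    mul_le_mul_of_nonneg_left h ha.le
  have h3 : a * (b / a - 1) = b - a := by field_simp
  nlinarith [h2, h3]

lemma Vf_ge {y z : Fin d → ℝ} (hy : ∀ i, 0 < y i) (hz : ∀ i, 0 < z i) :
    Vf z + ∑ i, Real.log (z i) * (y i - z i) ≤ Vf y := by
  unfold Vf
  rw [← Finset.sum_add_distrib]
  exact Finset.sum_le_sum fun i _ => entropy_term_ge (hy i) (hz i)

/-- Each term of `phi` along a line is monotone. -/
lemma term_mono {a c s t : ℝ} (hs : 0 < a + s * c) (ht : 0 < a + t * c) (hst : s ≤ t) :
    c * Real.log (a + s * c) ≤ c * Real.log (a + t * c) := by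
  rcases lt_trichotomy c 0 with hc | hc | hc
  · have : a + t * c ≤ a + s * c := by nlinarith
    have := Real.log_le_log ht this
    nlinarith
  · simp [hc]
  · have : a + s * c ≤ a + t * c := by nlinarith
    have := Real.log_le_log hs this
    nlinarith

lemma term_strictMono {a c s t : ℝ} (hs : 0 < a + s * c) (ht : 0 < a + t * c) (hst : s < t)
    (hc0 : c ≠ 0) :
    c * Real.log (a + s * c) < c * Real.log (a + t * c) := by
  rcases lt_or_gt_of_ne hc0 with hc | hc
  · have : a + t * c < a + s * c := by nlinarith
    have := Real.log_lt_log ht this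
    nlinarith
  · have : a + s * c < a + t * c := by nlinarith
    have := Real.log_lt_log hs this
    nlinarith

lemma phi_shift_mono (v x : Fin d → ℝ) {s t : ℝ} (hs : ∀ i, 0 < x i + s * v i)
    (ht : ∀ i, 0 < x i + t * v i) (hst : s ≤ t) :
    phi v (shift x v s) ≤ phi v (shift x v t) :=
  Finset.sum_le_sum fun i _ => term_mono (hs i) (ht i) hst

lemma phi_shift_strictMono (v x : Fin d → ℝ) (hv : v ≠ 0) {s t : ℝ} (hs : ∀ i, 0 < x i + s * v i)
    (ht : ∀ i, 0 < x i + t * v i) (hst : s < t) :
    phi v (shift x v s) < phi v (shift x v t) := by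
  obtain ⟨i, hi⟩ : ∃ i, v i ≠ 0 := by
    by_contra h
    push Not at h
    exact hv (funext h)
  exact Finset.sum_lt_sum (fun j _ => term_mono (hs j) (ht j) hst.le)
    ⟨i, Finset.mem_univ i, term_strictMono (hs i) (ht i) hst hi⟩

/-- There is a point on the forward half of the line where `phi` is positive. -/
lemma exists_forward (v x : Fin d → ℝ) (hv : v ≠ 0) (hx : ∀ i, 0 < x i) :
    ∃ t, 0 ≤ t ∧ (∀ i, 0 < x i + t * v i) ∧ 0 < phi v (shift x v t) := by
  set c : ℝ := |phi v x| + 1 with hc
  have hcpos : 0 < c := by positivity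
  -- difference of `phi` against `phi` at `x`, bounded below by one term
  have key : ∀ t : ℝ, 0 ≤ t → (∀ i, 0 < x i + t * v i) → ∀ i,
      v i * (Real.log (x i + t * v i) - Real.log (x i)) ≤
        phi v (shift x v t) - phi v x := by
    intro t ht hD i
    have h0 : ∀ j, 0 < x j + 0 * v j := fun j => by simpa using hx j
    have : phi v (shift x v t) - phi v x =
        ∑ j, v j * (Real.log (x j + t * v j) - Real.log (x j)) := by
      unfold phi
      rw [← Finset.sum_sub_distrib]
      refine Finset.sum_congr rfl fun j _ => ?_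
      simp only [shift_apply]; ring
    rw [this]
    refine Finset.single_le_sum (f := fun j => v j * (Real.log (x j + t * v j) - Real.log (x j)))
      (fun j _ => ?_) (Finset.mem_univ i)
    have := term_mono (a := x j) (c := v j) (s := 0) (t := t) (h0 j) (hD j) ht
    simp only [zero_mul, add_zero] at this
    linarith
  by_cases hneg : ∃ i, v i < 0
  · -- some coordinate decreases: go close to the boundary
    let N := Finset.univ.filter fun i => v i < 0
    have hN : N.Nonempty := by
      obtain ⟨i, hi⟩ := hneg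
      exact ⟨i, by simp [N, hi]⟩
    obtain ⟨i₀, hi₀, hmin⟩ := Finset.exists_min_image N (fun i => x i / (-v i)) hN
    have hi₀' : v i₀ < 0 := by simpa [N] using hi₀
    set a := x i₀ with ha
    set b := - v i₀ with hb
    have hbpos : 0 < b := by simp [hb, hi₀']
    have hapos : 0 < a := hx i₀
    set r := Real.exp (-(c / b)) with hr
    have hrpos : 0 < r := Real.exp_pos _
    have hrlt : r < 1 := by
      rw [hr, Real.exp_lt_one_iff]
      have : 0 < c / b := div_pos hcpos hbpos
      linarith
    set t := a * (1 - r) / b with ht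
    have htpos : 0 < t := by
      apply div_pos (mul_pos hapos (by linarith)) hbpos
    have hD : ∀ i, 0 < x i + t * v i := by
      intro i
      by_cases hvi : v i < 0
      · have hiN : i ∈ N := by simp [N, hvi]
        have h1 := hmin i hiN
        have hvi' : 0 < - v i := by linarith
        have h2 : a / b * (- v i) ≤ x i := by
          rw [le_div_iff₀ hvi'] at h1
          exact h1
        have h3 : t * (- v i) = a / b * (- v i) * (1 - r) := by
          rw [ht]; field_simp
        have h4 : a / b * (- v i) * (1 - r) < a / b * (- v i) := by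
          have : 0 < a / b * (- v i) := by positivity
          nlinarith
        nlinarith
      · have : 0 ≤ t * v i := mul_nonneg htpos.le (not_lt.mp hvi)
        linarith [hx i]
    refine ⟨t, htpos.le, hD, ?_⟩
    have hkey := key t htpos.le hD i₀
    have hval : x i₀ + t * v i₀ = a * r := by
      have : v i₀ = - b := by simp [hb]
      rw [this, ht]; field_simp; ring
    rw [hval] at hkey
    have hlog : Real.log (a * r) - Real.log (x i₀) = -(c / b) := by
      rw [Real.log_mul hapos.ne' hrpos.ne', hr, Real.log_exp]; ring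
    rw [hlog] at hkey
    have hval2 : v i₀ * (-(c / b)) = c := by
      have : v i₀ = - b := by simp [hb]
      rw [this]; field_simp
    rw [hval2] at hkey
    have : phi v x ≥ - |phi v x| := neg_abs_le _
    linarith
  · push Not at hneg
    obtain ⟨i₀, hi₀⟩ : ∃ i, v i ≠ 0 := by
      by_contra h
      push Not at h
      exact hv (funext h)
    have hi₀' : 0 < v i₀ := lt_of_le_of_ne (hneg i₀) hi₀.symm
    set a := x i₀ with ha
    set b := v i₀ with hb
    have hapos : 0 < a := hx i₀
    set r := Real.exp (c / b) with hr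
    have hrgt : 1 < r := by
      rw [hr, Real.one_lt_exp_iff]
      exact div_pos hcpos hi₀'
    set t := a * (r - 1) / b with ht
    have htpos : 0 < t := div_pos (mul_pos hapos (by linarith)) hi₀'
    have hD : ∀ i, 0 < x i + t * v i := fun i => by
      have := mul_nonneg htpos.le (hneg i)
      linarith [hx i]
    refine ⟨t, htpos.le, hD, ?_⟩
    have hkey := key t htpos.le hD i₀
    have hval : x i₀ + t * v i₀ = a * r := by
      rw [ht]; field_simp; ring
    rw [hval] at hkey
    have hrpos : 0 < r := by linarith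
    have hlog : Real.log (a * r) - Real.log (x i₀) = c / b := by
      rw [Real.log_mul hapos.ne' hrpos.ne', hr, Real.log_exp]; ring
    rw [hlog] at hkey
    have hval2 : v i₀ * (c / b) = c := by
      rw [← hb]; field_simp
    rw [hval2] at hkey
    have : phi v x ≥ - |phi v x| := neg_abs_le _
    linarith

lemma phi_neg (v x : Fin d → ℝ) : phi (-v) x = - phi v x := by
  simp [phi, Finset.sum_neg_distrib]

lemma shift_neg (x v : Fin d → ℝ) (s : ℝ) : shift x (-v) s = shift x v (-s) := by
  funext i; simp [shift]

/-- There is a point on the backward half of the line where `phi` is negative. -/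
lemma exists_backward (v x : Fin d → ℝ) (hv : v ≠ 0) (hx : ∀ i, 0 < x i) :
    ∃ t, t ≤ 0 ∧ (∀ i, 0 < x i + t * v i) ∧ phi v (shift x v t) < 0 := by
  obtain ⟨s, hs, hD, hp⟩ := exists_forward (-v) x (neg_ne_zero.mpr hv) hx
  refine ⟨-s, by linarith, ?_, ?_⟩
  · intro i
    have := hD i
    simpa using this
  · rw [phi_neg, shift_neg] at hp
    linarith

lemma continuousOn_phi_shift (v x : Fin d → ℝ) {a b : ℝ}
    (h : ∀ t ∈ Set.Icc a b, ∀ i, 0 < x i + t * v i) :
    ContinuousOn (fun t => phi v (shift x v t)) (Set.Icc a b) := by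
  unfold phi
  refine continuousOn_finsetSum _ fun i _ => ?_
  refine ContinuousOn.mul continuousOn_const ?_
  refine ContinuousOn.log ?_ fun t ht => (h t ht i).ne'
  simp only [shift_apply]
  fun_prop

/-- Existence of the minimiser on a line. -/
lemma exists_root (v x : Fin d → ℝ) (hv : v ≠ 0) (hx : ∀ i, 0 < x i) :
    ∃ t, (∀ i, 0 < x i + t * v i) ∧ phi v (shift x v t) = 0 := by
  obtain ⟨t₁, ht₁, hD₁, hp₁⟩ := exists_forward v x hv hx
  obtain ⟨t₂, ht₂, hD₂, hp₂⟩ := exists_backward v x hv hx
  have hle : t₂ ≤ t₁ := by linarith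
  have hDseg : ∀ t ∈ Set.Icc t₂ t₁, ∀ i, 0 < x i + t * v i := by
    intro t ht i
    have h1 := hD₁ i
    have h2 := hD₂ i
    by_cases hvi : 0 ≤ v i
    · have : t₂ * v i ≤ t * v i := mul_le_mul_of_nonneg_right ht.1 hvi
      linarith
    · have hvi' : v i ≤ 0 := (not_le.mp hvi).le
      have : t₁ * v i ≤ t * v i := mul_le_mul_of_nonpos_right ht.2 hvi'
      linarith
  have hcont := continuousOn_phi_shift v x hDseg
  have := intermediate_value_Icc hle hcont
  have hmem : (0 : ℝ) ∈ Set.Icc (phi v (shift x v t₂)) (phi v (shift x v t₁)) :=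
    ⟨hp₂.le, hp₁.le⟩
  obtain ⟨t, ht, hroot⟩ := this hmem
  exact ⟨t, hDseg t ht, hroot⟩

/-- The parameter of the minimiser. -/
noncomputable def tstar (v x : Fin d → ℝ) : ℝ :=
  Classical.epsilon fun t => (∀ i, 0 < x i + t * v i) ∧ phi v (shift x v t) = 0

lemma tstar_spec (v x : Fin d → ℝ) (hv : v ≠ 0) (hx : ∀ i, 0 < x i) :
    (∀ i, 0 < x i + tstar v x * v i) ∧ phi v (shift x v (tstar v x)) = 0 :=
  Classical.epsilon_spec (exists_root v x hv hx)

/-- The minimiser of `Vf` on the line through `x` in direction `v`. -/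
noncomputable def xstar (v x : Fin d → ℝ) : Fin d → ℝ := shift x v (tstar v x)

lemma xstar_pos (v x : Fin d → ℝ) (hv : v ≠ 0) (hx : ∀ i, 0 < x i) (i : Fin d) :
    0 < xstar v x i := (tstar_spec v x hv hx).1 i

lemma phi_xstar (v x : Fin d → ℝ) (hv : v ≠ 0) (hx : ∀ i, 0 < x i) :
    phi v (xstar v x) = 0 := (tstar_spec v x hv hx).2

/-- `xstar` is a minimiser along the line. -/
lemma Vf_xstar_le (v x : Fin d → ℝ) (hv : v ≠ 0) (hx : ∀ i, 0 < x i) {t : ℝ}
    (ht : ∀ i, 0 < x i + t * v i) :
    Vf (xstar v x) ≤ Vf (shift x v t) := by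
  have h := Vf_ge (y := shift x v t) (z := xstar v x) ht (xstar_pos v x hv hx)
  have h0 : ∑ i, Real.log (xstar v x i) * (shift x v t i - xstar v x i) = 0 := by
    have : ∀ i, Real.log (xstar v x i) * (shift x v t i - xstar v x i)
        = (t - tstar v x) * (v i * Real.log (xstar v x i)) := by
      intro i
      simp only [xstar, shift_apply]
      ring
    simp_rw [this]
    rw [← Finset.mul_sum]
    have := phi_xstar v x hv hx
    unfold phi at this
    rw [this, mul_zero]
  rw [h0, add_zero] at h
  exact h

/-- The gap between `Vf` at `x` and the minimum on the line. -/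
noncomputable def Delta (v x : Fin d → ℝ) : ℝ := Vf x - Vf (xstar v x)

lemma Delta_nonneg (v x : Fin d → ℝ) (hv : v ≠ 0) (hx : ∀ i, 0 < x i) : 0 ≤ Delta v x := by
  have h := Vf_xstar_le v x hv hx (t := 0) (fun i => by simpa using hx i)
  rw [shift_zero] at h
  unfold Delta; linarith

lemma Delta_le (v x : Fin d → ℝ) (hv : v ≠ 0) (hx : ∀ i, 0 < x i) :
    Delta v x ≤ |tstar v x| * |phi v x| := by
  have h := Vf_ge (y := xstar v x) (z := x) (xstar_pos v x hv hx) hx
  have h0 : ∑ i, Real.log (x i) * (xstar v x i - x i) = tstar v x * phi v x := by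
    unfold phi
    rw [Finset.mul_sum]
    refine Finset.sum_congr rfl fun i _ => ?_
    simp only [xstar, shift_apply]
    ring
  rw [h0] at h
  have : - (tstar v x * phi v x) ≤ |tstar v x| * |phi v x| := by
    rw [← abs_mul]; exact neg_le_abs _
  unfold Delta; linarith

/-- Each term in `phi xstar - phi x` is bounded by `|phi x|`. -/
lemma term_log_bound (v x : Fin d → ℝ) (hv : v ≠ 0) (hx : ∀ i, 0 < x i) (i : Fin d) :
    |v i * (Real.log (xstar v x i) - Real.log (x i))| ≤ |phi v x| := by
  have hsum : ∑ j, v j * (Real.log (xstar v x j) - Real.log (x j)) = - phi v x := by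
    have := phi_xstar v x hv hx
    unfold phi at this ⊢
    simp_rw [mul_sub]
    rw [Finset.sum_sub_distrib, this, zero_sub]
  have hpos := (tstar_spec v x hv hx).1
  have h0 : ∀ j, 0 < x j + 0 * v j := fun j => by simpa using hx j
  rcases le_total 0 (tstar v x) with ht | ht
  · have hterm : ∀ j, 0 ≤ v j * (Real.log (xstar v x j) - Real.log (x j)) := by
      intro j
      have := term_mono (a := x j) (c := v j) (s := 0) (t := tstar v x) (h0 j) (hpos j) ht
      simp only [zero_mul, add_zero] at this
      simp only [xstar, shift_apply]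
      linarith
    have h1 : v i * (Real.log (xstar v x i) - Real.log (x i)) ≤
        ∑ j, v j * (Real.log (xstar v x j) - Real.log (x j)) :=
      Finset.single_le_sum (f := fun j => v j * (Real.log (xstar v x j) - Real.log (x j)))
        (fun j _ => hterm j) (Finset.mem_univ i)
    rw [abs_of_nonneg (hterm i)]
    rw [hsum] at h1
    exact le_trans h1 (neg_le_abs _)
  · have hterm : ∀ j, v j * (Real.log (xstar v x j) - Real.log (x j)) ≤ 0 := by
      intro j
      have := term_mono (a := x j) (c := v j) (s := tstar v x) (t := 0) (hpos j) (h0 j) ht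
      simp only [zero_mul, add_zero] at this
      simp only [xstar, shift_apply]
      linarith
    have h1 : ∑ j, - (v j * (Real.log (xstar v x j) - Real.log (x j))) ≥
        - (v i * (Real.log (xstar v x i) - Real.log (x i))) :=
      Finset.single_le_sum (f := fun j => - (v j * (Real.log (xstar v x j) - Real.log (x j))))
        (fun j _ => neg_nonneg.mpr (hterm j)) (Finset.mem_univ i)
    rw [Finset.sum_neg_distrib, hsum] at h1
    rw [abs_of_nonpos (hterm i)]
    simp only [neg_neg] at h1
    exact le_trans h1 (le_abs_self _)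

/-- Directions with integer entries: nonzero entries have modulus at least one. -/
def IntLike (v : Fin d → ℝ) : Prop := ∀ i, v i ≠ 0 → 1 ≤ |v i|

lemma abs_log_xstar_sub_le (v x : Fin d → ℝ) (hv : v ≠ 0) (hI : IntLike v) (hx : ∀ i, 0 < x i)
    (i : Fin d) :
    |Real.log (xstar v x i) - Real.log (x i)| ≤ |phi v x| := by
  by_cases hvi : v i = 0
  · have : xstar v x i = x i := by simp [xstar, shift_apply, hvi]
    rw [this, sub_self, abs_zero]; exact abs_nonneg _
  · have h1 := term_log_bound v x hv hx i
    rw [abs_mul] at h1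
    have h2 := hI i hvi
    have h3 : |Real.log (xstar v x i) - Real.log (x i)| ≤
        |v i| * |Real.log (xstar v x i) - Real.log (x i)| := by
      have := abs_nonneg (Real.log (xstar v x i) - Real.log (x i))
      nlinarith
    exact le_trans h3 h1

lemma abs_exp_sub_one_le' (a : ℝ) : |Real.exp a - 1| ≤ Real.exp |a| - 1 := by
  rcases le_total 0 a with h | h
  · rw [abs_of_nonneg h, abs_of_nonneg]
    linarith [Real.add_one_le_exp a]
  · rw [abs_of_nonpos h, abs_of_nonpos]
    · have h1 := Real.add_one_le_exp a
      have h2 := Real.add_one_le_exp (-a)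
      linarith
    · have := Real.exp_le_one_iff.mpr h
      linarith

/-- The displacement `|t* v i|` is controlled by `x i`. -/
lemma tstar_mul_le (v x : Fin d → ℝ) (hv : v ≠ 0) (hI : IntLike v) (hx : ∀ i, 0 < x i)
    (i : Fin d) :
    |tstar v x| * |v i| ≤ x i * (Real.exp |phi v x| - 1) := by
  have hpos := xstar_pos v x hv hx i
  set a := Real.log (xstar v x i) - Real.log (x i) with ha
  have h1 : xstar v x i = x i * Real.exp a := by
    have hne := (hx i).ne'
    rw [ha, Real.exp_sub, Real.exp_log hpos, Real.exp_log (hx i)]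
    field_simp
  have h2 : tstar v x * v i = x i * (Real.exp a - 1) := by
    have : xstar v x i = x i + tstar v x * v i := rfl
    linarith
  rw [← abs_mul, h2, abs_mul, abs_of_pos (hx i)]
  apply mul_le_mul_of_nonneg_left _ (hx i).le
  refine le_trans (abs_exp_sub_one_le' a) ?_
  have := abs_log_xstar_sub_le v x hv hI hx i
  have h3 : Real.exp |a| ≤ Real.exp |phi v x| := Real.exp_le_exp.mpr this
  linarith

/-! ### Continuity of the minimiser -/

lemma continuousAt_phi_of_pos (v x : Fin d → ℝ) (hx : ∀ i, 0 < x i) :
    ContinuousAt (phi v) x := by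
  unfold phi
  refine tendsto_finsetSum _ fun i _ => ?_
  refine ContinuousAt.mul continuousAt_const ?_
  refine ContinuousAt.log (continuous_apply i).continuousAt (hx i).ne'

lemma continuousAt_Vf_of_pos (x : Fin d → ℝ) (hx : ∀ i, 0 < x i) :
    ContinuousAt Vf x := by
  unfold Vf
  refine tendsto_finsetSum _ fun i _ => ?_
  refine ContinuousAt.sub (ContinuousAt.mul (continuous_apply i).continuousAt ?_)
    (continuous_apply i).continuousAt
  exact ContinuousAt.log (continuous_apply i).continuousAt (hx i).ne'

lemma eventually_pos (x : Fin d → ℝ) (hx : ∀ i, 0 < x i) :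
    ∀ᶠ y in nhds x, ∀ i, 0 < y i := by
  rw [Filter.eventually_all]
  intro i
  exact (continuous_apply i).continuousAt.eventually (lt_mem_nhds (hx i))

lemma continuous_shift_fixed (v : Fin d → ℝ) (t : ℝ) :
    Continuous fun y : Fin d → ℝ => shift y v t := by
  unfold shift
  fun_prop

/-- For fixed `b`, near `x` the sign and the domain at parameter `b` persist. -/
lemma eventually_phi_pos (v x : Fin d → ℝ) {b : ℝ} (hD : ∀ i, 0 < x i + b * v i)
    (hb : 0 < phi v (shift x v b)) :
    ∀ᶠ y in nhds x, (∀ i, 0 < y i + b * v i) ∧ 0 < phi v (shift y v b) := by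
  have hcont := (continuous_shift_fixed v b).continuousAt (x := x)
  have h1 : ∀ᶠ y in nhds x, ∀ i, 0 < shift y v b i := hcont.eventually (eventually_pos _ hD)
  have hc2 : ContinuousAt (fun y => phi v (shift y v b)) x :=
    ContinuousAt.comp (g := phi v) (f := fun y => shift y v b)
      (continuousAt_phi_of_pos v (shift x v b) hD) hcont
  have h2 := hc2.eventually (lt_mem_nhds hb)
  exact h1.and h2

lemma eventually_phi_neg (v x : Fin d → ℝ) {b : ℝ} (hD : ∀ i, 0 < x i + b * v i)
    (hb : phi v (shift x v b) < 0) :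
    ∀ᶠ y in nhds x, (∀ i, 0 < y i + b * v i) ∧ phi v (shift y v b) < 0 := by
  have hcont := (continuous_shift_fixed v b).continuousAt (x := x)
  have h1 : ∀ᶠ y in nhds x, ∀ i, 0 < shift y v b i := hcont.eventually (eventually_pos _ hD)
  have hc2 : ContinuousAt (fun y => phi v (shift y v b)) x :=
    ContinuousAt.comp (g := phi v) (f := fun y => shift y v b)
      (continuousAt_phi_of_pos v (shift x v b) hD) hcont
  have h2 := hc2.eventually (gt_mem_nhds hb)
  exact h1.and h2

lemma eventually_domain_near (v x : Fin d → ℝ) {t : ℝ} (hD : ∀ i, 0 < x i + t * v i) :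
    ∀ᶠ s in nhds t, ∀ i, 0 < x i + s * v i := by
  rw [Filter.eventually_all]
  intro i
  have : ContinuousAt (fun s : ℝ => x i + s * v i) t := by fun_prop
  exact this.eventually (lt_mem_nhds (hD i))

lemma tstar_continuousAt (v x : Fin d → ℝ) (hv : v ≠ 0) (hx : ∀ i, 0 < x i) :
    ContinuousAt (tstar v) x := by
  have hspec := tstar_spec v x hv hx
  set t₀ := tstar v x with ht₀
  refine tendsto_order.2 ⟨?_, ?_⟩
  · -- lower bound
    intro a ha
    have h1 : ∀ᶠ s in nhdsWithin t₀ (Set.Iio t₀), ∀ i, 0 < x i + s * v i :=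
      (eventually_domain_near v x hspec.1).filter_mono nhdsWithin_le_nhds
    have h2 : ∀ᶠ s in nhdsWithin t₀ (Set.Iio t₀), a < s := by
      exact Filter.mem_of_superset (Ioo_mem_nhdsLT ha) fun s hs => hs.1
    have h3 : ∀ᶠ s in nhdsWithin t₀ (Set.Iio t₀), s < t₀ :=
      self_mem_nhdsWithin
    obtain ⟨b, hbD, hab, hbt⟩ := (h1.and (h2.and h3)).exists
    have hneg : phi v (shift x v b) < 0 := by
      have := phi_shift_strictMono v x hv hbD hspec.1 hbt
      rw [hspec.2] at this
      exact this
    filter_upwards [eventually_phi_neg v x hbD hneg, eventually_pos x hx] with y hy hypos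
    by_contra hle
    push Not at hle
    have hle' : tstar v y ≤ b := le_trans hle hab.le
    have hsy := tstar_spec v y hv hypos
    have := phi_shift_mono v y hsy.1 hy.1 hle'
    rw [hsy.2] at this
    linarith [hy.2]
  · intro a ha
    have h1 : ∀ᶠ s in nhdsWithin t₀ (Set.Ioi t₀), ∀ i, 0 < x i + s * v i :=
      (eventually_domain_near v x hspec.1).filter_mono nhdsWithin_le_nhds
    have h2 : ∀ᶠ s in nhdsWithin t₀ (Set.Ioi t₀), s < a := by
      exact Filter.mem_of_superset (Ioo_mem_nhdsGT ha) fun s hs => hs.2
    have h3 : ∀ᶠ s in nhdsWithin t₀ (Set.Ioi t₀), t₀ < s :=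
      self_mem_nhdsWithin
    obtain ⟨b, hbD, hab, hbt⟩ := (h1.and (h2.and h3)).exists
    have hpos : 0 < phi v (shift x v b) := by
      have := phi_shift_strictMono v x hv hspec.1 hbD hbt
      rw [hspec.2] at this
      exact this
    filter_upwards [eventually_phi_pos v x hbD hpos, eventually_pos x hx] with y hy hypos
    by_contra hle
    push Not at hle
    have hle' : b ≤ tstar v y := le_trans hab.le hle
    have hsy := tstar_spec v y hv hypos
    have := phi_shift_mono v y hy.1 hsy.1 hle'
    rw [hsy.2] at this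
    linarith [hy.2]

lemma xstar_continuousAt (v x : Fin d → ℝ) (hv : v ≠ 0) (hx : ∀ i, 0 < x i) :
    ContinuousAt (xstar v) x := by
  have ht := tstar_continuousAt v x hv hx
  unfold xstar shift
  refine continuousAt_pi.2 fun i => ?_
  have h1 : ContinuousAt (fun y : Fin d → ℝ => y i) x := (continuous_apply i).continuousAt
  exact h1.add (ht.mul continuousAt_const)

lemma Delta_continuousAt (v x : Fin d → ℝ) (hv : v ≠ 0) (hx : ∀ i, 0 < x i) :
    ContinuousAt (Delta v) x := by
  unfold Delta
  refine (continuousAt_Vf_of_pos x hx).sub ?_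
  exact ContinuousAt.comp (g := Vf) (f := xstar v)
    (continuousAt_Vf_of_pos _ (xstar_pos v x hv hx))
    (xstar_continuousAt v x hv hx)

end Vale.Agent.Lib.P072
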