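import Vale.Agent.Lib.P072.Line

/-!
The flattened Lyapunov function, its upper touching functions and their derivatives.
-/

open Finset Filter Topology

namespace Vale.Agent.Lib.P072

variable {d : ℕ} {α : Type*}

/-- Euclidean pairing. -/
def dot (a b : Fin d → ℝ) : ℝ := ∑ i, a i * b i

lemma dot_sum_right {β : Type*} (a : Fin d → ℝ) (s : Finset β) (b : β → Fin d → ℝ) :
    dot a (∑ j ∈ s, b j) = ∑ j ∈ s, dot a (b j) := by
  simp only [dot, Finset.sum_apply, Finset.mul_sum]
  rw [Finset.sum_comm]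

lemma dot_smul_right (a : Fin d → ℝ) (c : ℝ) (b : Fin d → ℝ) :
    dot a (c • b) = c * dot a b := by
  simp only [dot, Pi.smul_apply, smul_eq_mul, Finset.mul_sum]
  refine Finset.sum_congr rfl fun i _ => by ring

/-- Vector of logarithms. -/
noncomputable def logv (x : Fin d → ℝ) : Fin d → ℝ := fun i => Real.log (x i)

/-- The flattened Lyapunov function. -/
noncomputable def WW (D : Finset α) (v : α → Fin d → ℝ) (χ : ℝ → ℝ) (x : Fin d → ℝ) : ℝ :=
  Vf x - ∑ g ∈ D, χ (phi (v g) x) * Delta (v g) x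

/-- The function touching `WW` from above, with the minimisers frozen at parameters `τ`. -/
noncomputable def What (D : Finset α) (v : α → Fin d → ℝ) (χ : ℝ → ℝ) (τ : α → ℝ)
    (x : Fin d → ℝ) : ℝ :=
  Vf x - ∑ g ∈ D, χ (phi (v g) x) * (Vf x - Vf (shift x (v g) (τ g)))

/-- The gradient of the Lyapunov function. -/
noncomputable def grad (D : Finset α) (v : α → Fin d → ℝ) (χ χ' : ℝ → ℝ) (x : Fin d → ℝ) :
    Fin d → ℝ := fun i =>
  Real.log (x i) - ∑ g ∈ D, (χ' (phi (v g) x) * (v g i / x i) * Delta (v g) x +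
    χ (phi (v g) x) * (Real.log (x i) - Real.log (xstar (v g) x i)))

/-- Derivative of `Vf` along a curve. -/
lemma hasDerivWithinAt_Vf {c : ℝ → Fin d → ℝ} {c' : Fin d → ℝ} {S : Set ℝ} {s : ℝ}
    (hc : HasDerivWithinAt c c' S s) (hpos : ∀ i, 0 < c s i) :
    HasDerivWithinAt (fun u => Vf (c u)) (dot (logv (c s)) c') S s := by
  unfold Vf dot logv
  have hc' := hasDerivWithinAt_pi.1 hc
  refine HasDerivWithinAt.fun_sum fun i _ => ?_
  have h1 := (hc' i)
  have h2 : HasDerivWithinAt (fun u => Real.log (c u i)) (c' i / c s i) S s :=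
    h1.log (hpos i).ne'
  have h3 := (h1.fun_mul h2).fun_sub h1
  refine h3.congr_deriv ?_
  have := (hpos i).ne'
  field_simp
  ring

/-- Derivative of `phi` along a curve. -/
lemma hasDerivWithinAt_phi (v : Fin d → ℝ) {c : ℝ → Fin d → ℝ} {c' : Fin d → ℝ} {S : Set ℝ} {s : ℝ}
    (hc : HasDerivWithinAt c c' S s) (hpos : ∀ i, 0 < c s i) :
    HasDerivWithinAt (fun u => phi v (c u)) (∑ i, v i / c s i * c' i) S s := by
  unfold phi
  have hc' := hasDerivWithinAt_pi.1 hc
  refine HasDerivWithinAt.fun_sum fun i _ => ?_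
  have h2 : HasDerivWithinAt (fun u => Real.log (c u i)) (c' i / c s i) S s :=
    (hc' i).log (hpos i).ne'
  have h3 := h2.const_mul (v i)
  refine h3.congr_deriv ?_
  ring

/-- A shifted curve has the same derivative. -/
lemma hasDerivWithinAt_shift (v : Fin d → ℝ) (t : ℝ) {c : ℝ → Fin d → ℝ} {c' : Fin d → ℝ}
    {S : Set ℝ} {s : ℝ} (hc : HasDerivWithinAt c c' S s) :
    HasDerivWithinAt (fun u => shift (c u) v t) c' S s := by
  have hc' := hasDerivWithinAt_pi.1 hc
  refine hasDerivWithinAt_pi.2 fun i => ?_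
  simpa [shift_apply] using (hc' i).add_const (t * v i)

lemma dot_grad (D : Finset α) (v : α → Fin d → ℝ) (χ χ' : ℝ → ℝ) (x w : Fin d → ℝ) :
    dot (grad D v χ χ' x) w = dot (logv x) w - ∑ g ∈ D,
      (χ' (phi (v g) x) * (∑ i, v g i / x i * w i) * Delta (v g) x +
        χ (phi (v g) x) * (dot (logv x) w - dot (logv (xstar (v g) x)) w)) := by
  unfold dot grad logv
  simp only [sub_mul, Finset.sum_sub_distrib, Finset.sum_mul]
  congr 1
  rw [Finset.sum_comm]
  refine Finset.sum_congr rfl fun g _ => ?_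
  rw [Finset.mul_sum, Finset.sum_mul, ← Finset.sum_sub_distrib, Finset.mul_sum,
    ← Finset.sum_add_distrib]
  refine Finset.sum_congr rfl fun i _ => by ring

/-- The derivative of the touching function at the touching point. -/
lemma hasDerivWithinAt_What (D : Finset α) (v : α → Fin d → ℝ) (hv : ∀ g ∈ D, v g ≠ 0)
    {χ χ' : ℝ → ℝ} (hχ : ∀ r, HasDerivAt χ (χ' r) r)
    {c : ℝ → Fin d → ℝ} {c' : Fin d → ℝ} {S : Set ℝ} {s : ℝ}
    (hc : HasDerivWithinAt c c' S s) (hpos : ∀ i, 0 < c s i) :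
    HasDerivWithinAt (fun u => What D v χ (fun g => tstar (v g) (c s)) (c u))
      (dot (grad D v χ χ' (c s)) c') S s := by
  classical
  unfold What
  have hV := hasDerivWithinAt_Vf hc hpos
  have key : ∀ g ∈ D, HasDerivWithinAt
      (fun u => χ (phi (v g) (c u)) * (Vf (c u) - Vf (shift (c u) (v g) (tstar (v g) (c s)))))
      (χ' (phi (v g) (c s)) * (∑ i, v g i / c s i * c' i) * Delta (v g) (c s) +
        χ (phi (v g) (c s)) * (dot (logv (c s)) c' - dot (logv (xstar (v g) (c s))) c')) S s := by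
    intro g hg
    have hp := hasDerivWithinAt_phi (v g) hc hpos
    have h1 := (hχ (phi (v g) (c s))).comp_hasDerivWithinAt s hp
    have hsh := hasDerivWithinAt_shift (v g) (tstar (v g) (c s)) hc
    have hsp : ∀ i, 0 < shift (c s) (v g) (tstar (v g) (c s)) i :=
      (tstar_spec (v g) (c s) (hv g hg) hpos).1
    have h2 := hasDerivWithinAt_Vf hsh hsp
    have h3 := h1.fun_mul (hV.fun_sub h2)
    refine h3.congr_deriv ?_
    have hdelta : Vf (c s) - Vf (shift (c s) (v g) (tstar (v g) (c s))) = Delta (v g) (c s) := rfl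
    rw [hdelta]
    have hx : shift (c s) (v g) (tstar (v g) (c s)) = xstar (v g) (c s) := rfl
    rw [hx]
    rfl
  have hsum := HasDerivWithinAt.fun_sum key
  have h := hV.fun_sub hsum
  refine h.congr_deriv ?_
  rw [dot_grad]

/-- `WW` is bounded above by the touching function on the region where it is defined. -/
lemma WW_le_What (D : Finset α) (v : α → Fin d → ℝ) (hv : ∀ g ∈ D, v g ≠ 0)
    {χ : ℝ → ℝ} (hχ0 : ∀ r, 0 ≤ χ r) (τ : α → ℝ) {x : Fin d → ℝ} (hx : ∀ i, 0 < x i)
    (hD : ∀ g ∈ D, ∀ i, 0 < x i + τ g * v g i) :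
    WW D v χ x ≤ What D v χ τ x := by
  unfold WW What
  have : ∑ g ∈ D, χ (phi (v g) x) * (Vf x - Vf (shift x (v g) (τ g))) ≤
      ∑ g ∈ D, χ (phi (v g) x) * Delta (v g) x := by
    refine Finset.sum_le_sum fun g hg => ?_
    refine mul_le_mul_of_nonneg_left ?_ (hχ0 _)
    have := Vf_xstar_le (v g) x (hv g hg) hx (hD g hg)
    unfold Delta
    linarith
  linarith

lemma WW_eq_What (D : Finset α) (v : α → Fin d → ℝ) (χ : ℝ → ℝ) (x : Fin d → ℝ) :
    WW D v χ x = What D v χ (fun g => tstar (v g) x) x := by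
  unfold WW What Delta xstar
  rfl

/-- Continuity of `WW` on the positive orthant. -/
lemma WW_continuousAt (D : Finset α) (v : α → Fin d → ℝ) (hv : ∀ g ∈ D, v g ≠ 0)
    {χ : ℝ → ℝ} (hχ : Continuous χ) {x : Fin d → ℝ} (hx : ∀ i, 0 < x i) :
    ContinuousAt (WW D v χ) x := by
  unfold WW
  refine (continuousAt_Vf_of_pos x hx).sub ?_
  refine tendsto_finsetSum _ fun g hg => ?_
  refine ContinuousAt.mul ?_ (Delta_continuousAt (v g) x (hv g hg) hx)
  exact hχ.continuousAt.comp (continuousAt_phi_of_pos (v g) x hx)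

/-- General fencing lemma with touching functions. -/
lemma le_of_touching {f : ℝ → ℝ} {a b w₀ : ℝ} (hf : ContinuousOn f (Set.Icc a b))
    (ha : f a ≤ w₀)
    (htouch : ∀ s ∈ Set.Ico a b, ∃ (g : ℝ → ℝ) (g' : ℝ), HasDerivWithinAt g g' (Set.Ici s) s ∧
      g s = f s ∧ (∀ᶠ z in 𝓝[>] s, f z ≤ g z) ∧ (w₀ < f s → g' ≤ 0)) :
    ∀ t ∈ Set.Icc a b, f t ≤ w₀ := by
  classical
  choose! g g' hg hgs hgle hg' using htouch
  intro t ht
  refine le_of_forall_pos_le_add fun η hη => ?_
  have hmain : ∀ x ∈ Set.Icc a b, f x ≤ w₀ + η / (2 * (1 + (b - a))) * (x - a) + η / 2 := by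
    have hba : 0 ≤ b - a := by linarith [ht.1, ht.2]
    set θ := η / (2 * (1 + (b - a))) with hθ
    have hθpos : 0 < θ := by positivity
    refine image_le_of_liminf_slope_right_lt_deriv_boundary' (f' := g') hf ?_
      (B := fun x => w₀ + θ * (x - a) + η / 2) (B' := fun _ => θ) ?_ ?_ ?_ ?_
    · intro x hx r hr
      have hlim : Tendsto (slope (g x) x) (𝓝[>] x) (𝓝 (g' x)) := by
        have h1 := (hg x hx)
        have h2 : HasDerivWithinAt (g x) (g' x) (Set.Ioi x) x := h1.mono Set.Ioi_subset_Ici_self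
        exact (hasDerivWithinAt_iff_tendsto_slope' (by simp)).1 h2
      have hev : ∀ᶠ z in 𝓝[>] x, slope (g x) x z < r := hlim.eventually (gt_mem_nhds hr)
      refine Eventually.frequently ?_
      filter_upwards [hev, hgle x hx, self_mem_nhdsWithin] with z hz1 hz2 hz3
      refine lt_of_le_of_lt ?_ hz1
      have hzx : 0 < z - x := sub_pos.mpr hz3
      simp only [slope_def_field]
      rw [hgs x hx]
      exact div_le_div_of_nonneg_right (by linarith) hzx.le
    · simp only [sub_self, mul_zero, add_zero]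
      linarith
    · fun_prop
    · intro x _
      have h1 : HasDerivWithinAt (fun x => θ * (x - a)) (θ * 1) (Set.Ici x) x :=
        ((hasDerivWithinAt_id x _).sub_const a).const_mul θ
      have h2 := (h1.const_add w₀).add_const (η / 2)
      simpa using h2
    · intro x hx hfx
      have h1 : w₀ < f x := by
        rw [hfx]
        have : 0 ≤ θ * (x - a) := mul_nonneg hθpos.le (by linarith [hx.1])
        linarith
      have := hg' x hx h1
      exact lt_of_le_of_lt this hθpos
  have h := hmain t ht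
  have hba : 0 ≤ b - a := by linarith [ht.1, ht.2]
  have h2 : η / (2 * (1 + (b - a))) * (t - a) ≤ η / 2 := by
    have : t - a ≤ 1 + (b - a) := by linarith [ht.2]
    have hpos : 0 < 1 + (b - a) := by linarith
    have h3 : η / (2 * (1 + (b - a))) * (t - a) ≤ η / (2 * (1 + (b - a))) * (1 + (b - a)) :=
      mul_le_mul_of_nonneg_left this (by positivity)
    have h4 : η / (2 * (1 + (b - a))) * (1 + (b - a)) = η / 2 := by
      field_simp
    linarith
  linarith

end Vale.Agent.Lib.P072
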