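import Vale.Agent.Lib.P072.Static

/-!
Boundedness of positive solutions of weakly reversible mass-action systems of rank at most two.
-/

open Finset Filter Topology

namespace Vale.Agent.Lib.P072

variable {d : ℕ}

lemma massAction_mem_stoich (R : Finset (Cplx d × Cplx d)) (k : Cplx d × Cplx d → ℝ)
    (x : Fin d → ℝ) : massAction R k x ∈ stoich R := by
  unfold massAction
  refine Submodule.sum_mem _ fun p hp => Submodule.smul_mem _ _ ?_
  exact Submodule.subset_span ⟨p, hp, rfl⟩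

/-- Solutions stay in their stoichiometric class. -/
lemma sub_mem_stoich (R : Finset (Cplx d × Cplx d)) {k : ℝ → Cplx d × Cplx d → ℝ} {T : ℝ}
    {x : ℝ → Fin d → ℝ} (hcont : ContinuousOn x (Set.Ico 0 T))
    (hder : ∀ t ∈ Set.Ico 0 T, HasDerivWithinAt x (massAction R (k t) (x t)) (Set.Ici t) t)
    {t : ℝ} (ht : t ∈ Set.Ico 0 T) : x t - x 0 ∈ stoich R := by
  rw [← Subspace.forall_mem_dualAnnihilator_apply_eq_zero_iff]
  intro ℓ hℓ
  rw [Submodule.mem_dualAnnihilator] at hℓ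
  set ℓ' : (Fin d → ℝ) →L[ℝ] ℝ := LinearMap.toContinuousLinearMap ℓ with hℓ'
  have hsub : Set.Icc 0 t ⊆ Set.Ico 0 T := fun s hs => ⟨hs.1, lt_of_le_of_lt hs.2 ht.2⟩
  have hcst := constant_of_has_deriv_right_zero (f := fun s => ℓ' (x s)) (a := 0) (b := t)
    (ℓ'.continuous.comp_continuousOn (hcont.mono hsub)) (by
      intro s hs
      have hs' : s ∈ Set.Ico 0 T := ⟨hs.1, lt_trans hs.2 ht.2⟩
      have h1 := ℓ'.hasFDerivAt.comp_hasDerivWithinAt s (hder s hs')
      have h2 : ℓ' (massAction R (k s) (x s)) = 0 := hℓ _ (massAction_mem_stoich R _ _)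
      have h3 := h1
      simp only [h2] at h3
      exact h3)
  have h := hcst t ⟨ht.1, le_rfl⟩
  rw [map_sub]
  have h' : ℓ (x t) = ℓ (x 0) := h
  rw [h', sub_self]

/-- Main theorem: every positive solution stays in a bounded set depending only on the initial
value, the network, and the bounds for the rates. -/
theorem main_bounded (R : Finset (Cplx d × Cplx d)) (hne : ∀ p ∈ R, p.1 ≠ p.2)
    (hWR : WeaklyReversible R) (hdim : Module.finrank ℝ (stoich R) ≤ 2) {ε : ℝ} (hε : 0 < ε)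
    (x₀ : Fin d → ℝ) (hx₀ : ∀ i, 0 < x₀ i) :
    ∃ M : ℝ, ∀ (k : ℝ → Cplx d × Cplx d → ℝ) (T : ℝ) (x : ℝ → Fin d → ℝ),
      (∀ t p, ε ≤ k t p ∧ k t p ≤ ε⁻¹) → x 0 = x₀ → ContinuousOn x (Set.Ico 0 T) →
      (∀ t ∈ Set.Ico 0 T, (∀ i, 0 < x t i) ∧
        HasDerivWithinAt x (massAction R (k t) (x t)) (Set.Ici t) t) →
      ∀ t ∈ Set.Ico 0 T, ∀ i, x t i ≤ M := by
  classical
  obtain ⟨D, χ, χ', R₁, R₂, C, ρ, hvD, hID, hcut, hR₂, hρ, hstatic⟩ :=
    static_neg R hne hWR hdim hε x₀ hx₀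
  obtain ⟨w₀, hw₀⟩ : ∃ w₀ : ℝ, w₀ = max (WW D rxnVec χ x₀) (d * (ρ * Real.log ρ)) := ⟨_, rfl⟩
  obtain ⟨M, hM⟩ := coord_le_of_WW_le hcut hR₂ D rxnVec hvD hID w₀
  refine ⟨M, ?_⟩
  intro k T x hk hx0 hcont hsol t ht i
  have hcontχ : Continuous χ := continuous_iff_continuousAt.2 fun r =>
    (hcut.hderiv r).continuousAt
  have hsub : Set.Icc 0 t ⊆ Set.Ico 0 T := fun s hs => ⟨hs.1, lt_of_le_of_lt hs.2 ht.2⟩
  refine hM (x t) (hsol t ht).1 ?_ i
  have hder : ∀ s ∈ Set.Ico 0 T, HasDerivWithinAt x (massAction R (k s) (x s)) (Set.Ici s) s :=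
    fun s hs => (hsol s hs).2
  have hf : ContinuousOn (fun s => WW D rxnVec χ (x s)) (Set.Icc 0 t) := by
    intro s hs
    have h1 : ContinuousWithinAt x (Set.Icc 0 t) s := (hcont s (hsub hs)).mono hsub
    exact (WW_continuousAt D rxnVec hvD hcontχ (hsol s (hsub hs)).1).comp_continuousWithinAt h1
  have hstart : WW D rxnVec χ (x 0) ≤ w₀ := by
    rw [hx0, hw₀]
    exact le_max_left _ _
  refine le_of_touching (f := fun s => WW D rxnVec χ (x s)) hf hstart ?_ t ⟨ht.1, le_rfl⟩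
  intro s hs
  have hs' : s ∈ Set.Ico 0 T := ⟨hs.1, lt_trans hs.2 ht.2⟩
  have hpos := (hsol s hs').1
  refine ⟨fun u => What D rxnVec χ (fun g => tstar (rxnVec g) (x s)) (x u),
    dot (grad D rxnVec χ χ' (x s)) (massAction R (k s) (x s)),
    hasDerivWithinAt_What D rxnVec hvD hcut.hderiv (hder s hs') hpos,
    (WW_eq_What D rxnVec χ (x s)).symm, ?_, ?_⟩
  · -- the touching inequality near `s`, to the right
    have hcw : ContinuousWithinAt x (Set.Ici s) s := (hder s hs').continuousWithinAt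
    have hev1 : ∀ᶠ z in 𝓝[>] s, ∀ i, 0 < x z i := by
      have h1 : ∀ᶠ z in 𝓝[≥] s, x z ∈ {y : Fin d → ℝ | ∀ i, 0 < y i} :=
        hcw.eventually (eventually_pos (x s) hpos)
      exact h1.filter_mono (nhdsWithin_mono _ Set.Ioi_subset_Ici_self)
    have hev2 : ∀ g ∈ D, ∀ᶠ z in 𝓝[>] s, ∀ i,
        0 < x z i + tstar (rxnVec g) (x s) * rxnVec g i := by
      intro g hg
      have h0 := (tstar_spec (rxnVec g) (x s) (hvD g hg) hpos).1
      have h1 : ∀ᶠ y in 𝓝 (x s), ∀ i, 0 < shift y (rxnVec g) (tstar (rxnVec g) (x s)) i :=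
        (continuous_shift_fixed (rxnVec g) _).continuousAt.eventually (eventually_pos _ h0)
      have h2 : ∀ᶠ z in 𝓝[≥] s, ∀ i, 0 < shift (x z) (rxnVec g) (tstar (rxnVec g) (x s)) i :=
        hcw.eventually h1
      exact h2.filter_mono (nhdsWithin_mono _ Set.Ioi_subset_Ici_self)
    have hev3 : ∀ᶠ z in 𝓝[>] s, ∀ g ∈ D, ∀ i,
        0 < x z i + tstar (rxnVec g) (x s) * rxnVec g i :=
      (Filter.eventually_all_finset D).2 hev2
    filter_upwards [hev1, hev3] with z hz1 hz3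
    exact WW_le_What D rxnVec hvD hcut.nonneg _ hz1 hz3
  · -- decrease above the level `w₀`
    intro hlevel
    have hnot : ¬ ∀ i, x s i ≤ ρ := by
      intro hle
      have h1 := Vf_le_of_le hpos hρ hle
      have h2 := WW_le_Vf hcut D rxnVec hvD hpos
      have h3 : (d : ℝ) * (ρ * Real.log ρ) ≤ w₀ := by
        rw [hw₀]
        exact le_max_right _ _
      linarith
    have hS : x s - x₀ ∈ stoich R := by
      have := sub_mem_stoich R hcont hder hs'
      rwa [hx0] at this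
    exact hstatic (x s) hpos hS hnot (k s) (hk s)

end Vale.Agent.Lib.P072
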