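import Vale.Agent.Lib.P072.Defs
import Vale.Agent.Lib.P072.Bounds

/-!
Combinatorics of weakly reversible networks: dissipation on a linkage class with large spread,
and the sign of the flux of a one-dimensional linkage class.
-/

open Finset Filter Topology

namespace Vale.Agent.Lib.P072

variable {d : ℕ}

/-- Reachability in the reaction graph. -/
abbrev Rch (R : Finset (Cplx d × Cplx d)) (a b : Cplx d) : Prop :=
  Relation.ReflTransGen (fun a b => (a, b) ∈ R) a b

/-- Linear functional on complexes given by `log x`. -/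
noncomputable def psi (x : Fin d → ℝ) (y : Cplx d) : ℝ := ∑ i, (y i : ℝ) * Real.log (x i)

lemma monom_eq_exp {x : Fin d → ℝ} (hx : ∀ i, 0 < x i) (y : Cplx d) :
    monom x y = Real.exp (psi x y) := by
  unfold monom psi
  rw [Real.exp_sum]
  refine Finset.prod_congr rfl fun i _ => ?_
  rw [Real.exp_nat_mul, Real.exp_log (hx i)]

lemma dot_logv_rxnVec (x : Fin d → ℝ) (p : Cplx d × Cplx d) :
    dot (logv x) (rxnVec p) = psi x p.2 - psi x p.1 := by
  unfold dot logv rxnVec psi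
  rw [← Finset.sum_sub_distrib]
  refine Finset.sum_congr rfl fun i _ => by ring

lemma rch_symm {R : Finset (Cplx d × Cplx d)} (hWR : WeaklyReversible R) {a b : Cplx d}
    (h : Rch R a b) : Rch R b a := by
  induction h with
  | refl => exact Relation.ReflTransGen.refl
  | @tail b c _ hbc ih =>
    have h1 : Rch R c b := hWR (b, c) hbc
    exact h1.trans ih

/-- Key path lemma: if the potential drops by a lot along a path, some edge carries a large
negative term. -/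
lemma far_path {R : Finset (Cplx d × Cplx d)} {a b : Cplx d} (h : Rch R a b) (E : ℝ) (hE : 0 ≤ E) :
    ∀ C : ℝ, 0 ≤ C → ∃ D : ℝ, 0 ≤ D ∧ ∀ ψ : Cplx d → ℝ, ψ b ≤ ψ a - D →
      ∃ p ∈ R, Rch R a p.1 ∧ Rch R p.2 b ∧
        Real.exp (ψ p.1) * (ψ p.2 - ψ p.1 + E) ≤ - C * Real.exp (ψ a) := by
  induction h using Relation.ReflTransGen.head_induction_on with
  | refl =>
    intro C _
    refine ⟨1, zero_le_one, fun ψ hψ => ?_⟩
    exfalso
    linarith
  | @head a c hac hcb ih =>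
    intro C hC
    have hC' : 0 ≤ C * Real.exp (C + E) := mul_nonneg hC (Real.exp_pos _).le
    obtain ⟨D', hD'0, hD'⟩ := ih _ hC'
    refine ⟨D' + C + E, by linarith, fun ψ hψ => ?_⟩
    by_cases hbig : C + E ≤ ψ a - ψ c
    · refine ⟨(a, c), hac, Relation.ReflTransGen.refl, hcb, ?_⟩
      have hexp := Real.exp_pos (ψ a)
      have : ψ c - ψ a + E ≤ - C := by linarith
      calc Real.exp (ψ a) * (ψ c - ψ a + E) ≤ Real.exp (ψ a) * (- C) :=
            mul_le_mul_of_nonneg_left this hexp.le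
        _ = - C * Real.exp (ψ a) := by ring
    · push Not at hbig
      obtain ⟨p, hp, hcp, hpb, hneg⟩ := hD' ψ (by linarith)
      refine ⟨p, hp, Relation.ReflTransGen.head hac hcp, hpb, ?_⟩
      refine le_trans hneg ?_
      have h1 : Real.exp (ψ a) ≤ Real.exp (C + E) * Real.exp (ψ c) := by
        rw [← Real.exp_add]
        exact Real.exp_le_exp.mpr (by linarith)
      have h2 : C * Real.exp (ψ a) ≤ C * (Real.exp (C + E) * Real.exp (ψ c)) :=
        mul_le_mul_of_nonneg_left h1 hC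
      nlinarith

/-- Uniform version of the path lemma over all pairs of sources. -/
lemma far_uniform (R : Finset (Cplx d × Cplx d)) (E C : ℝ) (hE : 0 ≤ E) (hC : 0 ≤ C) :
    ∃ D : ℝ, 0 ≤ D ∧ ∀ p ∈ R, ∀ q ∈ R, Rch R p.1 q.1 → ∀ ψ : Cplx d → ℝ, ψ q.1 ≤ ψ p.1 - D →
      ∃ r ∈ R, Rch R p.1 r.1 ∧ Rch R r.2 q.1 ∧
        Real.exp (ψ r.1) * (ψ r.2 - ψ r.1 + E) ≤ - C * Real.exp (ψ p.1) := by
  classical
  have hex : ∀ pq : (Cplx d × Cplx d) × (Cplx d × Cplx d), ∃ D : ℝ, 0 ≤ D ∧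
      (Rch R pq.1.1 pq.2.1 → ∀ ψ : Cplx d → ℝ, ψ pq.2.1 ≤ ψ pq.1.1 - D →
        ∃ r ∈ R, Rch R pq.1.1 r.1 ∧ Rch R r.2 pq.2.1 ∧
          Real.exp (ψ r.1) * (ψ r.2 - ψ r.1 + E) ≤ - C * Real.exp (ψ pq.1.1)) := by
    intro pq
    by_cases h : Rch R pq.1.1 pq.2.1
    · obtain ⟨D, hD, hD'⟩ := far_path h E hE C hC
      exact ⟨D, hD, fun _ => hD'⟩
    · exact ⟨0, le_rfl, fun h' => absurd h' h⟩
  choose F hF0 hF using hex
  refine ⟨∑ pq ∈ R ×ˢ R, F pq, Finset.sum_nonneg fun pq _ => hF0 pq, ?_⟩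
  intro p hp q hq hpq ψ hψ
  have hle : F (p, q) ≤ ∑ pq ∈ R ×ˢ R, F pq :=
    Finset.single_le_sum (fun pq _ => hF0 pq) (Finset.mem_product.2 ⟨hp, hq⟩)
  exact hF (p, q) hpq ψ (by simp only; linarith)

/-- A term of the dissipation sum is at most `exp m (1 + E)`. -/
lemma term_le {a b m E : ℝ} (ha : a ≤ m) (hb : b ≤ m) (hE : 0 ≤ E) :
    Real.exp a * (b - a + E) ≤ Real.exp m * (1 + E) := by
  rcases le_total (b - a) 0 with h | h
  · have h1 : Real.exp a ≤ Real.exp m := Real.exp_le_exp.mpr ha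
    have h2 : Real.exp a * (b - a + E) ≤ Real.exp a * E :=
      mul_le_mul_of_nonneg_left (by linarith) (Real.exp_pos _).le
    have h3 : Real.exp a * E ≤ Real.exp m * E := mul_le_mul_of_nonneg_right h1 hE
    have h4 := Real.exp_pos m
    nlinarith
  · set t := b - a with ht
    have h1 : a ≤ m - t := by rw [ht]; linarith
    have h2 : Real.exp a ≤ Real.exp (m - t) := Real.exp_le_exp.mpr h1
    have h3 : Real.exp (m - t) = Real.exp m * Real.exp (-t) := by
      rw [sub_eq_add_neg, Real.exp_add]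
    have h4 : Real.exp (-t) * (t + E) ≤ 1 + E := by
      have h5 : t * Real.exp (-t) ≤ 1 := by
        have h6 := Real.add_one_le_exp t
        have h7 : Real.exp t * Real.exp (-t) = 1 := by
          rw [← Real.exp_add]; simp
        have h8 := Real.exp_pos (-t)
        nlinarith
      have h6 : Real.exp (-t) ≤ 1 := by
        rw [Real.exp_le_one_iff]; linarith
      nlinarith
    have h9 : 0 ≤ t + E := by linarith
    calc Real.exp a * (t + E) ≤ Real.exp (m - t) * (t + E) :=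
          mul_le_mul_of_nonneg_right h2 h9
      _ = Real.exp m * (Real.exp (-t) * (t + E)) := by rw [h3]; ring
      _ ≤ Real.exp m * (1 + E) := mul_le_mul_of_nonneg_left h4 (Real.exp_pos _).le

/-- The sum over a class with a large negative term is nonpositive. -/
lemma far_class_sum {A : Finset (Cplx d × Cplx d)} {ψ : Cplx d → ℝ}
    {L k : Cplx d × Cplx d → ℝ} {ε E C m : ℝ} (hε : 0 < ε)
    (hk : ∀ q ∈ A, ε ≤ k q ∧ k q ≤ ε⁻¹) (hE : 0 ≤ E)
    (hL : ∀ q ∈ A, L q ≤ ψ q.2 - ψ q.1 + E)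
    (htop1 : ∀ q ∈ A, ψ q.1 ≤ m) (htop2 : ∀ q ∈ A, ψ q.2 ≤ m)
    {r : Cplx d × Cplx d} (hr : r ∈ A)
    (hneg : Real.exp (ψ r.1) * (ψ r.2 - ψ r.1 + E) ≤ - C * Real.exp m)
    (hC : (A.card : ℝ) * ((1 + E) * ε⁻¹) ≤ ε * C) :
    ∑ q ∈ A, k q * Real.exp (ψ q.1) * L q ≤ 0 := by
  classical
  have hεinv : 0 < ε⁻¹ := inv_pos.mpr hε
  have hCnn : 0 ≤ C := by
    have h1 : 0 ≤ (A.card : ℝ) * ((1 + E) * ε⁻¹) := by positivity
    have h2 : 0 ≤ ε * C := le_trans h1 hC
    exact nonneg_of_mul_nonneg_right h2 hε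
  have hm := Real.exp_pos m
  have hterm : ∀ q ∈ A, k q * Real.exp (ψ q.1) * L q ≤
      k q * (Real.exp (ψ q.1) * (ψ q.2 - ψ q.1 + E)) := by
    intro q hq
    have h1 : 0 ≤ k q * Real.exp (ψ q.1) :=
      mul_nonneg (le_trans hε.le (hk q hq).1) (Real.exp_pos _).le
    calc k q * Real.exp (ψ q.1) * L q ≤ k q * Real.exp (ψ q.1) * (ψ q.2 - ψ q.1 + E) :=
          mul_le_mul_of_nonneg_left (hL q hq) h1
      _ = _ := by ring
  have hother : ∀ q ∈ A, k q * Real.exp (ψ q.1) * L q ≤ ε⁻¹ * (Real.exp m * (1 + E)) := by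
    intro q hq
    refine le_trans (hterm q hq) ?_
    have h1 := term_le (htop1 q hq) (htop2 q hq) hE
    have hkq := hk q hq
    have hkpos : 0 ≤ k q := le_trans hε.le hkq.1
    have h2 : 0 ≤ Real.exp m * (1 + E) := by positivity
    calc k q * (Real.exp (ψ q.1) * (ψ q.2 - ψ q.1 + E))
        ≤ k q * (Real.exp m * (1 + E)) := mul_le_mul_of_nonneg_left h1 hkpos
      _ ≤ ε⁻¹ * (Real.exp m * (1 + E)) := mul_le_mul_of_nonneg_right hkq.2 h2
  have htopr : k r * Real.exp (ψ r.1) * L r ≤ ε * (- C * Real.exp m) := by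
    refine le_trans (hterm r hr) ?_
    have hkr := hk r hr
    have hX : Real.exp (ψ r.1) * (ψ r.2 - ψ r.1 + E) ≤ 0 :=
      le_trans hneg (by nlinarith)
    calc k r * (Real.exp (ψ r.1) * (ψ r.2 - ψ r.1 + E))
        ≤ ε * (Real.exp (ψ r.1) * (ψ r.2 - ψ r.1 + E)) :=
          mul_le_mul_of_nonpos_right hkr.1 hX
      _ ≤ ε * (- C * Real.exp m) := mul_le_mul_of_nonneg_left hneg hε.le
  rw [← Finset.add_sum_erase A _ hr]
  have hrest : ∑ q ∈ A.erase r, k q * Real.exp (ψ q.1) * L q ≤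
      (A.card : ℝ) * (ε⁻¹ * (Real.exp m * (1 + E))) := by
    have h1 : ∑ q ∈ A.erase r, k q * Real.exp (ψ q.1) * L q ≤
        ∑ _q ∈ A.erase r, ε⁻¹ * (Real.exp m * (1 + E)) :=
      Finset.sum_le_sum fun q hq => hother q (Finset.mem_of_mem_erase hq)
    rw [Finset.sum_const, nsmul_eq_mul] at h1
    refine le_trans h1 (mul_le_mul_of_nonneg_right ?_ (by positivity))
    exact_mod_cast Finset.card_le_card (Finset.erase_subset _ _)
  have hC' : (A.card : ℝ) * (ε⁻¹ * (Real.exp m * (1 + E))) ≤ ε * (C * Real.exp m) := by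
    have := mul_le_mul_of_nonneg_right hC hm.le
    calc (A.card : ℝ) * (ε⁻¹ * (Real.exp m * (1 + E)))
        = (A.card : ℝ) * ((1 + E) * ε⁻¹) * Real.exp m := by ring
      _ ≤ ε * C * Real.exp m := this
      _ = _ := by ring
  linarith [htopr, hrest, hC']

/-- One-sided sign of the flux of a one-dimensional class. -/
lemma near_one_sided {A : Finset (Cplx d × Cplx d)} {ψ : Cplx d → ℝ}
    {k c : Cplx d × Cplx d → ℝ} {ε c₀ c₁ m φ : ℝ} (hε : 0 < ε)
    (hk : ∀ q ∈ A, ε ≤ k q ∧ k q ≤ ε⁻¹) (hc₀pos : 0 < c₀)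
    (hcne : ∀ q ∈ A, c q ≠ 0) (hc₀ : ∀ q ∈ A, c₀ ≤ |c q|) (hc₁ : ∀ q ∈ A, |c q| ≤ c₁)
    (hrel : ∀ q ∈ A, ψ q.2 - ψ q.1 = c q * φ)
    (htop1 : ∀ q ∈ A, ψ q.1 ≤ m) (htop2 : ∀ q ∈ A, ψ q.2 ≤ m)
    {r : Cplx d × Cplx d} (hr : r ∈ A) (hrm : ψ r.1 = m) (hφ : 0 < φ)
    (hthr : (A.card : ℝ) * (ε⁻¹ * c₁) * Real.exp (-(c₀ * φ)) ≤ ε * c₀) :
    ∑ q ∈ A, k q * Real.exp (ψ q.1) * c q ≤ 0 := by
  classical
  have hεinv : 0 < ε⁻¹ := inv_pos.mpr hε
  have hc₁nn : 0 ≤ c₁ := le_trans (abs_nonneg _) (hc₁ r hr)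
  have hm := Real.exp_pos m
  have hother : ∀ q ∈ A, k q * Real.exp (ψ q.1) * c q ≤
      ε⁻¹ * c₁ * (Real.exp m * Real.exp (-(c₀ * φ))) := by
    intro q hq
    have hkq := hk q hq
    have hkpos : 0 < k q := lt_of_lt_of_le hε hkq.1
    rcases le_or_gt (c q) 0 with hcq | hcq
    · have h1 : k q * Real.exp (ψ q.1) * c q ≤ 0 :=
        mul_nonpos_of_nonneg_of_nonpos (by positivity) hcq
      refine le_trans h1 ?_
      have := Real.exp_pos (-(c₀ * φ))
      positivity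
    · have hc0' : c₀ ≤ c q := by
        have := hc₀ q hq
        rwa [abs_of_pos hcq] at this
      have h1 : ψ q.1 ≤ m - c₀ * φ := by
        have h2 := hrel q hq
        have h3 := htop2 q hq
        have h4 : c₀ * φ ≤ c q * φ := mul_le_mul_of_nonneg_right hc0' hφ.le
        linarith
      have h2 : Real.exp (ψ q.1) ≤ Real.exp m * Real.exp (-(c₀ * φ)) := by
        rw [← Real.exp_add]
        exact Real.exp_le_exp.mpr (by linarith)
      have h3 : c q ≤ c₁ := by
        have := hc₁ q hq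
        rwa [abs_of_pos hcq] at this
      have h4 : 0 ≤ Real.exp m * Real.exp (-(c₀ * φ)) := by positivity
      calc k q * Real.exp (ψ q.1) * c q
          ≤ ε⁻¹ * (Real.exp m * Real.exp (-(c₀ * φ))) * c₁ := by
            apply mul_le_mul _ h3 hcq.le (by positivity)
            exact mul_le_mul hkq.2 h2 (Real.exp_pos _).le hεinv.le
        _ = _ := by ring
  -- the top reaction
  have hrc : c r < 0 := by
    have h1 := hrel r hr
    have h2 := htop2 r hr
    have h3 : c r * φ ≤ 0 := by rw [← h1, hrm]; linarith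
    have h4 : c r ≤ 0 := by
      by_contra h5
      push Not at h5
      have := mul_pos h5 hφ
      linarith
    exact lt_of_le_of_ne h4 (hcne r hr)
  have hrc' : c r ≤ - c₀ := by
    have := hc₀ r hr
    rw [abs_of_neg hrc] at this
    linarith
  have htopr : k r * Real.exp (ψ r.1) * c r ≤ - (ε * Real.exp m * c₀) := by
    rw [hrm]
    have hkr := hk r hr
    have h1 : 0 ≤ k r * Real.exp m := by
      have := lt_of_lt_of_le hε hkr.1
      positivity
    have h2 : k r * Real.exp m * c r ≤ k r * Real.exp m * (- c₀) :=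
      mul_le_mul_of_nonneg_left hrc' h1
    have h3 : ε * Real.exp m ≤ k r * Real.exp m :=
      mul_le_mul_of_nonneg_right hkr.1 hm.le
    have h4 : ε * Real.exp m * c₀ ≤ k r * Real.exp m * c₀ :=
      mul_le_mul_of_nonneg_right h3 hc₀pos.le
    linarith
  rw [← Finset.add_sum_erase A _ hr]
  have hrest : ∑ q ∈ A.erase r, k q * Real.exp (ψ q.1) * c q ≤
      (A.card : ℝ) * (ε⁻¹ * c₁ * (Real.exp m * Real.exp (-(c₀ * φ)))) := by
    have h1 : ∑ q ∈ A.erase r, k q * Real.exp (ψ q.1) * c q ≤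
        ∑ _q ∈ A.erase r, ε⁻¹ * c₁ * (Real.exp m * Real.exp (-(c₀ * φ))) :=
      Finset.sum_le_sum fun q hq => hother q (Finset.mem_of_mem_erase hq)
    rw [Finset.sum_const, nsmul_eq_mul] at h1
    refine le_trans h1 (mul_le_mul_of_nonneg_right ?_ (by positivity))
    exact_mod_cast Finset.card_le_card (Finset.erase_subset _ _)
  have hthr' : (A.card : ℝ) * (ε⁻¹ * c₁ * (Real.exp m * Real.exp (-(c₀ * φ)))) ≤
      ε * Real.exp m * c₀ := by
    have := mul_le_mul_of_nonneg_right hthr hm.le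
    calc (A.card : ℝ) * (ε⁻¹ * c₁ * (Real.exp m * Real.exp (-(c₀ * φ))))
        = (A.card : ℝ) * (ε⁻¹ * c₁) * Real.exp (-(c₀ * φ)) * Real.exp m := by ring
      _ ≤ ε * c₀ * Real.exp m := this
      _ = _ := by ring
  linarith

end Vale.Agent.Lib.P072
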