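import Vale.Agent.Lib.P072.PermFence

/-!
Barriers near the vertices and edges of the closure of a stoichiometric class of rank at most two,
and the barrier at infinity.
-/

open Finset Filter Topology

namespace Vale.Agent.Lib.P072

variable {d : ℕ}

/-- A barrier near the coordinates in `I`, on the region `Z` of the class of `x₀`. -/
def HasBarrier (R : Finset (Cplx d × Cplx d)) (ε : ℝ) (x₀ : Fin d → ℝ) (Z : Set (Fin d → ℝ))
    (I : Finset (Fin d)) : Prop :=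
  ∃ (F : (Fin d → ℝ) → ℝ) (Dl : (Fin d → ℝ) → (Fin d → ℝ) → ℝ) (V κ ξ₀ : ℝ),
    Touch F Dl ∧ 0 < κ ∧ 0 < ξ₀ ∧
    (∀ x, (∀ i, 0 < x i) → x - x₀ ∈ stoich R → x ∈ Z → F x < V) ∧
    (∀ x, (∀ i, 0 < x i) → x - x₀ ∈ stoich R → x ∈ Z → V - ξ₀ < F x →
      ∀ k : Cplx d × Cplx d → ℝ, (∀ p, ε ≤ k p ∧ k p ≤ ε⁻¹) → ∀ μ : ℝ, (∀ p ∈ R, μ ≤ monom x p.1) →
        Dl x (massAction R k x) ≤ - κ * μ) ∧
    (∀ ξ, 0 < ξ → ∃ η, 0 < η ∧ ∀ x, (∀ i, 0 < x i) → x - x₀ ∈ stoich R → x ∈ Z →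
      F x ≤ V - ξ → η ≤ ∑ i ∈ I, x i)

/-- Positive lower bound on a compact set. -/
lemma exists_lower_of_pos {C : Set (Fin d → ℝ)} (hC : IsCompact C) {f : (Fin d → ℝ) → ℝ}
    (hf : Continuous f) (hpos : ∀ x ∈ C, 0 < f x) : ∃ c, 0 < c ∧ ∀ x ∈ C, c ≤ f x := by
  by_cases hne : C.Nonempty
  · obtain ⟨x₁, hx₁, hmin⟩ := hC.exists_isMinOn hne hf.continuousOn
    exact ⟨f x₁, hpos x₁ hx₁, fun x hx => hmin hx⟩
  · exact ⟨1, one_pos, fun x hx => absurd ⟨x, hx⟩ hne⟩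

/-- Near the set where the coordinates in `I` vanish the others are bounded below. -/
lemma exists_lower_near {C : Set (Fin d → ℝ)} (hC : IsCompact C) (hC0 : ∀ x ∈ C, ∀ i, 0 ≤ x i)
    (I : Finset (Fin d)) (hpos : ∀ x ∈ C, (∀ i ∈ I, x i = 0) → ∀ j, j ∉ I → 0 < x j) :
    ∃ c, 0 < c ∧ ∀ x ∈ C, ∑ i ∈ I, x i ≤ c → ∀ j, j ∉ I → c ≤ x j := by
  classical
  have hj : ∀ j : Fin d, ∃ c, 0 < c ∧ (j ∉ I → ∀ x ∈ C, c ≤ ∑ i ∈ I, x i + x j) := by
    intro j
    by_cases hjI : j ∉ I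
    · have hcont : Continuous fun x : Fin d → ℝ => ∑ i ∈ I, x i + x j :=
        (continuous_finsetSum _ fun i _ => continuous_apply i).add (continuous_apply j)
      obtain ⟨c, hc, h⟩ := exists_lower_of_pos hC hcont (by
        intro x hx
        by_contra hle
        push Not at hle
        have h0 : 0 ≤ ∑ i ∈ I, x i := Finset.sum_nonneg fun i _ => hC0 x hx i
        have h1 := hC0 x hx j
        have h2 : ∑ i ∈ I, x i = 0 := by linarith
        have h3 : ∀ i ∈ I, x i = 0 :=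
          (Finset.sum_eq_zero_iff_of_nonneg fun i _ => hC0 x hx i).1 h2
        have h4 := hpos x hx h3 j hjI
        linarith)
      exact ⟨c, hc, fun _ => h⟩
    · exact ⟨1, one_pos, fun h => absurd h hjI⟩
  choose c hc hcj using hj
  obtain ⟨c₀, hc₀, hle⟩ := exists_lower_fin (Finset.univ : Finset (Fin d)) c (fun j _ => hc j)
  refine ⟨c₀ / 2, half_pos hc₀, ?_⟩
  intro x hx hsum j hjI
  have h1 := hcj j hjI x hx
  have h2 := hle j (Finset.mem_univ j)
  linarith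

/-- The constrained box in the class of `x₀`. -/
def CBox (R : Finset (Cplx d × Cplx d)) (x₀ : Fin d → ℝ) (M : ℝ) (𝓢 : Finset (Finset (Fin d)))
    (η : Finset (Fin d) → ℝ) : Set (Fin d → ℝ) :=
  {x | x - x₀ ∈ stoich R ∧ (∀ i, 0 ≤ x i ∧ x i ≤ M) ∧ ∀ J ∈ 𝓢, η J ≤ ∑ i ∈ J, x i}

lemma isCompact_CBox (R : Finset (Cplx d × Cplx d)) (x₀ : Fin d → ℝ) (M : ℝ)
    (𝓢 : Finset (Finset (Fin d))) (η : Finset (Fin d) → ℝ) : IsCompact (CBox R x₀ M 𝓢 η) := by
  have hsub : CBox R x₀ M 𝓢 η ⊆ Set.Icc (0 : Fin d → ℝ) (fun _ => M) := by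
    intro x hx
    exact ⟨fun i => (hx.2.1 i).1, fun i => (hx.2.1 i).2⟩
  refine IsCompact.of_isClosed_subset isCompact_Icc ?_ hsub
  have h1 : IsClosed {x : Fin d → ℝ | x - x₀ ∈ stoich R} :=
    (Submodule.closed_of_finiteDimensional (stoich R)).preimage (continuous_id.sub continuous_const)
  have h2 : IsClosed {x : Fin d → ℝ | ∀ i, 0 ≤ x i ∧ x i ≤ M} := by
    have : {x : Fin d → ℝ | ∀ i, 0 ≤ x i ∧ x i ≤ M} = ⋂ i, {x | 0 ≤ x i ∧ x i ≤ M} := by
      ext x; simp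
    rw [this]
    refine isClosed_iInter fun i => ?_
    exact (isClosed_le continuous_const (continuous_apply i)).inter
      (isClosed_le (continuous_apply i) continuous_const)
  have h3 : IsClosed {x : Fin d → ℝ | ∀ J ∈ 𝓢, η J ≤ ∑ i ∈ J, x i} := by
    have : {x : Fin d → ℝ | ∀ J ∈ 𝓢, η J ≤ ∑ i ∈ J, x i} = ⋂ J ∈ 𝓢, {x | η J ≤ ∑ i ∈ J, x i} := by
      ext x; simp
    rw [this]
    refine isClosed_biInter fun J _ => ?_
    exact isClosed_le continuous_const (continuous_finsetSum _ fun i _ => continuous_apply i)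
  exact h1.inter (h2.inter h3)

/-- Pairs of near independent directions force all directions to be near. -/
lemma exists_pair_bound {R D : Finset (Cplx d × Cplx d)} (hdim : Module.finrank ℝ (stoich R) ≤ 2)
    (hDR : D ⊆ R)
    (hind : ∀ g₁ ∈ D, ∀ g₂ ∈ D, g₁ ≠ g₂ → ∀ a b : ℝ, a • rxnVec g₁ + b • rxnVec g₂ = 0 → a = 0 ∧ b = 0)
    {B : ℝ} (hB : 0 ≤ B) :
    ∃ Bp : ℝ, B ≤ Bp ∧ ∀ g₁ ∈ D, ∀ g₂ ∈ D, g₁ ≠ g₂ → ∀ x : Fin d → ℝ,
      |phi (rxnVec g₁) x| ≤ B → |phi (rxnVec g₂) x| ≤ B → ∀ p ∈ R, |phi (rxnVec p) x| ≤ Bp := by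
  classical
  have hex : ∀ q : (Cplx d × Cplx d) × (Cplx d × Cplx d), ∃ B' : ℝ, 0 ≤ B' ∧
      (q.1 ∈ D → q.2 ∈ D → q.1 ≠ q.2 → ∀ x : Fin d → ℝ,
        |phi (rxnVec q.1) x| ≤ B → |phi (rxnVec q.2) x| ≤ B → ∀ p ∈ R, |phi (rxnVec p) x| ≤ B') := by
    intro q
    by_cases hq : q.1 ∈ D ∧ q.2 ∈ D ∧ q.1 ≠ q.2
    · obtain ⟨h1, h2, h3⟩ := hq
      obtain ⟨B', hB', h⟩ := all_near_of_two_near hdim (hDR h1) (hDR h2) (hind _ h1 _ h2 h3) hB
      exact ⟨B', hB', fun _ _ _ => h⟩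
    · exact ⟨0, le_rfl, fun h1 h2 h3 => absurd ⟨h1, h2, h3⟩ hq⟩
  choose F hF0 hF using hex
  have hsum0 : 0 ≤ ∑ q ∈ D ×ˢ D, F q := Finset.sum_nonneg fun q _ => hF0 q
  refine ⟨B + ∑ q ∈ D ×ˢ D, F q, by linarith, ?_⟩
  intro g₁ hg₁ g₂ hg₂ hne x h1 h2 p hp
  have h3 := hF (g₁, g₂) hg₁ hg₂ hne x h1 h2 p hp
  have h4 : F (g₁, g₂) ≤ ∑ q ∈ D ×ˢ D, F q :=
    Finset.single_le_sum (fun q _ => hF0 q) (Finset.mem_product.2 ⟨hg₁, hg₂⟩)
  linarith

/-- The scale used in the rescaled coordinates. -/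
lemma scale_facts {M : ℝ} (hM : 1 ≤ M) :
    0 < Real.exp (-1) / M ∧ ∀ x : ℝ, 0 < x → x ≤ M → Real.exp (-1) / M * x ≤ Real.exp (-1) := by
  have hMpos : 0 < M := by linarith
  refine ⟨div_pos (Real.exp_pos _) hMpos, fun x _ hx => ?_⟩
  have h := Real.exp_pos (-1)
  calc Real.exp (-1) / M * x ≤ Real.exp (-1) / M * M :=
        mul_le_mul_of_nonneg_left hx (by positivity)
    _ = Real.exp (-1) := by field_simp

/-- The barrier at a vertex. -/
theorem barrier_vertex (R : Finset (Cplx d × Cplx d)) (hne : ∀ p ∈ R, p.1 ≠ p.2)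
    (hWR : WeaklyReversible R) (hdim : Module.finrank ℝ (stoich R) ≤ 2) {ε : ℝ} (hε : 0 < ε)
    {x₀ : Fin d → ℝ} (hx₀ : ∀ i, 0 < x₀ i) {M : ℝ} (hM : 1 ≤ M) {I : Finset (Fin d)}
    (hIne : I.Nonempty) {z : Fin d → ℝ} (hzS : z - x₀ ∈ stoich R) (hz0 : ∀ i, 0 ≤ z i)
    (hzI : ∀ i, z i = 0 ↔ i ∈ I) (hS0 : ∀ w ∈ stoich R, (∀ i ∈ I, w i = 0) → w = 0) :
    HasBarrier R ε x₀ {x | ∀ i, x i ≤ M} I := by
  classical
  obtain ⟨s, hsdef⟩ : ∃ s, s = Real.exp (-1) / M := ⟨_, rfl⟩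
  obtain ⟨hs, hsx⟩ := scale_facts hM
  rw [← hsdef] at hs hsx
  -- lower bound of the other coordinates
  have hCpos : ∀ x ∈ CBox R x₀ M ∅ (fun _ => 0), (∀ i ∈ I, x i = 0) → ∀ j, j ∉ I → 0 < x j := by
    intro x hx hxI j hj
    have h1 : x - z ∈ stoich R := by
      have : x - z = (x - x₀) - (z - x₀) := by abel
      rw [this]
      exact Submodule.sub_mem _ hx.1 hzS
    have h2 : x - z = 0 := hS0 _ h1 (by
      intro i hi
      have := (hzI i).2 hi
      simp [hxI i hi, this])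
    have h3 : x j = z j := by
      have := congrFun h2 j
      simpa [sub_eq_zero] using this
    rw [h3]
    exact lt_of_le_of_ne (hz0 j) (fun h => hj ((hzI j).1 h.symm))
  obtain ⟨c, hc, hclow⟩ := exists_lower_near (isCompact_CBox R x₀ M ∅ (fun _ => 0))
    (fun x hx i => (hx.2.1 i).1) I hCpos
  obtain ⟨Cg, hCgdef⟩ : ∃ Cg, Cg = EwR R * (|Real.log c| + |Real.log M| + |Real.log s|) := ⟨_, rfl⟩
  have hCg : 0 ≤ Cg := by
    rw [hCgdef]
    exact mul_nonneg (EwR_nonneg R) (by positivity)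
  have hI : ∀ p ∈ R, res I (rxnVec p) ≠ 0 := by
    intro p hp h0
    apply rxnVec_ne_zero (hne p hp)
    apply hS0 _ (rxnVec_mem_stoich hp)
    intro i hi
    have := congrFun h0 i
    simpa [res, hi] using this
  obtain ⟨D, χ, χ', R₁, R₂, C, B, hDR, hcut, hR₂, hB, hind, hst⟩ :=
    flatten_static R hne hWR hε I hs hI hCg
  obtain ⟨Bp, hBp, hpair⟩ := exists_pair_bound hdim hDR hind hB
  have hBp0 : 0 ≤ Bp := le_trans hB hBp
  obtain ⟨ρ, m, hρ, hm, hprop⟩ := proper_of_all_near R hx₀ hBp0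
  have hvD : ∀ g ∈ D, res I (rxnVec g) ≠ 0 := fun g hg => hI g (hDR hg)
  obtain ⟨η₂, hη₂⟩ : ∃ η₂, η₂ = min c m := ⟨_, rfl⟩
  have hη₂pos : 0 < η₂ := by rw [hη₂]; exact lt_min hc hm
  have hFle : ∀ x : Fin d → ℝ, (∀ i, 0 < x i) → (∀ i, x i ≤ M) →
      WW D (fun g => res I (rxnVec g)) χ (Yv I s x) ≤ VI I - 2 * s * ∑ i ∈ I, x i := by
    intro x hx hxM
    refine le_trans (WW_le_Vf hcut D _ hvD (Yv_pos hs hx)) ?_
    exact Vf_Yv_le I hs hx (fun i _ => hsx _ (hx i) (hxM i))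
  have hsumpos : ∀ x : Fin d → ℝ, (∀ i, 0 < x i) → 0 < ∑ i ∈ I, x i := fun x hx =>
    Finset.sum_pos (fun i _ => hx i) hIne
  refine ⟨fun x => WW D (fun g => res I (rxnVec g)) χ (Yv I s x),
    fun x w => dot (grad D (fun g => res I (rxnVec g)) χ χ' (Yv I s x)) (s • res I w),
    VI I, s, 2 * s * η₂, touch_flat D I hs hvD hcut.hderiv hcut.nonneg, hs, by positivity, ?_, ?_, ?_⟩
  · intro x hx _ hxZ
    have h1 := hFle x hx hxZ
    have h2 := hsumpos x hx
    have h3 : 0 < 2 * s * ∑ i ∈ I, x i := by positivity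
    simp only
    linarith
  · intro x hx hxS hxZ hbig k hk μ hμ
    simp only at hbig ⊢
    have h1 := hFle x hx hxZ
    have hsmall : ∑ i ∈ I, x i < η₂ := by
      have h2 : 2 * s * ∑ i ∈ I, x i < 2 * s * η₂ := by linarith
      exact lt_of_mul_lt_mul_left h2 (by positivity)
    have hle_c : ∑ i ∈ I, x i ≤ c := by
      have : η₂ ≤ c := by rw [hη₂]; exact min_le_left _ _
      linarith
    have hlt_m : ∑ i ∈ I, x i < m := by
      have : η₂ ≤ m := by rw [hη₂]; exact min_le_right _ _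
      linarith
    have hxC : x ∈ CBox R x₀ M ∅ (fun _ => 0) :=
      ⟨hxS, fun i => ⟨(hx i).le, hxZ i⟩, by simp⟩
    have hlow := hclow x hxC hle_c
    have hoff : ∀ p ∈ R, |off I s (rxnVec p) x| ≤ Cg := by
      intro p hp
      rw [hCgdef]
      exact off_le I hs hp hx hc hlow (fun j _ => hxZ j)
    -- all near is impossible
    have hnotall : ¬ ∀ p ∈ R, |phi (rxnVec p) x| ≤ Bp := by
      intro hall
      obtain ⟨i, hi⟩ := hIne
      have h2 := (hprop x hx hxS hall i).1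
      have h3 : x i ≤ ∑ i ∈ I, x i :=
        Finset.single_le_sum (f := x) (fun j _ => (hx j).le) hi
      linarith
    have hexcl : ∀ g₁ ∈ D, ∀ g₂ ∈ D, g₁ ≠ g₂ → |phi (rxnVec g₁) x| ≤ B → B < |phi (rxnVec g₂) x| := by
      intro g₁ hg₁ g₂ hg₂ hne' h1'
      by_contra h2'
      push Not at h2'
      exact hnotall (hpair g₁ hg₁ g₂ hg₂ hne' x h1' h2')
    obtain ⟨p₁, hp₁, hfar⟩ : ∃ p₁ ∈ R, B < |phi (rxnVec p₁) x| := by
      by_contra hcon
      push Not at hcon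
      exact hnotall fun p hp => le_trans (hcon p hp) hBp
    have hmain := (hst x hx hoff hexcl k hk).2 p₁ hp₁ hfar
    rw [dot_smul_right]
    have hμ1 := hμ p₁ hp₁
    have : s * dot (grad D (fun g => res I (rxnVec g)) χ χ' (Yv I s x)) (res I (massAction R k x)) ≤
        s * (- μ) := mul_le_mul_of_nonneg_left (by linarith) hs.le
    linarith
  · intro ξ hξ
    obtain ⟨C₁, hC₁⟩ : ∃ C₁ : ℝ, C₁ = (D.card : ℝ) * (R₂ * (Real.exp R₂ - 1)) := ⟨_, rfl⟩
    have hexp0 : 0 ≤ Real.exp R₂ - 1 := by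
      have := Real.add_one_le_exp R₂
      linarith
    have hC₁0 : 0 ≤ C₁ := by rw [hC₁]; positivity
    obtain ⟨a, ha⟩ : ∃ a, a = min 1 (ξ / (2 * (2 * (d : ℝ) + C₁ + 1))) := ⟨_, rfl⟩
    have hden : 0 < 2 * (2 * (d : ℝ) + C₁ + 1) := by positivity
    have hapos : 0 < a := by
      rw [ha]
      exact lt_min one_pos (div_pos hξ hden)
    have ha1 : a ≤ 1 := by rw [ha]; exact min_le_left _ _
    have ha2 : a ≤ ξ / (2 * (2 * (d : ℝ) + C₁ + 1)) := by rw [ha]; exact min_le_right _ _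
    refine ⟨a ^ 2 / s, by positivity, ?_⟩
    intro x hx _ _ hFx
    simp only at hFx
    by_contra hcon
    push Not at hcon
    have hsS : s * ∑ i ∈ I, x i ≤ a ^ 2 := by
      have := mul_le_mul_of_nonneg_left hcon.le hs.le
      have h2 : s * (a ^ 2 / s) = a ^ 2 := by field_simp
      linarith
    have h1 := Vf_Yv_ge I hs hx hapos.le ha1 hsS
    have h2 := WW_ge_Vf_sub hcut hR₂ D I hs hvD hx
    rw [← hC₁] at h2
    have hsS0 : 0 ≤ s * ∑ i ∈ I, x i := by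
      have := hsumpos x hx
      positivity
    have h3 : s * ∑ i ∈ I, x i ≤ a := le_trans hsS (by nlinarith)
    have h4 : C₁ * (s * ∑ i ∈ I, x i) ≤ C₁ * a := mul_le_mul_of_nonneg_left h3 hC₁0
    have h5 : (2 * (d : ℝ) + C₁) * a < ξ := by
      have h6 : (2 * (d : ℝ) + C₁ + 1) * a ≤ ξ / 2 := by
        calc (2 * (d : ℝ) + C₁ + 1) * a ≤ (2 * (d : ℝ) + C₁ + 1) * (ξ / (2 * (2 * (d : ℝ) + C₁ + 1))) :=
              mul_le_mul_of_nonneg_left ha2 (by positivity)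
          _ = ξ / 2 := by field_simp
      nlinarith
    nlinarith

/-- Every reaction vector vanishing at a coordinate implies the whole subspace vanishes there. -/
lemma stoich_coord_zero {R : Finset (Cplx d × Cplx d)} {i : Fin d}
    (h : ∀ p ∈ R, rxnVec p i = 0) {w : Fin d → ℝ} (hw : w ∈ stoich R) : w i = 0 := by
  have hle : stoich R ≤ LinearMap.ker (LinearMap.proj i : (Fin d → ℝ) →ₗ[ℝ] ℝ) := by
    unfold stoich
    rw [Submodule.span_le]
    rintro v ⟨p, hp, rfl⟩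
    simpa using h p hp
  simpa using hle hw

/-- The barrier at an edge. -/
theorem barrier_edge (R : Finset (Cplx d × Cplx d)) (hne : ∀ p ∈ R, p.1 ≠ p.2)
    (hWR : WeaklyReversible R) (hdim : Module.finrank ℝ (stoich R) ≤ 2) {ε : ℝ} (hε : 0 < ε)
    {x₀ : Fin d → ℝ} (hx₀ : ∀ i, 0 < x₀ i) {M : ℝ} (hM : 1 ≤ M) {I : Finset (Fin d)}
    (hIne : I.Nonempty) {z : Fin d → ℝ} (hzS : z - x₀ ∈ stoich R) (hz0 : ∀ i, 0 ≤ z i)
    (hzI : ∀ i, z i = 0 ↔ i ∈ I) {f : Fin d → ℝ} (hfS : f ∈ stoich R) (hf0 : f ≠ 0)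
    (hfI : ∀ i ∈ I, f i = 0) (𝓥 : Finset (Finset (Fin d))) (η : Finset (Fin d) → ℝ)
    (hη : ∀ J ∈ 𝓥, 0 < η J)
    (h𝓥 : ∀ J : Finset (Fin d), J.Nonempty → ∀ z' : Fin d → ℝ, z' - x₀ ∈ stoich R → (∀ i, 0 ≤ z' i) →
      (∀ i, z' i = 0 ↔ i ∈ J) → (∀ w ∈ stoich R, (∀ i ∈ J, w i = 0) → w = 0) → J ∈ 𝓥) :
    HasBarrier R ε x₀ {x | (∀ i, x i ≤ M) ∧ ∀ J ∈ 𝓥, η J ≤ ∑ i ∈ J, x i} I := by
  classical
  obtain ⟨s, hsdef⟩ : ∃ s, s = Real.exp (-1) / M := ⟨_, rfl⟩
  obtain ⟨hs, hsx⟩ := scale_facts hM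
  rw [← hsdef] at hs hsx
  have hMpos : 0 < M := by linarith
  obtain ⟨i₀, hi₀⟩ := hIne
  -- the direction transverse to the edge
  obtain ⟨u, hu⟩ : ∃ u, u = x₀ - z := ⟨_, rfl⟩
  have huS : u ∈ stoich R := by
    rw [hu]
    have : x₀ - z = - (z - x₀) := by abel
    rw [this]
    exact Submodule.neg_mem _ hzS
  have huI : ∀ i ∈ I, u i = x₀ i := by
    intro i hi
    rw [hu]
    simp [(hzI i).2 hi]
  have hfcoord : ∃ j, f j ≠ 0 := by
    by_contra h
    push Not at h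
    exact hf0 (funext h)
  -- the line of directions vanishing on `I`
  have hline : ∀ w ∈ stoich R, (∀ i ∈ I, w i = 0) → ∃ α : ℝ, w = α • f := by
    intro w hw hwI
    by_contra hcon
    push Not at hcon
    have hind : ∀ a b : ℝ, a • w + b • f = 0 → a = 0 ∧ b = 0 := by
      intro a b hab
      by_cases ha : a = 0
      · subst ha
        simp only [zero_smul, zero_add, smul_eq_zero, hf0, or_false] at hab
        exact ⟨rfl, hab⟩
      · exfalso
        apply hcon (-b / a)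
        have h1 : a • w = (-b) • f := by
          rw [neg_smul]
          exact eq_neg_of_add_eq_zero_left hab
        calc w = a⁻¹ • (a • w) := by rw [smul_smul, inv_mul_cancel₀ ha, one_smul]
          _ = a⁻¹ • ((-b) • f) := by rw [h1]
          _ = (-b / a) • f := by rw [smul_smul]; congr 1; field_simp
    obtain ⟨a, b, hab⟩ := mem_span_two_vec hdim hw hfS hind huS
    have h1 : u i₀ = 0 := by
      rw [hab]
      simp [hwI i₀ hi₀, hfI i₀ hi₀]
    rw [huI i₀ hi₀] at h1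
    exact (hx₀ i₀).ne' h1
  -- every direction is proportional to `x₀` on `I`
  have hprop : ∀ w ∈ stoich R, ∃ β : ℝ, ∀ i ∈ I, w i = β * x₀ i := by
    intro w hw
    have hind : ∀ a b : ℝ, a • u + b • f = 0 → a = 0 ∧ b = 0 := by
      intro a b hab
      have h1 := congrFun hab i₀
      simp only [Pi.add_apply, Pi.smul_apply, smul_eq_mul, Pi.zero_apply, hfI i₀ hi₀, mul_zero,
        add_zero, huI i₀ hi₀] at h1
      have ha : a = 0 := by
        rcases mul_eq_zero.1 h1 with h | h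
        · exact h
        · exact absurd h (hx₀ i₀).ne'
      subst ha
      simp only [zero_smul, zero_add, smul_eq_zero, hf0, or_false] at hab
      exact ⟨rfl, hab⟩
    obtain ⟨a, b, hab⟩ := mem_span_two_vec hdim huS hfS hind hw
    refine ⟨a, fun i hi => ?_⟩
    rw [hab]
    simp [hfI i hi, huI i hi]
  -- lower bound of the other coordinates away from the vertices
  have hCpos : ∀ x ∈ CBox R x₀ M 𝓥 η, (∀ i ∈ I, x i = 0) → ∀ j, j ∉ I → 0 < x j := by
    intro x hx hxI j hj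
    by_contra hxj
    push Not at hxj
    have hxj0 : x j = 0 := le_antisymm hxj (hx.2.1 j).1
    obtain ⟨J, hJ⟩ : ∃ J : Finset (Fin d), J = Finset.univ.filter fun i => x i = 0 := ⟨_, rfl⟩
    have hJmem : ∀ i, x i = 0 ↔ i ∈ J := fun i => by simp [hJ]
    have hIJ : ∀ i ∈ I, i ∈ J := fun i hi => (hJmem i).1 (hxI i hi)
    have hjJ : j ∈ J := (hJmem j).1 hxj0
    have hxz : x - z ∈ stoich R := by
      have : x - z = (x - x₀) - (z - x₀) := by abel
      rw [this]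
      exact Submodule.sub_mem _ hx.1 hzS
    by_cases hS : ∀ w ∈ stoich R, (∀ i ∈ J, w i = 0) → w = 0
    · have hJ𝓥 := h𝓥 J ⟨j, hjJ⟩ x hx.1 (fun i => (hx.2.1 i).1) hJmem hS
      have h1 := hx.2.2 J hJ𝓥
      have h2 : ∑ i ∈ J, x i = 0 := Finset.sum_eq_zero fun i hi => (hJmem i).2 hi
      have h3 := hη J hJ𝓥
      linarith
    · push Not at hS
      obtain ⟨w, hw, hwJ, hw0⟩ := hS
      obtain ⟨α, hα⟩ := hline w hw (fun i hi => hwJ i (hIJ i hi))
      have hα0 : α ≠ 0 := by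
        rintro rfl
        apply hw0
        rw [hα]
        simp
      have hfj : f j = 0 := by
        have h1 := hwJ j hjJ
        rw [hα] at h1
        simp only [Pi.smul_apply, smul_eq_mul] at h1
        rcases mul_eq_zero.1 h1 with h | h
        · exact absurd h hα0
        · exact h
      obtain ⟨β, hβ⟩ := hline (x - z) hxz (by
        intro i hi
        simp [hxI i hi, (hzI i).2 hi])
      have h2 : x j - z j = 0 := by
        have := congrFun hβ j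
        simpa [hfj] using this
      have h3 : z j = 0 := by linarith
      exact hj ((hzI j).1 h3)
  obtain ⟨c, hc, hclow⟩ := exists_lower_near (isCompact_CBox R x₀ M 𝓥 η)
    (fun x hx i => (hx.2.1 i).1) I hCpos
  obtain ⟨Eg, hEgdef⟩ : ∃ Eg, Eg = EwR R * (|Real.log c| + |Real.log M| + |Real.log s|) := ⟨_, rfl⟩
  have hEg : 0 ≤ Eg := by
    rw [hEgdef]
    exact mul_nonneg (EwR_nonneg R) (by positivity)
  obtain ⟨B, hB, hst⟩ := edge_static R hne hWR hε I s hEg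
  -- coefficients of the reactions on `I`
  have hqex : ∀ p : Cplx d × Cplx d, ∃ q : ℝ, p ∈ R → ∀ i ∈ I, rxnVec p i = q * x₀ i := by
    intro p
    by_cases hp : p ∈ R
    · obtain ⟨β, hβ⟩ := hprop _ (rxnVec_mem_stoich hp)
      exact ⟨β, fun _ => hβ⟩
    · exact ⟨0, fun h => absurd h hp⟩
  choose q hq using hqex
  obtain ⟨q₀, hq₀, hq₀le⟩ := exists_lower_fin (R.filter fun p => q p ≠ 0) (fun p => |q p|)
    (fun p hp => abs_pos.mpr (Finset.mem_filter.1 hp).2)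
  obtain ⟨X₀, hX₀⟩ : ∃ X₀, X₀ = ∑ i ∈ I, x₀ i := ⟨_, rfl⟩
  have hX₀pos : 0 < X₀ := by
    rw [hX₀]
    exact Finset.sum_pos (fun i _ => hx₀ i) ⟨i₀, hi₀⟩
  obtain ⟨C₂, hC₂⟩ : ∃ C₂, C₂ = ∑ i ∈ I, x₀ i * (Real.log s + Real.log (x₀ i)) := ⟨_, rfl⟩
  obtain ⟨Λ, hΛ⟩ : ∃ Λ, Λ = ((B + Eg) / q₀ + |C₂|) / X₀ := ⟨_, rfl⟩
  obtain ⟨η₃, hη₃⟩ : ∃ η₃, η₃ = Real.exp (-Λ) * X₀ := ⟨_, rfl⟩
  have hη₃pos : 0 < η₃ := by rw [hη₃]; positivity
  obtain ⟨η₂, hη₂⟩ : ∃ η₂, η₂ = min c η₃ := ⟨_, rfl⟩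
  have hη₂pos : 0 < η₂ := by rw [hη₂]; exact lt_min hc hη₃pos
  have hFle : ∀ x : Fin d → ℝ, (∀ i, 0 < x i) → (∀ i, x i ≤ M) →
      Vf (Yv I s x) ≤ VI I - 2 * s * ∑ i ∈ I, x i := by
    intro x hx hxM
    exact Vf_Yv_le I hs hx (fun i _ => hsx _ (hx i) (hxM i))
  have hsumpos : ∀ x : Fin d → ℝ, (∀ i, 0 < x i) → 0 < ∑ i ∈ I, x i := fun x hx =>
    Finset.sum_pos (fun i _ => hx i) ⟨i₀, hi₀⟩
  refine ⟨fun x => Vf (Yv I s x), fun x w => dot (logv (Yv I s x)) (s • res I w),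
    VI I, s, 2 * s * η₂, touch_plain I hs, hs, by positivity, ?_, ?_, ?_⟩
  · intro x hx _ hxZ
    have h1 := hFle x hx hxZ.1
    have h2 := hsumpos x hx
    have h3 : 0 < 2 * s * ∑ i ∈ I, x i := by positivity
    simp only
    linarith
  · intro x hx hxS hxZ hbig k hk μ hμ
    simp only at hbig ⊢
    have h1 := hFle x hx hxZ.1
    have hsmall : ∑ i ∈ I, x i < η₂ := by
      have h2 : 2 * s * ∑ i ∈ I, x i < 2 * s * η₂ := by linarith
      exact lt_of_mul_lt_mul_left h2 (by positivity)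
    have hle_c : ∑ i ∈ I, x i ≤ c := by
      have : η₂ ≤ c := by rw [hη₂]; exact min_le_left _ _
      linarith
    have hlt_3 : ∑ i ∈ I, x i < η₃ := by
      have : η₂ ≤ η₃ := by rw [hη₂]; exact min_le_right _ _
      linarith
    have hxC : x ∈ CBox R x₀ M 𝓥 η := ⟨hxS, fun i => ⟨(hx i).le, hxZ.1 i⟩, hxZ.2⟩
    have hlow := hclow x hxC hle_c
    have hoff : ∀ p ∈ R, |off I s (rxnVec p) x| ≤ Eg := by
      intro p hp
      rw [hEgdef]
      exact off_le I hs hp hx hc hlow (fun j _ => hxZ.1 j)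
    -- proportionality of `x` on `I`
    have hxz : x - z ∈ stoich R := by
      have : x - z = (x - x₀) - (z - x₀) := by abel
      rw [this]
      exact Submodule.sub_mem _ hxS hzS
    obtain ⟨ℓ, hℓ⟩ := hprop _ hxz
    have hℓI : ∀ i ∈ I, x i = ℓ * x₀ i := by
      intro i hi
      have := hℓ i hi
      simpa [(hzI i).2 hi] using this
    have hℓpos : 0 < ℓ := by
      have h2 := hx i₀
      rw [hℓI i₀ hi₀] at h2
      by_contra hneg
      push Not at hneg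
      have h3 := hx₀ i₀
      nlinarith
    have hsumℓ : ∑ i ∈ I, x i = ℓ * X₀ := by
      rw [hX₀, Finset.mul_sum]
      exact Finset.sum_congr rfl hℓI
    -- the exclusion
    have hexcl : ∀ p ∈ R, |phi (rxnVec p) x| ≤ B → res I (rxnVec p) = 0 := by
      intro p hp hnear
      have hq0 : q p = 0 := by
        by_contra hqne
        have hqle := hq₀le p (Finset.mem_filter.2 ⟨hp, hqne⟩)
        have hoffp := hoff p hp
        unfold off at hoffp
        have hphi : phi (res I (rxnVec p)) (Yv I s x) = q p * (X₀ * Real.log ℓ + C₂) := by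
          unfold phi
          have h2 : ∀ i, res I (rxnVec p) i * Real.log (Yv I s x i) =
              if i ∈ I then q p * (x₀ i * Real.log ℓ + x₀ i * (Real.log s + Real.log (x₀ i))) else 0 := by
            intro i
            by_cases hi : i ∈ I
            · simp only [res, Yv, hi, if_true]
              rw [hq p hp i hi, hℓI i hi, Real.log_mul hs.ne' (mul_pos hℓpos (hx₀ i)).ne',
                Real.log_mul hℓpos.ne' (hx₀ i).ne']
              ring
            · simp [res, hi]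
          simp_rw [h2]
          rw [Finset.sum_ite_mem]
          simp only [Finset.univ_inter]
          rw [← Finset.mul_sum, Finset.sum_add_distrib, ← Finset.sum_mul, ← hX₀, ← hC₂]
        have h3 : |phi (res I (rxnVec p)) (Yv I s x)| ≤ B + Eg := by
          have h4 : |phi (res I (rxnVec p)) (Yv I s x)| ≤
              |phi (rxnVec p) x| + |phi (rxnVec p) x - phi (res I (rxnVec p)) (Yv I s x)| := by
            have := abs_sub_abs_le_abs_sub (phi (res I (rxnVec p)) (Yv I s x)) (phi (rxnVec p) x)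
            rw [abs_sub_comm (phi (res I (rxnVec p)) (Yv I s x)) (phi (rxnVec p) x)] at this
            linarith
          linarith
        rw [hphi, abs_mul] at h3
        have h5 : q₀ * |X₀ * Real.log ℓ + C₂| ≤ B + Eg :=
          le_trans (mul_le_mul_of_nonneg_right hqle (abs_nonneg _)) h3
        have h6 : |X₀ * Real.log ℓ + C₂| ≤ (B + Eg) / q₀ := by
          rw [le_div_iff₀ hq₀]
          linarith
        have h7 : - ((B + Eg) / q₀ + |C₂|) ≤ X₀ * Real.log ℓ := by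
          have h8 := (abs_le.1 h6).1
          have h9 := le_abs_self C₂
          linarith
        have h8 : - Λ ≤ Real.log ℓ := by
          rw [hΛ]
          have : - (((B + Eg) / q₀ + |C₂|) / X₀) = (- ((B + Eg) / q₀ + |C₂|)) / X₀ := by ring
          rw [this, div_le_iff₀ hX₀pos]
          linarith
        have h9 : Real.exp (-Λ) ≤ ℓ := by
          rw [← Real.exp_log hℓpos]
          exact Real.exp_le_exp.mpr h8
        have h10 : η₃ ≤ ∑ i ∈ I, x i := by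
          rw [hsumℓ, hη₃]
          exact mul_le_mul_of_nonneg_right h9 hX₀pos.le
        linarith
      funext i
      by_cases hi : i ∈ I
      · simp [res, hi, hq p hp i hi, hq0]
      · simp [res, hi]
    -- a reaction moving the coordinates in `I`
    obtain ⟨p₁, hp₁, hp₁ne⟩ : ∃ p₁ ∈ R, res I (rxnVec p₁) ≠ 0 := by
      by_contra hcon
      push Not at hcon
      have h2 : ∀ p ∈ R, rxnVec p i₀ = 0 := by
        intro p hp
        have := congrFun (hcon p hp) i₀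
        simpa [res, hi₀] using this
      have h3 := stoich_coord_zero h2 huS
      rw [huI i₀ hi₀] at h3
      exact (hx₀ i₀).ne' h3
    have hfar : B < |phi (rxnVec p₁) x| := by
      by_contra h2
      push Not at h2
      exact hp₁ne (hexcl p₁ hp₁ h2)
    have hmain := (hst x hx hoff hexcl k hk).2 p₁ hp₁ hfar
    rw [dot_smul_right]
    have hμ1 := hμ p₁ hp₁
    have : s * dot (logv (Yv I s x)) (res I (massAction R k x)) ≤ s * (- μ) :=
      mul_le_mul_of_nonneg_left (by linarith) hs.le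
    linarith
  · intro ξ hξ
    obtain ⟨a, ha⟩ : ∃ a, a = min 1 (ξ / (2 * (2 * (d : ℝ) + 1))) := ⟨_, rfl⟩
    have hden : 0 < 2 * (2 * (d : ℝ) + 1) := by positivity
    have hapos : 0 < a := by
      rw [ha]
      exact lt_min one_pos (div_pos hξ hden)
    have ha1 : a ≤ 1 := by rw [ha]; exact min_le_left _ _
    have ha2 : a ≤ ξ / (2 * (2 * (d : ℝ) + 1)) := by rw [ha]; exact min_le_right _ _
    refine ⟨a ^ 2 / s, by positivity, ?_⟩
    intro x hx _ _ hFx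
    simp only at hFx
    by_contra hcon
    push Not at hcon
    have hsS : s * ∑ i ∈ I, x i ≤ a ^ 2 := by
      have := mul_le_mul_of_nonneg_left hcon.le hs.le
      have h2 : s * (a ^ 2 / s) = a ^ 2 := by field_simp
      linarith
    have h1 := Vf_Yv_ge I hs hx hapos.le ha1 hsS
    have h5 : (2 * (d : ℝ)) * a < ξ := by
      have h6 : (2 * (d : ℝ) + 1) * a ≤ ξ / 2 := by
        calc (2 * (d : ℝ) + 1) * a ≤ (2 * (d : ℝ) + 1) * (ξ / (2 * (2 * (d : ℝ) + 1))) :=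
              mul_le_mul_of_nonneg_left ha2 (by positivity)
          _ = ξ / 2 := by field_simp
      nlinarith
    nlinarith

lemma Yv_univ_one (x : Fin d → ℝ) : Yv Finset.univ 1 x = x := by
  funext i
  simp [Yv]

lemma res_univ (w : Fin d → ℝ) : res Finset.univ w = w := by
  funext i
  simp [res]

/-- The barrier at infinity. -/
theorem top_level (R : Finset (Cplx d × Cplx d)) (hne : ∀ p ∈ R, p.1 ≠ p.2)
    (hWR : WeaklyReversible R) (hdim : Module.finrank ℝ (stoich R) ≤ 2) {ε : ℝ} (hε : 0 < ε)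
    {x₀ : Fin d → ℝ} (hx₀ : ∀ i, 0 < x₀ i) :
    ∃ (F : (Fin d → ℝ) → ℝ) (Dl : (Fin d → ℝ) → (Fin d → ℝ) → ℝ) (ρ w₀ : ℝ),
      Touch F Dl ∧ 1 ≤ ρ ∧
      (∀ w, ∃ M, 1 ≤ M ∧ ∀ x, (∀ i, 0 < x i) → F x ≤ w → ∀ i, x i ≤ M) ∧
      (∀ x, (∀ i, 0 < x i) → (∀ i, x i ≤ ρ) → F x ≤ w₀) ∧
      (∀ x, (∀ i, 0 < x i) → x - x₀ ∈ stoich R → (¬ ∀ i, x i ≤ ρ) →
        ∀ k : Cplx d × Cplx d → ℝ, (∀ p, ε ≤ k p ∧ k p ≤ ε⁻¹) → ∀ μ : ℝ, (∀ p ∈ R, μ ≤ monom x p.1) →
          Dl x (massAction R k x) ≤ - μ) := by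
  classical
  have hs1 : (0 : ℝ) < 1 := one_pos
  have hI : ∀ p ∈ R, res Finset.univ (rxnVec p) ≠ 0 := by
    intro p hp
    rw [res_univ]
    exact rxnVec_ne_zero (hne p hp)
  obtain ⟨D, χ, χ', R₁, R₂, C, B, hDR, hcut, hR₂, hB, hind, hst⟩ :=
    flatten_static R hne hWR hε Finset.univ hs1 hI (le_refl (0 : ℝ))
  obtain ⟨Bp, hBp, hpair⟩ := exists_pair_bound hdim hDR hind hB
  have hBp0 : 0 ≤ Bp := le_trans hB hBp
  obtain ⟨ρ, m, hρ, hm, hprop⟩ := proper_of_all_near R hx₀ hBp0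
  have hvD : ∀ g ∈ D, res Finset.univ (rxnVec g) ≠ 0 := fun g hg => hI g (hDR hg)
  have hID : ∀ g ∈ D, IntLike (res Finset.univ (rxnVec g)) :=
    fun g _ => res_intLike (rxnVec_intLike g) Finset.univ
  refine ⟨fun x => WW D (fun g => res Finset.univ (rxnVec g)) χ (Yv Finset.univ 1 x),
    fun x w => dot (grad D (fun g => res Finset.univ (rxnVec g)) χ χ' (Yv Finset.univ 1 x))
      ((1 : ℝ) • res Finset.univ w),
    ρ, (d : ℝ) * (ρ * Real.log ρ), touch_flat D Finset.univ hs1 hvD hcut.hderiv hcut.nonneg, hρ,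
    ?_, ?_, ?_⟩
  · intro w
    obtain ⟨M, hM⟩ := coord_le_of_WW_le hcut hR₂ D (fun g => res Finset.univ (rxnVec g)) hvD hID w
    refine ⟨max 1 M, le_max_left _ _, ?_⟩
    intro x hx hFx i
    simp only [Yv_univ_one] at hFx
    exact le_trans (hM x hx hFx i) (le_max_right _ _)
  · intro x hx hxρ
    simp only [Yv_univ_one]
    exact le_trans (WW_le_Vf hcut D _ hvD hx) (Vf_le_of_le hx hρ hxρ)
  · intro x hx hxS hxρ k hk μ hμ
    simp only [Yv_univ_one, one_smul]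
    have hoff : ∀ p ∈ R, |off Finset.univ 1 (rxnVec p) x| ≤ 0 := by
      intro p _
      rw [off_eq Finset.univ hs1 _ hx]
      simp
    have hnotall : ¬ ∀ p ∈ R, |phi (rxnVec p) x| ≤ Bp := by
      intro hall
      exact hxρ fun i => (hprop x hx hxS hall i).2
    have hexcl : ∀ g₁ ∈ D, ∀ g₂ ∈ D, g₁ ≠ g₂ → |phi (rxnVec g₁) x| ≤ B → B < |phi (rxnVec g₂) x| := by
      intro g₁ hg₁ g₂ hg₂ hne' h1'
      by_contra h2'
      push Not at h2'
      exact hnotall (hpair g₁ hg₁ g₂ hg₂ hne' x h1' h2')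
    obtain ⟨p₁, hp₁, hfar⟩ : ∃ p₁ ∈ R, B < |phi (rxnVec p₁) x| := by
      by_contra hcon
      push Not at hcon
      exact hnotall fun p hp => le_trans (hcon p hp) hBp
    have hmain := (hst x hx hoff hexcl k hk).2 p₁ hp₁ hfar
    rw [Yv_univ_one] at hmain
    have hμ1 := hμ p₁ hp₁
    linarith

end Vale.Agent.Lib.P072
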