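import Vale.Agent.Lib.P072.Static

/-!
Class-by-class estimate of the dissipation with a strict gain on far classes.
-/

open Finset Filter Topology

namespace Vale.Agent.Lib.P072

variable {d : ℕ}

/-- Strict version of `far_class_sum`. -/
lemma far_class_sum_strict {A : Finset (Cplx d × Cplx d)} {ψ : Cplx d → ℝ}
    {L k : Cplx d × Cplx d → ℝ} {ε E C m : ℝ} (hε : 0 < ε)
    (hk : ∀ q ∈ A, ε ≤ k q ∧ k q ≤ ε⁻¹) (hE : 0 ≤ E)
    (hL : ∀ q ∈ A, L q ≤ ψ q.2 - ψ q.1 + E)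
    (htop1 : ∀ q ∈ A, ψ q.1 ≤ m) (htop2 : ∀ q ∈ A, ψ q.2 ≤ m)
    {r : Cplx d × Cplx d} (hr : r ∈ A)
    (hneg : Real.exp (ψ r.1) * (ψ r.2 - ψ r.1 + E) ≤ - C * Real.exp m)
    (hC : (A.card : ℝ) * ((1 + E) * ε⁻¹) + 1 ≤ ε * C) :
    ∑ q ∈ A, k q * Real.exp (ψ q.1) * L q ≤ - Real.exp m := by
  classical
  have hεinv : 0 < ε⁻¹ := inv_pos.mpr hε
  have hCnn : 0 ≤ C := by
    have h1 : 0 ≤ (A.card : ℝ) * ((1 + E) * ε⁻¹) := by positivity
    have h2 : 0 ≤ ε * C := by linarith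
    exact nonneg_of_mul_nonneg_right h2 hε
  have hm := Real.exp_pos m
  have hterm : ∀ q ∈ A, k q * Real.exp (ψ q.1) * L q ≤
      k q * (Real.exp (ψ q.1) * (ψ q.2 - ψ q.1 + E)) := by
    intro q hq
    have h1 : 0 ≤ k q * Real.exp (ψ q.1) :=
      mul_nonneg (le_trans hε.le (hk q hq).1) (Real.exp_pos _).le
    calc k q * Real.exp (ψ q.1) * L q ≤ k q * Real.exp (ψ q.1) * (ψ q.2 - ψ q.1 + E) :=
          mul_le_mul_of_nonneg_left (hL q hq) h1
      _ = _ := by ring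
  have hother : ∀ q ∈ A, k q * Real.exp (ψ q.1) * L q ≤ ε⁻¹ * (Real.exp m * (1 + E)) := by
    intro q hq
    refine le_trans (hterm q hq) ?_
    have h1 := term_le (htop1 q hq) (htop2 q hq) hE
    have hkq := hk q hq
    have hkpos : 0 ≤ k q := le_trans hε.le hkq.1
    have h2 : 0 ≤ Real.exp m * (1 + E) := by positivity
    calc k q * (Real.exp (ψ q.1) * (ψ q.2 - ψ q.1 + E))
        ≤ k q * (Real.exp m * (1 + E)) := mul_le_mul_of_nonneg_left h1 hkpos
      _ ≤ ε⁻¹ * (Real.exp m * (1 + E)) := mul_le_mul_of_nonneg_right hkq.2 h2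
  have htopr : k r * Real.exp (ψ r.1) * L r ≤ ε * (- C * Real.exp m) := by
    refine le_trans (hterm r hr) ?_
    have hkr := hk r hr
    have hX : Real.exp (ψ r.1) * (ψ r.2 - ψ r.1 + E) ≤ 0 :=
      le_trans hneg (by nlinarith)
    calc k r * (Real.exp (ψ r.1) * (ψ r.2 - ψ r.1 + E))
        ≤ ε * (Real.exp (ψ r.1) * (ψ r.2 - ψ r.1 + E)) :=
          mul_le_mul_of_nonpos_right hkr.1 hX
      _ ≤ ε * (- C * Real.exp m) := mul_le_mul_of_nonneg_left hneg hε.le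
  rw [← Finset.add_sum_erase A _ hr]
  have hrest : ∑ q ∈ A.erase r, k q * Real.exp (ψ q.1) * L q ≤
      (A.card : ℝ) * (ε⁻¹ * (Real.exp m * (1 + E))) := by
    have h1 : ∑ q ∈ A.erase r, k q * Real.exp (ψ q.1) * L q ≤
        ∑ _q ∈ A.erase r, ε⁻¹ * (Real.exp m * (1 + E)) :=
      Finset.sum_le_sum fun q hq => hother q (Finset.mem_of_mem_erase hq)
    rw [Finset.sum_const, nsmul_eq_mul] at h1
    refine le_trans h1 (mul_le_mul_of_nonneg_right ?_ (by positivity))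
    exact_mod_cast Finset.card_le_card (Finset.erase_subset _ _)
  have hC' : (A.card : ℝ) * (ε⁻¹ * (Real.exp m * (1 + E))) + Real.exp m ≤ ε * (C * Real.exp m) := by
    have := mul_le_mul_of_nonneg_right hC hm.le
    calc (A.card : ℝ) * (ε⁻¹ * (Real.exp m * (1 + E))) + Real.exp m
        = ((A.card : ℝ) * ((1 + E) * ε⁻¹) + 1) * Real.exp m := by ring
      _ ≤ ε * C * Real.exp m := this
      _ = _ := by ring
  linarith [htopr, hrest, hC']

/-- A sum over reactions is at most the sum over the class of `p₁` when the other classes do not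
contribute positively. -/
lemma sum_le_class {R : Finset (Cplx d × Cplx d)} (hWR : WeaklyReversible R)
    (F : Cplx d × Cplx d → ℝ) [∀ a b, Decidable (Rch R a b)]
    (h : ∀ p₀ ∈ R, ∑ q ∈ R.filter (fun q => Rch R p₀.1 q.1), F q ≤ 0)
    {p₁ : Cplx d × Cplx d} (hp₁ : p₁ ∈ R) :
    ∑ p ∈ R, F p ≤ ∑ q ∈ R.filter (fun q => Rch R p₁.1 q.1), F q := by
  classical
  set key : Cplx d × Cplx d → Finset (Cplx d × Cplx d) :=
    fun p => R.filter fun q => Rch R p.1 q.1 with hkey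
  have hmaps : ∀ x ∈ R, key x ∈ R.image key := fun x hx => Finset.mem_image_of_mem _ hx
  rw [← Finset.sum_fiberwise_of_maps_to hmaps]
  have hset : ∀ p₀ ∈ R, R.filter (fun x => key x = key p₀) = R.filter (fun q => Rch R p₀.1 q.1) := by
    intro p₀ _
    ext q
    simp only [Finset.mem_filter]
    constructor
    · rintro ⟨hq, hkq⟩
      refine ⟨hq, ?_⟩
      have : q ∈ key q := by
        simp only [hkey, Finset.mem_filter]
        exact ⟨hq, Relation.ReflTransGen.refl⟩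
      rw [hkq] at this
      simpa [hkey] using (Finset.mem_filter.1 this).2
    · rintro ⟨hq, hpq⟩
      refine ⟨hq, ?_⟩
      ext z
      simp only [hkey, Finset.mem_filter]
      constructor
      · rintro ⟨hz, hqz⟩
        exact ⟨hz, hpq.trans hqz⟩
      · rintro ⟨hz, hpz⟩
        exact ⟨hz, (rch_symm hWR hpq).trans hpz⟩
  have hmem : key p₁ ∈ R.image key := hmaps p₁ hp₁
  rw [← Finset.add_sum_erase _ _ hmem, hset p₁ hp₁]
  have hrest : ∑ y ∈ (R.image key).erase (key p₁), ∑ x ∈ R.filter (fun x => key x = y), F x ≤ 0 := by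
    refine Finset.sum_nonpos fun y hy => ?_
    obtain ⟨p₀, hp₀, rfl⟩ := Finset.mem_image.1 (Finset.mem_of_mem_erase hy)
    rw [hset p₀ hp₀]
    exact h p₀ hp₀
  linarith

/-- The estimate for a weakly reversible network, class by class: nonpositive if near classes are
nonpositive, with a strict gain from a reaction with large log-ratio. -/
theorem classes_sum {R : Finset (Cplx d × Cplx d)} (hne : ∀ p ∈ R, p.1 ≠ p.2)
    (hWR : WeaklyReversible R) {ψ : Cplx d → ℝ} {L k : Cplx d × Cplx d → ℝ} {ε E CA D₀ : ℝ}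
    (hε : 0 < ε) (hk : ∀ p, ε ≤ k p ∧ k p ≤ ε⁻¹) (hE : 0 ≤ E)
    (hL : ∀ p ∈ R, L p ≤ ψ p.2 - ψ p.1 + E)
    (hCA : (R.card : ℝ) * ((1 + E) * ε⁻¹) + 1 ≤ ε * CA)
    (hfar : ∀ p ∈ R, ∀ q ∈ R, Rch R p.1 q.1 → ∀ ψ : Cplx d → ℝ, ψ q.1 ≤ ψ p.1 - D₀ →
      ∃ r ∈ R, Rch R p.1 r.1 ∧ Rch R r.2 q.1 ∧
        Real.exp (ψ r.1) * (ψ r.2 - ψ r.1 + E) ≤ - CA * Real.exp (ψ p.1))
    (hnear : ∀ (A : Finset (Cplx d × Cplx d)), A ⊆ R → (∀ q ∈ A, ∃ q' ∈ A, q'.1 = q.2) →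
      (∀ q ∈ A, ∀ q' ∈ A, Rch R q.1 q'.1) →
      ∀ r ∈ A, (∀ q ∈ A, ψ q.1 ≤ ψ r.1) → (∀ q ∈ A, ψ q.2 ≤ ψ r.1) →
      (∀ q ∈ A, |ψ q.2 - ψ q.1| ≤ D₀) → ∑ q ∈ A, k q * Real.exp (ψ q.1) * L q ≤ 0) :
    (∑ p ∈ R, k p * Real.exp (ψ p.1) * L p ≤ 0) ∧
      ∀ p₁ ∈ R, D₀ < |ψ p₁.2 - ψ p₁.1| →
        ∑ p ∈ R, k p * Real.exp (ψ p.1) * L p ≤ - Real.exp (ψ p₁.1) := by
  classical
  -- the analysis of one class
  have hclass : ∀ p₀ ∈ R,
      (∑ q ∈ R.filter (fun q => Rch R p₀.1 q.1), k q * Real.exp (ψ q.1) * L q ≤ 0) ∧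
      (D₀ < |ψ p₀.2 - ψ p₀.1| →
        ∑ q ∈ R.filter (fun q => Rch R p₀.1 q.1), k q * Real.exp (ψ q.1) * L q ≤
          - Real.exp (ψ p₀.1)) := by
    intro p₀ hp₀
    obtain ⟨A, hA⟩ : ∃ A, A = R.filter (fun q => Rch R p₀.1 q.1) := ⟨_, rfl⟩
    rw [← hA]
    have hAmem : ∀ q, q ∈ A ↔ q ∈ R ∧ Rch R p₀.1 q.1 := fun q => by simp [hA]
    have hp₀A : p₀ ∈ A := (hAmem _).2 ⟨hp₀, Relation.ReflTransGen.refl⟩
    have hAsub : A ⊆ R := by
      rw [hA]
      exact Finset.filter_subset _ _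
    have hAne : A.Nonempty := ⟨p₀, hp₀A⟩
    have htarget : ∀ q ∈ A, ∃ q' ∈ A, q'.1 = q.2 := by
      intro q hq
      obtain ⟨hqR, hq0⟩ := (hAmem q).1 hq
      have h1 : Rch R q.2 q.1 := hWR q hqR
      rcases Relation.ReflTransGen.cases_head h1 with h2 | ⟨c', hc', _⟩
      · exact absurd h2.symm (hne q hqR)
      · refine ⟨(q.2, c'), (hAmem _).2 ⟨hc', ?_⟩, rfl⟩
        exact hq0.tail (by simpa using hqR)
    have hconn : ∀ q ∈ A, ∀ q' ∈ A, Rch R q.1 q'.1 := by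
      intro q hq q' hq'
      exact (rch_symm hWR ((hAmem q).1 hq).2).trans ((hAmem q').1 hq').2
    obtain ⟨r, hrA, hrmax⟩ := Finset.exists_max_image A (fun q => ψ q.1) hAne
    obtain ⟨s, hsA, hsmin⟩ := Finset.exists_min_image A (fun q => ψ q.1) hAne
    have htop2 : ∀ q ∈ A, ψ q.2 ≤ ψ r.1 := by
      intro q hq
      obtain ⟨q', hq', h⟩ := htarget q hq
      rw [← h]
      exact hrmax q' hq'
    have hbot2 : ∀ q ∈ A, ψ s.1 ≤ ψ q.2 := by
      intro q hq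
      obtain ⟨q', hq', h⟩ := htarget q hq
      rw [← h]
      exact hsmin q' hq'
    have hrR := hAsub hrA
    have hsR := hAsub hsA
    have hrs : Rch R r.1 s.1 := hconn r hrA s hsA
    by_cases hfarcase : ψ s.1 ≤ ψ r.1 - D₀
    · obtain ⟨t, htR, hrt, _, hneg⟩ := hfar r hrR s hsR hrs ψ hfarcase
      have htA : t ∈ A := (hAmem t).2 ⟨htR, ((hAmem r).1 hrA).2.trans hrt⟩
      have hstrict : ∑ q ∈ A, k q * Real.exp (ψ q.1) * L q ≤ - Real.exp (ψ r.1) := by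
        refine far_class_sum_strict (ψ := ψ) (E := E) (C := CA) (m := ψ r.1) (ε := ε) hε
          (fun q _ => hk q) hE (fun q hq => hL q (hAsub hq)) hrmax htop2 htA hneg ?_
        have hcard : (A.card : ℝ) ≤ (R.card : ℝ) := by
          exact_mod_cast Finset.card_le_card hAsub
        have hεinv := inv_pos.mpr hε
        have : (A.card : ℝ) * ((1 + E) * ε⁻¹) ≤ (R.card : ℝ) * ((1 + E) * ε⁻¹) :=
          mul_le_mul_of_nonneg_right hcard (by positivity)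
        linarith
      constructor
      · have := Real.exp_pos (ψ r.1)
        linarith
      · intro _
        have h1 : Real.exp (ψ p₀.1) ≤ Real.exp (ψ r.1) := Real.exp_le_exp.mpr (hrmax p₀ hp₀A)
        linarith
    · push Not at hfarcase
      have hspread : ∀ q ∈ A, |ψ q.2 - ψ q.1| ≤ D₀ := by
        intro q hq
        rw [abs_le]
        have h1 : ψ q.1 ≤ ψ r.1 := hrmax q hq
        have h2 := htop2 q hq
        have h3 : ψ s.1 ≤ ψ q.1 := hsmin q hq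
        have h4 := hbot2 q hq
        constructor <;> linarith
      refine ⟨hnear A hAsub htarget hconn r hrA hrmax htop2 hspread, ?_⟩
      intro hbig
      exact absurd (hspread p₀ hp₀A) (not_le.mpr hbig)
  constructor
  · exact sum_nonpos_of_classes hWR _ fun p₀ hp₀ => (hclass p₀ hp₀).1
  · intro p₁ hp₁ hbig
    refine le_trans (sum_le_class hWR _ (fun p₀ hp₀ => (hclass p₀ hp₀).1) hp₁) ?_
    exact (hclass p₁ hp₁).2 hbig

end Vale.Agent.Lib.P072
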