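import Vale.Agent.Lib.P072.PermMain

/-!
Global existence of solutions from an a priori bound in a compact subset of the positive orthant.
-/

open Finset Filter Topology Set
open scoped NNReal

namespace Vale.Agent.Lib.P072

variable {d : ℕ}

/-- Coordinatewise clamping to the interval `[a, b]`. -/
def clampv (a b : ℝ) (x : Fin d → ℝ) : Fin d → ℝ := fun i => max a (min (x i) b)

lemma abs_clamp_sub_le {a b u v : ℝ} (hab : a ≤ b) :
    |max a (min u b) - max a (min v b)| ≤ |u - v| := by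
  have h1 := le_abs_self (u - v)
  have h2 := neg_abs_le (u - v)
  rw [abs_le]
  simp only [max_def, min_def]
  split_ifs <;> constructor <;> linarith

lemma lipschitz_clampv {a b : ℝ} (hab : a ≤ b) : LipschitzWith 1 (clampv (d := d) a b) := by
  refine LipschitzWith.of_dist_le_mul fun x y => ?_
  simp only [NNReal.coe_one, one_mul]
  rw [dist_pi_le_iff dist_nonneg]
  intro i
  rw [Real.dist_eq]
  refine le_trans (abs_clamp_sub_le hab) ?_
  rw [← Real.dist_eq]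
  exact dist_le_pi_dist x y i

lemma clampv_mem {a b : ℝ} (hab : a ≤ b) (x : Fin d → ℝ) :
    clampv a b x ∈ Set.Icc (fun _ => a) (fun _ => b) := by
  constructor
  · intro i
    exact le_max_left _ _
  · intro i
    exact max_le hab (min_le_right _ _)

lemma clampv_of_mem {a b : ℝ} {x : Fin d → ℝ} (h : ∀ i, a ≤ x i ∧ x i ≤ b) : clampv a b x = x := by
  funext i
  simp only [clampv]
  rw [min_eq_left (h i).2, max_eq_right (h i).1]

lemma contDiff_monom (y : Cplx d) : ContDiff ℝ 1 fun x : Fin d → ℝ => monom x y := by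
  unfold monom
  refine contDiff_prod fun i _ => ?_
  exact (contDiff_apply ℝ ℝ i).pow _

/-- The truncated vector field is Lipschitz and bounded, uniformly for bounded rates. -/
lemma trunc_bounds (R : Finset (Cplx d × Cplx d)) {a b C : ℝ} (hab : a ≤ b) (hC : 0 ≤ C) :
    ∃ Kf Lf : ℝ≥0, ∀ k : Cplx d × Cplx d → ℝ, (∀ p, |k p| ≤ C) →
      LipschitzWith Kf (fun x => massAction R k (clampv a b x)) ∧
      ∀ x, ‖massAction R k (clampv a b x)‖ ≤ Lf := by
  classical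
  have hbox : IsCompact (Set.Icc (fun _ => a) (fun _ => b) : Set (Fin d → ℝ)) := isCompact_Icc
  have hL : ∀ y : Cplx d, ∃ K : ℝ≥0, LipschitzOnWith K (fun x : Fin d → ℝ => monom x y)
      (Set.Icc (fun _ => a) (fun _ => b)) := by
    intro y
    obtain ⟨K, hK⟩ := ((contDiff_monom y).locallyLipschitz.locallyLipschitzOn
      (s := Set.Icc (fun _ => a) (fun _ => b))).exists_lipschitzOnWith_of_compact hbox
    exact ⟨K, hK⟩
  have hBd : ∀ y : Cplx d, ∃ B : ℝ, ∀ x ∈ (Set.Icc (fun _ => a) (fun _ => b) : Set (Fin d → ℝ)),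
      ‖monom x y‖ ≤ B := fun y =>
    hbox.exists_bound_of_continuousOn (contDiff_monom y).continuous.continuousOn
  choose K hK using hL
  choose B hB using hBd
  refine ⟨(∑ p ∈ R, C * (K p.1 : ℝ) * ‖rxnVec p‖).toNNReal,
    (∑ p ∈ R, C * |B p.1| * ‖rxnVec p‖).toNNReal, ?_⟩
  intro k hk
  have hsum0 : 0 ≤ ∑ p ∈ R, C * (K p.1 : ℝ) * ‖rxnVec p‖ := by positivity
  have hsum1 : 0 ≤ ∑ p ∈ R, C * |B p.1| * ‖rxnVec p‖ := by positivity
  constructor
  · refine LipschitzWith.of_dist_le_mul fun x y => ?_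
    rw [Real.coe_toNNReal _ hsum0, dist_eq_norm, Finset.sum_mul]
    simp only [massAction]
    rw [← Finset.sum_sub_distrib]
    refine le_trans (norm_sum_le _ _) (Finset.sum_le_sum fun p _ => ?_)
    rw [← sub_smul, norm_smul, Real.norm_eq_abs]
    have h1 : |k p * monom (clampv a b x) p.1 - k p * monom (clampv a b y) p.1| ≤
        C * (K p.1 : ℝ) * dist x y := by
      rw [← mul_sub, abs_mul]
      have h2 : |monom (clampv a b x) p.1 - monom (clampv a b y) p.1| ≤ (K p.1 : ℝ) * dist x y := by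
        have h3 := (hK p.1).dist_le_mul _ (clampv_mem hab x) _ (clampv_mem hab y)
        rw [Real.dist_eq] at h3
        refine le_trans h3 (mul_le_mul_of_nonneg_left ?_ (NNReal.coe_nonneg _))
        have h4 := (lipschitz_clampv (d := d) hab).dist_le_mul x y
        simpa using h4
      calc |k p| * |monom (clampv a b x) p.1 - monom (clampv a b y) p.1|
          ≤ C * ((K p.1 : ℝ) * dist x y) :=
            mul_le_mul (hk p) h2 (abs_nonneg _) hC
        _ = _ := by ring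
    calc |k p * monom (clampv a b x) p.1 - k p * monom (clampv a b y) p.1| * ‖rxnVec p‖
        ≤ (C * (K p.1 : ℝ) * dist x y) * ‖rxnVec p‖ :=
          mul_le_mul_of_nonneg_right h1 (norm_nonneg _)
      _ = C * (K p.1 : ℝ) * ‖rxnVec p‖ * dist x y := by ring
  · intro x
    rw [Real.coe_toNNReal _ hsum1]
    simp only [massAction]
    refine le_trans (norm_sum_le _ _) (Finset.sum_le_sum fun p _ => ?_)
    rw [norm_smul, Real.norm_eq_abs, abs_mul]
    refine mul_le_mul_of_nonneg_right ?_ (norm_nonneg _)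
    have h1 := hB p.1 _ (clampv_mem hab x)
    rw [Real.norm_eq_abs] at h1
    exact mul_le_mul (hk p) (le_trans h1 (le_abs_self _)) (abs_nonneg _) hC

/-- Existence of a solution of the truncated system on `[0, T]`. -/
lemma exists_trunc_sol (R : Finset (Cplx d × Cplx d)) {k : ℝ → Cplx d × Cplx d → ℝ}
    (hkc : ∀ p, Continuous fun t => k t p) {a b C : ℝ} (hab : a ≤ b) (hC : 0 ≤ C)
    (hkb : ∀ t p, |k t p| ≤ C) (x₁ : Fin d → ℝ) {T : ℝ} (hT : 0 ≤ T) :
    ∃ α : ℝ → Fin d → ℝ, α 0 = x₁ ∧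
      ∀ t ∈ Set.Icc 0 T, HasDerivWithinAt α (massAction R (k t) (clampv a b (α t))) (Set.Icc 0 T) t := by
  classical
  obtain ⟨Kf, Lf, hKL⟩ := trunc_bounds R (a := a) (b := b) hab hC
  have hpl : IsPicardLindelof (fun t x => massAction R (k t) (clampv a b x))
      (tmin := 0) (tmax := T) ⟨0, le_rfl, hT⟩ x₁ (Lf * T.toNNReal) 0 Lf Kf := by
    refine ⟨?_, ?_, ?_, ?_⟩
    · intro t _
      exact (hKL (k t) (hkb t)).1.lipschitzOnWith
    · intro x _
      refine Continuous.continuousOn ?_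
      simp only [massAction]
      refine continuous_finsetSum _ fun p _ => ?_
      exact ((hkc p).mul continuous_const).smul continuous_const
    · intro t _ x _
      exact (hKL (k t) (hkb t)).2 x
    · simp [Real.coe_toNNReal _ hT, hT]
  obtain ⟨α, hα0, hα⟩ := hpl.exists_eq_forall_mem_Icc_hasDerivWithinAt₀
  exact ⟨α, hα0, hα⟩

/-- An a priori bound keeps the truncated solution in the bounded region. -/
lemma trunc_stays (R : Finset (Cplx d × Cplx d)) {k : ℝ → Cplx d × Cplx d → ℝ} {m M : ℝ}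
    (hm : 0 < m) (hmM : m ≤ M)
    {x₁ : Fin d → ℝ} (hx₁ : ∀ i, m ≤ x₁ i ∧ x₁ i ≤ M)
    (htrap : ∀ (T : ℝ) (x : ℝ → Fin d → ℝ), IsSol R k T x → x 0 = x₁ →
      ∀ t ∈ Set.Ico 0 T, ∀ i, m ≤ x t i ∧ x t i ≤ M)
    {T : ℝ} {α : ℝ → Fin d → ℝ} (hα0 : α 0 = x₁) (hT : 0 ≤ T)
    (hα : ∀ t ∈ Set.Icc 0 T,
      HasDerivWithinAt α (massAction R (k t) (clampv (m / 2) (2 * M) (α t))) (Set.Icc 0 T) t) :
    ∀ t ∈ Set.Icc 0 T, ∀ i, m ≤ α t i ∧ α t i ≤ M := by
  classical
  have hMpos : 0 < M := lt_of_lt_of_le hm hmM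
  have hcont : ContinuousOn α (Set.Icc 0 T) := fun t ht => (hα t ht).continuousWithinAt
  -- the closed region and the set of good times
  obtain ⟨Bx, hBx⟩ : ∃ Bx : Set (Fin d → ℝ), Bx = {z | ∀ i, m ≤ z i ∧ z i ≤ M} := ⟨_, rfl⟩
  have hBxclosed : IsClosed Bx := by
    have : Bx = ⋂ i, {z : Fin d → ℝ | m ≤ z i ∧ z i ≤ M} := by
      rw [hBx]; ext z; simp
    rw [this]
    refine isClosed_iInter fun i => ?_
    exact (isClosed_le continuous_const (continuous_apply i)).inter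
      (isClosed_le (continuous_apply i) continuous_const)
  obtain ⟨s, hs⟩ : ∃ s : Set ℝ, s = {t | ∀ u ∈ Set.Icc 0 t, α u ∈ Bx} := ⟨_, rfl⟩
  have hsmem : ∀ t, t ∈ s ↔ ∀ u ∈ Set.Icc 0 t, α u ∈ Bx := fun t => by rw [hs]; rfl
  have hclosed : IsClosed (s ∩ Set.Icc 0 T) := by
    refine isClosed_of_closure_subset fun t ht => ?_
    have htI : t ∈ Set.Icc (0 : ℝ) T :=
      closure_minimal Set.inter_subset_right isClosed_Icc ht
    refine ⟨(hsmem t).2 fun u hu => ?_, htI⟩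
    rcases lt_or_eq_of_le hu.2 with hut | hut
    · -- a good time beyond `u`
      have hnhds : Set.Ioi u ∈ 𝓝 t := Ioi_mem_nhds hut
      obtain ⟨t', ht'1, ht'2⟩ := mem_closure_iff_nhds.1 ht _ hnhds
      exact (hsmem t').1 ht'2.1 u ⟨hu.1, (ht'1 : u < t').le⟩
    · subst hut
      have h1 : ContinuousWithinAt α (s ∩ Set.Icc 0 T) u :=
        (hcont u htI).mono Set.inter_subset_right
      have h2 := h1.mem_closure_image ht
      have h3 : α '' (s ∩ Set.Icc 0 T) ⊆ Bx := by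
        rintro _ ⟨t', ht', rfl⟩
        exact (hsmem t').1 ht'.1 t' ⟨ht'.2.1, le_rfl⟩
      exact closure_minimal h3 hBxclosed h2
  have h0 : (0 : ℝ) ∈ s := by
    rw [hsmem]
    intro u hu
    have : u = 0 := le_antisymm hu.2 hu.1
    rw [this, hα0, hBx]
    exact hx₁
  have hstep : ∀ t ∈ s ∩ Set.Ico 0 T, ∀ t' ∈ Set.Ioi t, (s ∩ Set.Ioc t t').Nonempty := by
    intro t ht t' ht'
    have htt : t ∈ Set.Icc 0 T := ⟨ht.2.1, ht.2.2.le⟩
    have hαt : α t ∈ Bx := (hsmem t).1 ht.1 t ⟨ht.2.1, le_rfl⟩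
    rw [hBx] at hαt
    -- the open region
    have hU : ∀ᶠ u in 𝓝[Set.Icc 0 T] t, ∀ i, m / 2 < α u i ∧ α u i < 2 * M := by
      rw [Filter.eventually_all]
      intro i
      have hci : ContinuousWithinAt (fun u => α u i) (Set.Icc 0 T) t :=
        (continuousWithinAt_pi.1 (hcont t htt)) i
      have h1 : m / 2 < α t i := by linarith [(hαt i).1]
      have h2 : α t i < 2 * M := by linarith [(hαt i).2]
      exact (hci.eventually (lt_mem_nhds h1)).and (hci.eventually (gt_mem_nhds h2))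
    obtain ⟨δ, hδ, hball⟩ := Metric.mem_nhdsWithin_iff.1 hU
    obtain ⟨t₂, ht₂⟩ : ∃ t₂, t₂ = min t' (min (t + δ / 2) T) := ⟨_, rfl⟩
    have ht₂a : t₂ ≤ t' := by rw [ht₂]; exact min_le_left _ _
    have ht₂b : t₂ ≤ t + δ / 2 := by
      rw [ht₂]; exact le_trans (min_le_right _ _) (min_le_left _ _)
    have ht₂c : t₂ ≤ T := by
      rw [ht₂]; exact le_trans (min_le_right _ _) (min_le_right _ _)
    have ht₂d : t < t₂ := by
      rw [ht₂]
      exact lt_min ht' (lt_min (by linarith) ht.2.2)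
    have hbelow : ∀ u ∈ Set.Ico 0 t₂, ∀ i, m / 2 < α u i ∧ α u i < 2 * M := by
      intro u hu
      rcases le_or_gt u t with hut | hut
      · have h1 := (hsmem t).1 ht.1 u ⟨hu.1, hut⟩
        rw [hBx] at h1
        intro i
        constructor
        · linarith [(h1 i).1]
        · linarith [(h1 i).2]
      · apply hball
        refine ⟨?_, ⟨hu.1, le_trans hu.2.le ht₂c⟩⟩
        rw [Metric.mem_ball, Real.dist_eq, abs_of_pos (by linarith)]
        linarith [hu.2]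
    have hsol : IsSol R k t₂ α := by
      refine ⟨hcont.mono fun u hu => ⟨hu.1, le_trans hu.2.le ht₂c⟩, ?_, ?_⟩
      · intro u hu i
        have := (hbelow u hu i).1
        linarith
      · intro u hu
        have huT : u ∈ Set.Ico 0 T := ⟨hu.1, lt_of_lt_of_le hu.2 ht₂c⟩
        have h1 := hα u ⟨huT.1, huT.2.le⟩
        rw [clampv_of_mem (fun i => ⟨(hbelow u hu i).1.le, (hbelow u hu i).2.le⟩)] at h1
        exact h1.mono_of_mem_nhdsWithin (Icc_mem_nhdsGE_of_mem huT)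
    have hbd := htrap t₂ α hsol hα0
    refine ⟨(t + t₂) / 2, ?_, by linarith, by linarith⟩
    rw [hsmem]
    intro u hu
    rw [hBx]
    exact hbd u ⟨hu.1, by linarith [hu.2]⟩
  have hsub := IsClosed.Icc_subset_of_forall_exists_gt hclosed h0 hstep
  intro t ht i
  have := (hsmem t).1 (hsub ht) t ⟨ht.1, le_rfl⟩
  rw [hBx] at this
  exact this i

/-- Global existence from an a priori bound. -/
theorem exists_global (R : Finset (Cplx d × Cplx d)) {k : ℝ → Cplx d × Cplx d → ℝ}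
    (hkc : ∀ p, Continuous fun t => k t p) {C : ℝ} (hkb : ∀ t p, |k t p| ≤ C) {m M : ℝ}
    (hm : 0 < m) (hmM : m ≤ M) {x₁ : Fin d → ℝ} (hx₁ : ∀ i, m ≤ x₁ i ∧ x₁ i ≤ M)
    (htrap : ∀ (T : ℝ) (x : ℝ → Fin d → ℝ), IsSol R k T x → x 0 = x₁ →
      ∀ t ∈ Set.Ico 0 T, ∀ i, m ≤ x t i ∧ x t i ≤ M) :
    ∃ x : ℝ → Fin d → ℝ, x 0 = x₁ ∧ (∀ T, IsSol R k T x) ∧
      ∀ t, 0 ≤ t → HasDerivWithinAt x (massAction R (k t) (x t)) (Set.Ici 0) t := by
  classical
  have hC : 0 ≤ C := le_trans (abs_nonneg _) (hkb 0 (fun _ => 0, fun _ => 0))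
  have hab : m / 2 ≤ 2 * M := by linarith
  -- solutions on `[0, n + 1]`
  have hex : ∀ n : ℕ, ∃ α : ℝ → Fin d → ℝ, α 0 = x₁ ∧
      ∀ t ∈ Set.Icc (0 : ℝ) (n + 1),
        HasDerivWithinAt α (massAction R (k t) (clampv (m / 2) (2 * M) (α t))) (Set.Icc 0 ((n : ℝ) + 1)) t :=
    fun n => exists_trunc_sol R hkc hab hC hkb x₁ (by positivity)
  choose α hα0 hα using hex
  have hstay : ∀ n : ℕ, ∀ t ∈ Set.Icc (0 : ℝ) (n + 1), ∀ i, m ≤ α n t i ∧ α n t i ≤ M := fun n =>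
    trunc_stays R hm hmM hx₁ htrap (hα0 n) (by positivity) (hα n)
  have hclamp : ∀ n : ℕ, ∀ t ∈ Set.Icc (0 : ℝ) (n + 1),
      clampv (m / 2) (2 * M) (α n t) = α n t := fun n t ht =>
    clampv_of_mem fun i => ⟨by linarith [(hstay n t ht i).1], by linarith [(hstay n t ht i).2, hm]⟩
  -- uniqueness
  obtain ⟨Kf, Lf, hKL⟩ := trunc_bounds R (a := m / 2) (b := 2 * M) hab hC
  have hright : ∀ n : ℕ, ∀ t ∈ Set.Ico (0 : ℝ) (n + 1),
      HasDerivWithinAt (α n) (massAction R (k t) (clampv (m / 2) (2 * M) (α n t))) (Set.Ici t) t :=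
    fun n t ht => (hα n t ⟨ht.1, ht.2.le⟩).mono_of_mem_nhdsWithin (Icc_mem_nhdsGE_of_mem ht)
  have huniq : ∀ n j : ℕ, n ≤ j → Set.EqOn (α n) (α j) (Set.Icc 0 ((n : ℝ) + 1)) := by
    intro n j hnj
    have hle : (n : ℝ) + 1 ≤ (j : ℝ) + 1 := by
      have : (n : ℝ) ≤ j := by exact_mod_cast hnj
      linarith
    refine ODE_solution_unique_of_mem_Icc_right (v := fun t x => massAction R (k t) (clampv (m / 2) (2 * M) x))
      (s := fun _ => Set.univ) (K := Kf) (fun t _ => (hKL (k t) (hkb t)).1.lipschitzOnWith)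
      (fun t ht => (hα n t ht).continuousWithinAt) (fun t ht => hright n t ht) (fun _ _ => Set.mem_univ _)
      (fun t ht => ((hα j t ⟨ht.1, le_trans ht.2 hle⟩).continuousWithinAt).mono
        (Set.Icc_subset_Icc_right hle))
      (fun t ht => hright j t ⟨ht.1, lt_of_lt_of_le ht.2 hle⟩) (fun _ _ => Set.mem_univ _) ?_
    rw [hα0, hα0]
  -- the glued solution
  have hagreeG : ∀ T : ℝ, ∀ N : ℕ, T ≤ (N : ℝ) → ∀ t ∈ Set.Ico 0 T, α ⌈t⌉₊ t = α N t := by
    intro T N hTN t ht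
    have h1 : ⌈t⌉₊ ≤ N := Nat.ceil_le.2 (le_trans ht.2.le hTN)
    refine huniq ⌈t⌉₊ N h1 ⟨ht.1, ?_⟩
    have := Nat.le_ceil t
    linarith
  refine ⟨fun t => α ⌈t⌉₊ t, by simp [hα0], ?_, ?_⟩
  swap
  · -- the derivative within the half line
    intro t ht
    obtain ⟨N, hN⟩ : ∃ N : ℕ, N = ⌈t + 1⌉₊ := ⟨_, rfl⟩
    have hTN : t + 1 ≤ (N : ℝ) := by rw [hN]; exact Nat.le_ceil _
    have hagree := hagreeG (t + 1) N hTN
    have htmem : t ∈ Set.Ico 0 (t + 1) := ⟨ht, by linarith⟩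
    have htI : t ∈ Set.Icc (0 : ℝ) (N + 1) := ⟨ht, by linarith⟩
    have h1 := hα N t htI
    rw [hclamp N t htI] at h1
    have hnh : Set.Icc (0 : ℝ) ((N : ℝ) + 1) ∈ 𝓝[Set.Ici 0] t := by
      have h2 : Set.Iio ((N : ℝ) + 1) ∈ 𝓝 t := Iio_mem_nhds (by linarith)
      filter_upwards [self_mem_nhdsWithin, mem_nhdsWithin_of_mem_nhds h2] with u hu1 hu2
      exact ⟨hu1, (hu2 : u < (N : ℝ) + 1).le⟩
    have h3 := h1.mono_of_mem_nhdsWithin hnh
    show HasDerivWithinAt (fun t => α ⌈t⌉₊ t) (massAction R (k t) (α ⌈t⌉₊ t)) (Set.Ici 0) t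
    rw [hagree t htmem]
    refine h3.congr_of_eventuallyEq ?_ (hagree t htmem)
    have h4 : Set.Iio (t + 1) ∈ 𝓝 t := Iio_mem_nhds (by linarith)
    filter_upwards [self_mem_nhdsWithin, mem_nhdsWithin_of_mem_nhds h4] with u hu1 hu2
    exact hagree u ⟨hu1, hu2⟩
  intro T
  obtain ⟨N, hN⟩ : ∃ N : ℕ, N = ⌈T⌉₊ := ⟨_, rfl⟩
  have hTN : T ≤ (N : ℝ) := by rw [hN]; exact Nat.le_ceil T
  have hagree := hagreeG T N hTN
  have hmem : ∀ t ∈ Set.Ico 0 T, t ∈ Set.Ico (0 : ℝ) (N + 1) :=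
    fun t ht => ⟨ht.1, by linarith [ht.2]⟩
  refine ⟨?_, ?_, ?_⟩
  · intro t ht
    have h1 : ContinuousWithinAt (α N) (Set.Icc 0 ((N : ℝ) + 1)) t :=
      (hα N t ⟨ht.1, (hmem t ht).2.le⟩).continuousWithinAt
    have h2 : ContinuousWithinAt (α N) (Set.Ico 0 T) t :=
      h1.mono fun u hu => ⟨hu.1, (hmem u hu).2.le⟩
    exact h2.congr (fun u hu => hagree u hu) (hagree t ht)
  · intro t ht i
    show 0 < α ⌈t⌉₊ t i
    rw [hagree t ht]
    have := (hstay N t ⟨ht.1, (hmem t ht).2.le⟩ i).1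
    linarith
  · intro t ht
    have h1 := hright N t (hmem t ht)
    rw [hclamp N t ⟨ht.1, (hmem t ht).2.le⟩] at h1
    show HasDerivWithinAt (fun t => α ⌈t⌉₊ t) (massAction R (k t) (α ⌈t⌉₊ t)) (Set.Ici t) t
    rw [hagree t ht]
    refine h1.congr_of_eventuallyEq ?_ (hagree t ht)
    filter_upwards [Ico_mem_nhdsGE_of_mem ht] with u hu using hagree u hu

lemma bounds_of_compact {K₁ : Set (Fin d → ℝ)} (hK : IsCompact K₁) (hpos : ∀ x ∈ K₁, ∀ i, 0 < x i)
    {x₁ : Fin d → ℝ} (hx₁ : ∀ i, 0 < x₁ i) :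
    ∃ m M : ℝ, 0 < m ∧ m ≤ M ∧ (∀ i, m ≤ x₁ i ∧ x₁ i ≤ M) ∧ ∀ x ∈ K₁, ∀ i, m ≤ x i ∧ x i ≤ M := by
  classical
  have hlow : ∀ i : Fin d, ∃ c, 0 < c ∧ ∀ x ∈ K₁, c ≤ x i := fun i =>
    exists_lower_of_pos hK (continuous_apply i) fun x hx => hpos x hx i
  choose c hc hcle using hlow
  obtain ⟨m₁, hm₁, hm₁le⟩ := exists_lower_fin (Finset.univ : Finset (Fin d)) c (fun i _ => hc i)
  obtain ⟨m₂, hm₂, hm₂le⟩ := exists_lower_fin (Finset.univ : Finset (Fin d)) x₁ (fun i _ => hx₁ i)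
  have hup : ∀ i : Fin d, ∃ B : ℝ, ∀ x ∈ K₁, ‖x i‖ ≤ B := fun i =>
    hK.exists_bound_of_continuousOn (continuous_apply i).continuousOn
  choose B hB using hup
  obtain ⟨M, hM⟩ : ∃ M : ℝ, M = 1 + min m₁ m₂ + ∑ i, (|B i| + |x₁ i|) := ⟨_, rfl⟩
  have hsum0 : ∀ i, |B i| + |x₁ i| ≤ ∑ i, (|B i| + |x₁ i|) := fun i =>
    Finset.single_le_sum (f := fun i => |B i| + |x₁ i|) (fun j _ => by positivity) (Finset.mem_univ i)
  have hmin : 0 < min m₁ m₂ := lt_min hm₁ hm₂
  refine ⟨min m₁ m₂, M, hmin, ?_, ?_, ?_⟩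
  · have : 0 ≤ ∑ i, (|B i| + |x₁ i|) := Finset.sum_nonneg fun j _ => by positivity
    rw [hM]
    linarith
  · intro i
    constructor
    · exact le_trans (min_le_right _ _) (hm₂le i (Finset.mem_univ i))
    · have h1 := hsum0 i
      have h2 := le_abs_self (x₁ i)
      have h3 := abs_nonneg (B i)
      rw [hM]
      linarith
  · intro x hx i
    constructor
    · exact le_trans (min_le_left _ _) (le_trans (hm₁le i (Finset.mem_univ i)) (hcle i x hx))
    · have h1 := hsum0 i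
      have h2 := hB i x hx
      rw [Real.norm_eq_abs] at h2
      have h3 := le_abs_self (x i)
      have h4 := le_abs_self (B i)
      have h5 := abs_nonneg (x₁ i)
      rw [hM]
      linarith

end Vale.Agent.Lib.P072
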