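import Vale.Agent.Lib.P072.PermFlat
import Vale.Agent.Lib.P072.Main

/-!
Touching functions, fencing along solutions, and elementary bounds for the entropy of the rescaled
coordinates.
-/

open Finset Filter Topology

namespace Vale.Agent.Lib.P072

variable {d : ℕ}

/-- `F` is continuous on the positive orthant and along any curve it has an upper touching function
from the right with derivative `Dl (c s) c'`. -/
structure Touch (F : (Fin d → ℝ) → ℝ) (Dl : (Fin d → ℝ) → (Fin d → ℝ) → ℝ) : Prop where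
  cont : ∀ x, (∀ i, 0 < x i) → ContinuousAt F x
  touch : ∀ (c : ℝ → Fin d → ℝ) (c' : Fin d → ℝ) (s : ℝ), HasDerivWithinAt c c' (Set.Ici s) s →
    (∀ i, 0 < c s i) → ∃ g : ℝ → ℝ, HasDerivWithinAt g (Dl (c s) c') (Set.Ici s) s ∧
      g s = F (c s) ∧ ∀ᶠ z in 𝓝[>] s, F (c z) ≤ g z

/-- A positive solution on `[0, T)` with rates `k`. -/
structure IsSol (R : Finset (Cplx d × Cplx d)) (k : ℝ → Cplx d × Cplx d → ℝ) (T : ℝ)
    (x : ℝ → Fin d → ℝ) : Prop where
  cont : ContinuousOn x (Set.Ico 0 T)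
  pos : ∀ t ∈ Set.Ico 0 T, ∀ i, 0 < x t i
  der : ∀ t ∈ Set.Ico 0 T, HasDerivWithinAt x (massAction R (k t) (x t)) (Set.Ici t) t

lemma IsSol.continuousOn_comp {R : Finset (Cplx d × Cplx d)} {k : ℝ → Cplx d × Cplx d → ℝ} {T : ℝ}
    {x : ℝ → Fin d → ℝ} (hx : IsSol R k T x) {F : (Fin d → ℝ) → ℝ}
    (hF : ∀ y, (∀ i, 0 < y i) → ContinuousAt F y) {a b : ℝ} (ha : 0 ≤ a) (hb : b < T) :
    ContinuousOn (fun s => F (x s)) (Set.Icc a b) := by
  have hsub : Set.Icc a b ⊆ Set.Ico 0 T := fun s hs => ⟨le_trans ha hs.1, lt_of_le_of_lt hs.2 hb⟩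
  intro s hs
  have h1 : ContinuousWithinAt x (Set.Icc a b) s := (hx.cont s (hsub hs)).mono hsub
  exact (hF _ (hx.pos s (hsub hs))).comp_continuousWithinAt h1

/-- Fencing: a level which is not crossed upward. -/
lemma fence {F : (Fin d → ℝ) → ℝ} {Dl : (Fin d → ℝ) → (Fin d → ℝ) → ℝ} (hT : Touch F Dl)
    {R : Finset (Cplx d × Cplx d)} {k : ℝ → Cplx d × Cplx d → ℝ} {T : ℝ} {x : ℝ → Fin d → ℝ}
    (hx : IsSol R k T x) {a w : ℝ} (ha : 0 ≤ a) (h0 : F (x a) ≤ w)
    (hdec : ∀ s ∈ Set.Ico a T, w < F (x s) → Dl (x s) (massAction R (k s) (x s)) ≤ 0) :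
    ∀ t ∈ Set.Ico a T, F (x t) ≤ w := by
  intro t ht
  have hf := hx.continuousOn_comp hT.cont ha ht.2
  refine le_of_touching (f := fun s => F (x s)) hf h0 ?_ t ⟨ht.1, le_rfl⟩
  intro s hs
  have hs' : s ∈ Set.Ico 0 T := ⟨le_trans ha hs.1, lt_trans hs.2 ht.2⟩
  obtain ⟨g, hg, hgs, hgle⟩ := hT.touch x _ s (hx.der s hs') (hx.pos s hs')
  refine ⟨g, _, hg, hgs, hgle, ?_⟩
  intro hlt
  exact hdec s ⟨hs.1, lt_trans hs.2 ht.2⟩ hlt

/-- Linear decay above a level. -/
lemma decay {F : (Fin d → ℝ) → ℝ} {Dl : (Fin d → ℝ) → (Fin d → ℝ) → ℝ} (hT : Touch F Dl)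
    {R : Finset (Cplx d × Cplx d)} {k : ℝ → Cplx d × Cplx d → ℝ} {T : ℝ} {x : ℝ → Fin d → ℝ}
    (hx : IsSol R k T x) {a w κ : ℝ} (ha : 0 ≤ a) (hκ : 0 < κ)
    (hdec : ∀ s ∈ Set.Ico a T, w < F (x s) → Dl (x s) (massAction R (k s) (x s)) ≤ - κ) :
    ∀ t ∈ Set.Ico a T, a + (F (x a) - w) / κ ≤ t → F (x t) ≤ w := by
  intro t ht hle
  by_contra hcon
  push Not at hcon
  have hdec0 : ∀ s ∈ Set.Ico a T, w < F (x s) → Dl (x s) (massAction R (k s) (x s)) ≤ 0 :=
    fun s hs h => le_trans (hdec s hs h) (by linarith)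
  -- the function stays above the level on `[a, t]`
  have habove : ∀ s ∈ Set.Icc a t, w < F (x s) := by
    intro s hs
    by_contra hs2
    push Not at hs2
    have h1 := fence hT hx (le_trans ha hs.1) hs2
      (fun u hu h => hdec0 u ⟨le_trans hs.1 hu.1, hu.2⟩ h) t ⟨hs.2, ht.2⟩
    linarith
  have hf := hx.continuousOn_comp hT.cont ha ht.2
  have hf2 : ContinuousOn (fun s => F (x s) + κ * (s - a)) (Set.Icc a t) :=
    hf.add (by fun_prop)
  have hmain := le_of_touching (f := fun s => F (x s) + κ * (s - a)) (a := a) (b := t)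
    (w₀ := F (x a)) hf2 (by simp) ?_ t ⟨ht.1, le_rfl⟩
  · have h1 : κ * ((F (x a) - w) / κ) ≤ κ * (t - a) :=
      mul_le_mul_of_nonneg_left (by linarith) hκ.le
    have h2 : κ * ((F (x a) - w) / κ) = F (x a) - w := by field_simp
    linarith
  · intro s hs
    have hs' : s ∈ Set.Ico 0 T := ⟨le_trans ha hs.1, lt_trans hs.2 ht.2⟩
    obtain ⟨g, hg, hgs, hgle⟩ := hT.touch x _ s (hx.der s hs') (hx.pos s hs')
    have hlin : HasDerivWithinAt (fun u => κ * (u - a)) κ (Set.Ici s) s := by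
      have := ((hasDerivWithinAt_id s (Set.Ici s)).sub_const a).const_mul κ
      simpa using this
    refine ⟨fun u => g u + κ * (u - a), _, hg.add hlin, by simp [hgs], ?_, ?_⟩
    · filter_upwards [hgle] with z hz
      linarith
    · intro _
      have := hdec s ⟨hs.1, lt_trans hs.2 ht.2⟩ (habove s ⟨hs.1, hs.2.le⟩)
      linarith

/-! ### Touching functions for the rescaled entropies -/

lemma continuous_Yv (I : Finset (Fin d)) (s : ℝ) : Continuous (Yv I s) := by
  refine continuous_pi fun i => ?_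
  unfold Yv
  split_ifs
  · exact continuous_const.mul (continuous_apply i)
  · exact continuous_const

lemma hasDerivWithinAt_Yv (I : Finset (Fin d)) (s : ℝ) {c : ℝ → Fin d → ℝ} {c' : Fin d → ℝ}
    {S : Set ℝ} {u : ℝ} (hc : HasDerivWithinAt c c' S u) :
    HasDerivWithinAt (fun z => Yv I s (c z)) (s • res I c') S u := by
  have hc' := hasDerivWithinAt_pi.1 hc
  refine hasDerivWithinAt_pi.2 fun i => ?_
  simp only [Yv, Pi.smul_apply, res, smul_eq_mul]
  split_ifs
  · exact (hc' i).const_mul s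
  · simpa using hasDerivWithinAt_const u S (1 : ℝ)

/-- The touching function for the flattened entropy along a curve. -/
lemma touch_curve (D : Finset (Cplx d × Cplx d)) {v : Cplx d × Cplx d → Fin d → ℝ}
    (hv : ∀ g ∈ D, v g ≠ 0) {χ χ' : ℝ → ℝ} (hχ : ∀ r, HasDerivAt χ (χ' r) r) (hχ0 : ∀ r, 0 ≤ χ r)
    {c : ℝ → Fin d → ℝ} {c' : Fin d → ℝ} {s : ℝ} (hc : HasDerivWithinAt c c' (Set.Ici s) s)
    (hpos : ∀ i, 0 < c s i) :
    ∃ g : ℝ → ℝ, HasDerivWithinAt g (dot (grad D v χ χ' (c s)) c') (Set.Ici s) s ∧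
      g s = WW D v χ (c s) ∧ ∀ᶠ z in 𝓝[>] s, WW D v χ (c z) ≤ g z := by
  classical
  refine ⟨fun u => What D v χ (fun g => tstar (v g) (c s)) (c u),
    hasDerivWithinAt_What D v hv hχ hc hpos, (WW_eq_What D v χ (c s)).symm, ?_⟩
  have hcw : ContinuousWithinAt c (Set.Ici s) s := hc.continuousWithinAt
  have hev1 : ∀ᶠ z in 𝓝[>] s, ∀ i, 0 < c z i := by
    have h1 : ∀ᶠ z in 𝓝[≥] s, c z ∈ {y : Fin d → ℝ | ∀ i, 0 < y i} :=
      hcw.eventually (eventually_pos (c s) hpos)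
    exact h1.filter_mono (nhdsWithin_mono _ Set.Ioi_subset_Ici_self)
  have hev2 : ∀ g ∈ D, ∀ᶠ z in 𝓝[>] s, ∀ i, 0 < c z i + tstar (v g) (c s) * v g i := by
    intro g hg
    have h0 := (tstar_spec (v g) (c s) (hv g hg) hpos).1
    have h1 : ∀ᶠ y in 𝓝 (c s), ∀ i, 0 < shift y (v g) (tstar (v g) (c s)) i :=
      (continuous_shift_fixed (v g) _).continuousAt.eventually (eventually_pos _ h0)
    have h2 : ∀ᶠ z in 𝓝[≥] s, ∀ i, 0 < shift (c z) (v g) (tstar (v g) (c s)) i :=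
      hcw.eventually h1
    exact h2.filter_mono (nhdsWithin_mono _ Set.Ioi_subset_Ici_self)
  have hev3 : ∀ᶠ z in 𝓝[>] s, ∀ g ∈ D, ∀ i, 0 < c z i + tstar (v g) (c s) * v g i :=
    (Filter.eventually_all_finset D).2 hev2
  filter_upwards [hev1, hev3] with z hz1 hz3
  exact WW_le_What D v hv hχ0 _ hz1 hz3

/-- `Touch` for the flattened entropy in rescaled coordinates. -/
lemma touch_flat (D : Finset (Cplx d × Cplx d)) (I : Finset (Fin d)) {s : ℝ} (hs : 0 < s)
    (hv : ∀ g ∈ D, res I (rxnVec g) ≠ 0) {χ χ' : ℝ → ℝ} (hχ : ∀ r, HasDerivAt χ (χ' r) r)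
    (hχ0 : ∀ r, 0 ≤ χ r) :
    Touch (fun x => WW D (fun g => res I (rxnVec g)) χ (Yv I s x))
      (fun x w => dot (grad D (fun g => res I (rxnVec g)) χ χ' (Yv I s x)) (s • res I w)) := by
  have hχc : Continuous χ := continuous_iff_continuousAt.2 fun r => (hχ r).continuousAt
  refine ⟨?_, ?_⟩
  · intro x hx
    exact ContinuousAt.comp (g := WW D (fun g => res I (rxnVec g)) χ) (f := Yv I s)
      (WW_continuousAt D _ hv hχc (Yv_pos hs hx)) (continuous_Yv I s).continuousAt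
  · intro c c' u hc hpos
    exact touch_curve D hv hχ hχ0 (hasDerivWithinAt_Yv I s hc) (Yv_pos hs hpos)

/-- `Touch` for the plain entropy in rescaled coordinates. -/
lemma touch_plain (I : Finset (Fin d)) {s : ℝ} (hs : 0 < s) :
    Touch (fun x => Vf (Yv I s x)) (fun x w => dot (logv (Yv I s x)) (s • res I w)) := by
  refine ⟨?_, ?_⟩
  · intro x hx
    exact ContinuousAt.comp (g := Vf) (f := Yv I s)
      (continuousAt_Vf_of_pos _ (Yv_pos hs hx)) (continuous_Yv I s).continuousAt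
  · intro c c' u hc hpos
    refine ⟨fun z => Vf (Yv I s (c z)), ?_, rfl, Eventually.of_forall fun z => le_rfl⟩
    exact hasDerivWithinAt_Vf (hasDerivWithinAt_Yv I s hc) (Yv_pos hs hpos)

/-! ### Elementary bounds -/

/-- The value of the rescaled entropy at the face. -/
noncomputable def VI (I : Finset (Fin d)) : ℝ := ∑ i : Fin d, if i ∈ I then (0 : ℝ) else -1

lemma Vf_Yv (I : Finset (Fin d)) (s : ℝ) (x : Fin d → ℝ) :
    Vf (Yv I s x) = VI I + ∑ i ∈ I, (s * x i * Real.log (s * x i) - s * x i) := by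
  unfold Vf VI
  have h : ∑ i ∈ I, (s * x i * Real.log (s * x i) - s * x i) =
      ∑ i : Fin d, if i ∈ I then (s * x i * Real.log (s * x i) - s * x i) else 0 := by
    rw [Finset.sum_ite_mem]
    simp
  rw [h, ← Finset.sum_add_distrib]
  refine Finset.sum_congr rfl fun i _ => ?_
  simp only [Yv]
  split_ifs <;> simp

/-- Upper bound for the rescaled entropy. -/
lemma Vf_Yv_le (I : Finset (Fin d)) {s : ℝ} (hs : 0 < s) {x : Fin d → ℝ} (hx : ∀ i, 0 < x i)
    (hy : ∀ i ∈ I, s * x i ≤ Real.exp (-1)) :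
    Vf (Yv I s x) ≤ VI I - 2 * s * ∑ i ∈ I, x i := by
  rw [Vf_Yv]
  have h : ∑ i ∈ I, (s * x i * Real.log (s * x i) - s * x i) ≤ ∑ i ∈ I, (-(2 * s * x i)) := by
    refine Finset.sum_le_sum fun i hi => ?_
    have hpos : 0 < s * x i := mul_pos hs (hx i)
    have hlog : Real.log (s * x i) ≤ -1 := by
      rw [Real.log_le_iff_le_exp hpos]
      exact hy i hi
    nlinarith
  have h2 : ∑ i ∈ I, (-(2 * s * x i)) = - (2 * s * ∑ i ∈ I, x i) := by
    rw [Finset.mul_sum, Finset.sum_neg_distrib]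
  linarith

/-- For `0 < y ≤ 1`, one has `y log y - y ≥ - 2 √y`. -/
lemma entropy_ge_sqrt {y : ℝ} (hy : 0 < y) (hy1 : y ≤ 1) :
    - (2 * Real.sqrt y) ≤ y * Real.log y - y := by
  have ht : 0 < Real.sqrt y := Real.sqrt_pos.mpr hy
  have ht1 : Real.sqrt y ≤ 1 := by
    rw [Real.sqrt_le_left zero_le_one]
    simpa using hy1
  obtain ⟨t, htdef⟩ : ∃ t, t = Real.sqrt y := ⟨_, rfl⟩
  rw [← htdef] at ht ht1 ⊢
  have hy' : y = t ^ 2 := by rw [htdef, Real.sq_sqrt hy.le]
  rw [hy', Real.log_pow]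
  have hlog : Real.log t⁻¹ ≤ t⁻¹ - 1 := Real.log_le_sub_one_of_pos (inv_pos.mpr ht)
  rw [Real.log_inv] at hlog
  have h1 : t * (-Real.log t) ≤ t * (t⁻¹ - 1) := mul_le_mul_of_nonneg_left hlog ht.le
  have h2 : t * (t⁻¹ - 1) = 1 - t := by
    field_simp
  have h3 : t * Real.log t ≥ t - 1 := by nlinarith
  have h4 : t ^ 2 * (((2 : ℕ) : ℝ) * Real.log t) = 2 * t * (t * Real.log t) := by
    push_cast
    ring
  rw [h4]
  nlinarith

/-- Lower bound for the rescaled entropy. -/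
lemma Vf_Yv_ge (I : Finset (Fin d)) {s : ℝ} (hs : 0 < s) {x : Fin d → ℝ} (hx : ∀ i, 0 < x i)
    {a : ℝ} (ha : 0 ≤ a) (ha1 : a ≤ 1) (hy : s * ∑ i ∈ I, x i ≤ a ^ 2) :
    VI I - 2 * (d : ℝ) * a ≤ Vf (Yv I s x) := by
  rw [Vf_Yv]
  have hterm : ∀ i ∈ I, - (2 * a) ≤ s * x i * Real.log (s * x i) - s * x i := by
    intro i hi
    have hpos : 0 < s * x i := mul_pos hs (hx i)
    have hle : s * x i ≤ a ^ 2 := by
      refine le_trans ?_ hy
      apply mul_le_mul_of_nonneg_left _ hs.le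
      exact Finset.single_le_sum (f := x) (fun j _ => (hx j).le) hi
    have hle1 : s * x i ≤ 1 := le_trans hle (by nlinarith)
    have h1 := entropy_ge_sqrt hpos hle1
    have h2 : Real.sqrt (s * x i) ≤ a := by
      rw [Real.sqrt_le_left ha]
      exact hle
    linarith
  have h3 : ∑ i ∈ I, (-(2 * a)) ≤ ∑ i ∈ I, (s * x i * Real.log (s * x i) - s * x i) :=
    Finset.sum_le_sum hterm
  rw [Finset.sum_const, nsmul_eq_mul] at h3
  have hcard : (I.card : ℝ) ≤ d := by
    have : I.card ≤ (Finset.univ : Finset (Fin d)).card := Finset.card_le_card (Finset.subset_univ I)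
    simp only [Finset.card_univ, Fintype.card_fin] at this
    exact_mod_cast this
  have h4 : (I.card : ℝ) * (-(2 * a)) ≥ - (2 * (d : ℝ) * a) := by
    nlinarith
  linarith

/-- Refinement of `chi_mul_Delta_le` using one coordinate in the support. -/
lemma chi_mul_Delta_le' {χ χ' : ℝ → ℝ} {R₁ R₂ C : ℝ} (hcut : IsCutOff χ χ' R₁ R₂ C) (hR₂ : 0 ≤ R₂)
    {v x : Fin d → ℝ} (hv : v ≠ 0) (hI : IntLike v) (hx : ∀ i, 0 < x i) {i : Fin d} (hi : v i ≠ 0) :
    χ (phi v x) * Delta v x ≤ R₂ * (Real.exp R₂ - 1) * x i := by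
  have hexp0 : 0 ≤ Real.exp R₂ - 1 := by
    have := Real.add_one_le_exp R₂
    linarith
  have hxi := hx i
  by_cases hfar : R₂ < |phi v x|
  · rw [(hcut.far _ hfar).1, zero_mul]
    positivity
  · have hφ := not_lt.mp hfar
    have h0 := hcut.nonneg (phi v x)
    have h1 := hcut.le_one (phi v x)
    have hD0 := Delta_nonneg v x hv hx
    have hD1 := Delta_le v x hv hx
    have ht := tstar_mul_le v x hv hI hx i
    have hvi := hI i hi
    have ht2 : |tstar v x| ≤ x i * (Real.exp R₂ - 1) := by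
      have h3 : Real.exp |phi v x| - 1 ≤ Real.exp R₂ - 1 := by
        have := Real.exp_le_exp.mpr hφ
        linarith
      have h4 : x i * (Real.exp |phi v x| - 1) ≤ x i * (Real.exp R₂ - 1) :=
        mul_le_mul_of_nonneg_left h3 hxi.le
      have h5 : |tstar v x| ≤ |tstar v x| * |v i| := by
        have := abs_nonneg (tstar v x)
        nlinarith
      linarith
    calc χ (phi v x) * Delta v x ≤ 1 * Delta v x := mul_le_mul_of_nonneg_right h1 hD0
      _ ≤ |tstar v x| * |phi v x| := by linarith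
      _ ≤ (x i * (Real.exp R₂ - 1)) * R₂ := mul_le_mul ht2 hφ (abs_nonneg _) (by positivity)
      _ = R₂ * (Real.exp R₂ - 1) * x i := by ring

/-- Lower bound for the flattened entropy by the plain one. -/
lemma WW_ge_Vf_sub {χ χ' : ℝ → ℝ} {R₁ R₂ C : ℝ} (hcut : IsCutOff χ χ' R₁ R₂ C) (hR₂ : 0 ≤ R₂)
    (D : Finset (Cplx d × Cplx d)) (I : Finset (Fin d)) {s : ℝ} (hs : 0 < s)
    (hv : ∀ g ∈ D, res I (rxnVec g) ≠ 0) {x : Fin d → ℝ} (hx : ∀ i, 0 < x i) :
    Vf (Yv I s x) - (D.card : ℝ) * (R₂ * (Real.exp R₂ - 1)) * (s * ∑ i ∈ I, x i) ≤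
      WW D (fun g => res I (rxnVec g)) χ (Yv I s x) := by
  unfold WW
  have hexp0 : 0 ≤ Real.exp R₂ - 1 := by
    have := Real.add_one_le_exp R₂
    linarith
  have hy := Yv_pos (I := I) hs hx
  have hterm : ∀ g ∈ D, χ (phi (res I (rxnVec g)) (Yv I s x)) * Delta (res I (rxnVec g)) (Yv I s x) ≤
      R₂ * (Real.exp R₂ - 1) * (s * ∑ i ∈ I, x i) := by
    intro g hg
    have hvg := hv g hg
    obtain ⟨i, hi⟩ : ∃ i, res I (rxnVec g) i ≠ 0 := by
      by_contra h
      push Not at h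
      exact hvg (funext h)
    have hiI : i ∈ I := by
      by_contra hn
      apply hi
      simp [res, hn]
    have h1 := chi_mul_Delta_le' hcut hR₂ hvg (res_intLike (rxnVec_intLike g) I) hy hi
    have h2 : Yv I s x i ≤ s * ∑ i ∈ I, x i := by
      simp only [Yv, hiI, if_true]
      exact mul_le_mul_of_nonneg_left
        (Finset.single_le_sum (f := x) (fun j _ => (hx j).le) hiI) hs.le
    exact le_trans h1 (mul_le_mul_of_nonneg_left h2 (by positivity))
  have hsum : ∑ g ∈ D, χ (phi (res I (rxnVec g)) (Yv I s x)) * Delta (res I (rxnVec g)) (Yv I s x) ≤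
      ∑ _g ∈ D, R₂ * (Real.exp R₂ - 1) * (s * ∑ i ∈ I, x i) := Finset.sum_le_sum hterm
  rw [Finset.sum_const, nsmul_eq_mul] at hsum
  linarith

/-- Bound for `|log x|` on an interval. -/
lemma abs_log_le_of_mem {c M x : ℝ} (hc : 0 < c) (h1 : c ≤ x) (h2 : x ≤ M) :
    |Real.log x| ≤ |Real.log c| + |Real.log M| := by
  have hx : 0 < x := lt_of_lt_of_le hc h1
  have hM : 0 < M := lt_of_lt_of_le hx h2
  have h3 : Real.log c ≤ Real.log x := Real.log_le_log hc h1
  have h4 : Real.log x ≤ Real.log M := Real.log_le_log hx h2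
  rw [abs_le]
  have := abs_nonneg (Real.log c)
  have := abs_nonneg (Real.log M)
  have := neg_abs_le (Real.log c)
  have := le_abs_self (Real.log M)
  constructor <;> linarith

/-- Formula for the offset. -/
lemma off_eq (I : Finset (Fin d)) {s : ℝ} (hs : 0 < s) (w : Fin d → ℝ) {x : Fin d → ℝ}
    (hx : ∀ i, 0 < x i) :
    off I s w x = ∑ i, (if i ∈ I then - (w i * Real.log s) else w i * Real.log (x i)) := by
  unfold off phi
  rw [← Finset.sum_sub_distrib]
  refine Finset.sum_congr rfl fun i _ => ?_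
  simp only [res, Yv]
  split_ifs
  · rw [Real.log_mul hs.ne' (hx i).ne']
    ring
  · simp

/-- Bound for the offset when the coordinates outside `I` are bounded above and below. -/
lemma off_le {R : Finset (Cplx d × Cplx d)} (I : Finset (Fin d)) {s : ℝ} (hs : 0 < s) {p : Cplx d × Cplx d}
    (hp : p ∈ R) {x : Fin d → ℝ} (hx : ∀ i, 0 < x i) {c M : ℝ} (hc : 0 < c)
    (h1 : ∀ j, j ∉ I → c ≤ x j) (h2 : ∀ j, j ∉ I → x j ≤ M) :
    |off I s (rxnVec p) x| ≤ EwR R * (|Real.log c| + |Real.log M| + |Real.log s|) := by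
  rw [off_eq I hs _ hx]
  have hnn : 0 ≤ |Real.log c| + |Real.log M| + |Real.log s| := by positivity
  refine le_trans (Finset.abs_sum_le_sum_abs _ _) ?_
  have hterm : ∀ i, |(if i ∈ I then - (rxnVec p i * Real.log s) else rxnVec p i * Real.log (x i))| ≤
      |rxnVec p i| * (|Real.log c| + |Real.log M| + |Real.log s|) := by
    intro i
    split_ifs with hi
    · rw [abs_neg, abs_mul]
      refine mul_le_mul_of_nonneg_left ?_ (abs_nonneg _)
      have := abs_nonneg (Real.log c)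
      have := abs_nonneg (Real.log M)
      linarith
    · rw [abs_mul]
      refine mul_le_mul_of_nonneg_left ?_ (abs_nonneg _)
      have := abs_log_le_of_mem hc (h1 i hi) (h2 i hi)
      have := abs_nonneg (Real.log s)
      linarith
  refine le_trans (Finset.sum_le_sum fun i _ => hterm i) ?_
  rw [← Finset.sum_mul]
  refine mul_le_mul_of_nonneg_right ?_ hnn
  exact Finset.single_le_sum (f := fun p => ∑ i, |rxnVec p i|)
    (fun q _ => Finset.sum_nonneg fun i _ => abs_nonneg _) hp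

end Vale.Agent.Lib.P072
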