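import Vale.Agent.Lib.P072.PermProper

/-!
Rescaled coordinates near a face, and the static estimates for the entropy of the rescaled
coordinates: flattened along reaction lines (top and vertices) and plain (edges).
-/

open Finset Filter Topology

namespace Vale.Agent.Lib.P072

variable {d : ℕ}

/-- Restriction of a vector to the coordinates in `I`. -/
def res (I : Finset (Fin d)) (w : Fin d → ℝ) : Fin d → ℝ := fun i => if i ∈ I then w i else 0

/-- Rescaled coordinates: `s x_i` for `i ∈ I`, and the constant `1` otherwise. -/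
noncomputable def Yv (I : Finset (Fin d)) (s : ℝ) (x : Fin d → ℝ) : Fin d → ℝ :=
  fun i => if i ∈ I then s * x i else 1

/-- Offset between the log-ratio at `x` and the pairing in rescaled coordinates. -/
noncomputable def off (I : Finset (Fin d)) (s : ℝ) (w x : Fin d → ℝ) : ℝ :=
  phi w x - phi (res I w) (Yv I s x)

lemma Yv_pos {I : Finset (Fin d)} {s : ℝ} (hs : 0 < s) {x : Fin d → ℝ} (hx : ∀ i, 0 < x i) (i : Fin d) :
    0 < Yv I s x i := by
  unfold Yv
  split_ifs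
  · exact mul_pos hs (hx i)
  · exact one_pos

lemma res_smul (I : Finset (Fin d)) (c : ℝ) (w : Fin d → ℝ) : res I (c • w) = c • res I w := by
  funext i
  simp only [res, Pi.smul_apply, smul_eq_mul]
  split_ifs <;> simp

lemma res_intLike {w : Fin d → ℝ} (h : IntLike w) (I : Finset (Fin d)) : IntLike (res I w) := by
  intro i hi
  unfold res at hi ⊢
  split_ifs at hi ⊢ with hI
  · exact h i hi
  · exact absurd rfl hi

lemma res_massAction (I : Finset (Fin d)) (R : Finset (Cplx d × Cplx d))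
    (k : Cplx d × Cplx d → ℝ) (x : Fin d → ℝ) :
    res I (massAction R k x) = ∑ p ∈ R, (k p * monom x p.1) • res I (rxnVec p) := by
  funext i
  simp only [res, massAction, Finset.sum_apply, Pi.smul_apply, smul_eq_mul]
  split_ifs
  · rfl
  · simp

lemma dot_res_massAction (T : Fin d → ℝ) (I : Finset (Fin d)) (R : Finset (Cplx d × Cplx d))
    (k : Cplx d × Cplx d → ℝ) {x : Fin d → ℝ} (hx : ∀ i, 0 < x i) :
    dot T (res I (massAction R k x)) =
      ∑ p ∈ R, k p * Real.exp (psi x p.1) * dot T (res I (rxnVec p)) := by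
  rw [res_massAction, dot_sum_right]
  refine Finset.sum_congr rfl fun p _ => ?_
  rw [dot_smul_right, monom_eq_exp hx]

lemma psi_sub_eq_phi (x : Fin d → ℝ) (p : Cplx d × Cplx d) :
    psi x p.2 - psi x p.1 = phi (rxnVec p) x := by
  rw [← dot_logv_rxnVec, dot_logv_eq_phi]

/-- The near case in general form. -/
lemma near_class_gen {R₀ R₁ R₂ C c₀ c₁ ε m Cg : ℝ} {χ χ' : ℝ → ℝ} (hcut : IsCutOff χ χ' R₁ R₂ C)
    (hR₀ : R₀ + Cg < R₁) (hR₀' : 0 ≤ R₀) (hCg : 0 ≤ Cg) (hε : 0 < ε)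
    {D : Finset (Cplx d × Cplx d)} {vf : Cplx d × Cplx d → Fin d → ℝ}
    (hvD : ∀ g ∈ D, vf g ≠ 0) {g : Cplx d × Cplx d} (hgD : g ∈ D) {y : Fin d → ℝ}
    (hy : ∀ i, 0 < y i) (hother : ∀ g' ∈ D, g' ≠ g → R₂ < |phi (vf g') y|)
    {A : Finset (Cplx d × Cplx d)} {k c : Cplx d × Cplx d → ℝ}
    (hk : ∀ q ∈ A, ε ≤ k q ∧ k q ≤ ε⁻¹) (hc₀pos : 0 < c₀)
    (hcne : ∀ q ∈ A, c q ≠ 0) (hc₀ : ∀ q ∈ A, c₀ ≤ |c q|) (hc₁ : ∀ q ∈ A, |c q| ≤ c₁)
    {w : Cplx d × Cplx d → Fin d → ℝ} (hvec : ∀ q ∈ A, w q = c q • vf g)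
    {ψ : Cplx d → ℝ} {φ : ℝ} (hrel : ∀ q ∈ A, ψ q.2 - ψ q.1 = c q * φ)
    (hφ : |φ - phi (vf g) y| ≤ Cg)
    (htop1 : ∀ q ∈ A, ψ q.1 ≤ m) (htop2 : ∀ q ∈ A, ψ q.2 ≤ m)
    {r : Cplx d × Cplx d} (hrA : r ∈ A) (hrm : ψ r.1 = m)
    (hthr : ∀ φ : ℝ, R₀ ≤ φ → (A.card : ℝ) * (ε⁻¹ * c₁) * Real.exp (-(c₀ * φ)) ≤ ε * c₀) :
    ∑ q ∈ A, k q * Real.exp (ψ q.1) * dot (grad D vf χ χ' y) (w q) ≤ 0 := by
  have hvne : vf g ≠ 0 := hvD g hgD
  obtain ⟨v, hv⟩ : ∃ v, v = vf g := ⟨_, rfl⟩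
  rw [← hv] at hvne hvec hφ
  obtain ⟨φh, hφh⟩ : ∃ φh, φh = phi v y := ⟨_, rfl⟩
  rw [← hφh] at hφ
  obtain ⟨G, hG⟩ : ∃ G, G = dot (grad D vf χ χ' y) v := ⟨_, rfl⟩
  have hLq : ∀ q ∈ A, dot (grad D vf χ χ' y) (w q) = c q * G := by
    intro q hq
    rw [hvec q hq, dot_smul_right, hG]
  obtain ⟨Qv, hQv⟩ : ∃ Qv : ℝ, Qv = ∑ i, v i / y i * v i := ⟨_, rfl⟩
  have hQv0 : 0 ≤ Qv := by
    rw [hQv]
    refine Finset.sum_nonneg fun i _ => ?_
    have : v i / y i * v i = v i ^ 2 / y i := by ring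
    rw [this]
    have := hy i
    positivity
  have hDelta0 : 0 ≤ Delta v y := Delta_nonneg v y hvne hy
  have hGform : G = φh - (χ' φh * Qv * Delta v y + χ φh * φh) := by
    rw [hG, dot_grad]
    rw [Finset.sum_eq_single_of_mem g hgD]
    · have h1 : dot (logv y) v = φh := by rw [hφh]; exact dot_logv_eq_phi v y
      have h2 : dot (logv (xstar v y)) v = 0 := by
        rw [dot_logv_eq_phi]
        exact phi_xstar v y hvne hy
      rw [← hv, ← hφh, ← hQv, h1, h2, sub_zero]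
    · intro g' hg' hne'
      obtain ⟨h1, h2⟩ := hcut.far _ (hother g' hg' hne')
      rw [h1, h2]
      ring
  have hsum : ∑ q ∈ A, k q * Real.exp (ψ q.1) * dot (grad D vf χ χ' y) (w q) =
      (∑ q ∈ A, k q * Real.exp (ψ q.1) * c q) * G := by
    rw [Finset.sum_mul]
    refine Finset.sum_congr rfl fun q hq => ?_
    rw [hLq q hq]
    ring
  rw [hsum]
  by_cases hsmall : |φh| < R₁
  · obtain ⟨h1, h2⟩ := hcut.core φh hsmall
    have : G = 0 := by
      rw [hGform, h1, h2]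
      ring
    rw [this, mul_zero]
  · push Not at hsmall
    have hR₁pos : 0 < R₁ := by linarith
    rcases lt_or_ge 0 φh with hpos | hneg
    · -- positive side
      have hφhR : R₁ ≤ φh := by
        rwa [abs_of_pos hpos] at hsmall
      have hφR : R₀ ≤ φ := by
        have := abs_le.mp hφ
        linarith [this.1]
      have hφpos : 0 < φ := by
        have := abs_le.mp hφ
        linarith [this.1]
      have hJ : ∑ q ∈ A, k q * Real.exp (ψ q.1) * c q ≤ 0 :=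
        near_one_sided (ψ := ψ) (c₀ := c₀) (c₁ := c₁) (m := m) (φ := φ) hε hk hc₀pos
          hcne hc₀ hc₁ hrel htop1 htop2 hrA hrm hφpos (hthr φ hφR)
      have hGnn : 0 ≤ G := by
        rw [hGform]
        have h1 := hcut.sign φh
        have h2 := hcut.le_one φh
        have h3 : χ' φh ≤ 0 := by
          by_contra h4
          push Not at h4
          have := mul_pos h4 hpos
          linarith
        have h4 : χ' φh * Qv * Delta v y ≤ 0 := by
          have : 0 ≤ Qv * Delta v y := mul_nonneg hQv0 hDelta0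
          have h5 := mul_nonpos_of_nonpos_of_nonneg h3 this
          linarith [h5, mul_assoc (χ' φh) Qv (Delta v y)]
        have h5 : χ φh * φh ≤ φh := by nlinarith
        linarith
      exact mul_nonpos_of_nonpos_of_nonneg hJ hGnn
    · -- negative side
      have hneg' : φh < 0 := by
        rcases lt_or_eq_of_le hneg with h | h
        · exact h
        · exfalso
          rw [h, abs_zero] at hsmall
          linarith
      have hφhR : R₁ ≤ -φh := by
        rwa [abs_of_neg hneg'] at hsmall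
      have hφR : R₀ ≤ -φ := by
        have := abs_le.mp hφ
        linarith [this.2]
      have hφneg : 0 < -φ := by
        have := abs_le.mp hφ
        linarith [this.2]
      have hJ : ∑ q ∈ A, k q * Real.exp (ψ q.1) * (- c q) ≤ 0 :=
        near_one_sided (ψ := ψ) (c := fun q => - c q) (c₀ := c₀) (c₁ := c₁) (m := m) (φ := -φ)
          hε hk hc₀pos
          (fun q hq => neg_ne_zero.mpr (hcne q hq))
          (fun q hq => by rw [abs_neg]; exact hc₀ q hq)
          (fun q hq => by rw [abs_neg]; exact hc₁ q hq)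
          (fun q hq => by rw [hrel q hq]; ring) htop1 htop2 hrA hrm hφneg
          (hthr (-φ) hφR)
      have hJ' : 0 ≤ ∑ q ∈ A, k q * Real.exp (ψ q.1) * c q := by
        have : ∑ q ∈ A, k q * Real.exp (ψ q.1) * (- c q) =
            - ∑ q ∈ A, k q * Real.exp (ψ q.1) * c q := by
          rw [← Finset.sum_neg_distrib]
          refine Finset.sum_congr rfl fun q _ => by ring
        rw [this] at hJ
        linarith
      have hGnp : G ≤ 0 := by
        rw [hGform]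
        have h1 := hcut.sign φh
        have h2 := hcut.le_one φh
        have h0 := hcut.nonneg φh
        have h3 : 0 ≤ χ' φh := by
          by_contra h4
          push Not at h4
          have := mul_pos_of_neg_of_neg h4 hneg'
          linarith
        have h4 : 0 ≤ χ' φh * Qv * Delta v y :=
          mul_nonneg (mul_nonneg h3 hQv0) hDelta0
        have h5 : φh ≤ χ φh * φh := by nlinarith
        linarith
      exact mul_nonpos_of_nonneg_of_nonpos hJ' hGnp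

/-- The constants needed for the far classes. -/
lemma exists_far_constants (R : Finset (Cplx d × Cplx d)) {ε E : ℝ} (hε : 0 < ε) (hE : 0 ≤ E) :
    ∃ CA D₀ : ℝ, 0 ≤ D₀ ∧ (R.card : ℝ) * ((1 + E) * ε⁻¹) + 1 ≤ ε * CA ∧
      ∀ p ∈ R, ∀ q ∈ R, Rch R p.1 q.1 → ∀ ψ : Cplx d → ℝ, ψ q.1 ≤ ψ p.1 - D₀ →
        ∃ r ∈ R, Rch R p.1 r.1 ∧ Rch R r.2 q.1 ∧
          Real.exp (ψ r.1) * (ψ r.2 - ψ r.1 + E) ≤ - CA * Real.exp (ψ p.1) := by
  have hεinv : 0 < ε⁻¹ := inv_pos.mpr hε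
  obtain ⟨CA, hCA⟩ : ∃ CA : ℝ, CA = ((R.card : ℝ) * ((1 + E) * ε⁻¹) + 1) / ε := ⟨_, rfl⟩
  have hCA0 : 0 ≤ CA := by rw [hCA]; positivity
  have hCAbound : (R.card : ℝ) * ((1 + E) * ε⁻¹) + 1 ≤ ε * CA := by
    rw [hCA]
    apply le_of_eq
    field_simp
  obtain ⟨D₀, hD₀, hfar⟩ := far_uniform R E CA hE hCA0
  exact ⟨CA, D₀, hD₀, hCAbound, hfar⟩

/-- The sum of all absolute entries of the reaction vectors. -/
noncomputable def EwR (R : Finset (Cplx d × Cplx d)) : ℝ := ∑ p ∈ R, ∑ i, |rxnVec p i|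

lemma EwR_nonneg (R : Finset (Cplx d × Cplx d)) : 0 ≤ EwR R :=
  Finset.sum_nonneg fun _ _ => Finset.sum_nonneg fun _ _ => abs_nonneg _

lemma sum_abs_res_le {R : Finset (Cplx d × Cplx d)} {p : Cplx d × Cplx d} (hp : p ∈ R)
    (I : Finset (Fin d)) : ∑ i, |res I (rxnVec p) i| ≤ EwR R := by
  have h1 : ∑ i, |res I (rxnVec p) i| ≤ ∑ i, |rxnVec p i| := by
    refine Finset.sum_le_sum fun i _ => ?_
    unfold res
    split_ifs
    · exact le_rfl
    · simp
  exact le_trans h1 (Finset.single_le_sum (f := fun p => ∑ i, |rxnVec p i|)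
    (fun q _ => Finset.sum_nonneg fun i _ => abs_nonneg _) hp)

/-- The flattened static estimate in rescaled coordinates. -/
theorem flatten_static (R : Finset (Cplx d × Cplx d)) (hne : ∀ p ∈ R, p.1 ≠ p.2)
    (hWR : WeaklyReversible R) {ε : ℝ} (hε : 0 < ε) (I : Finset (Fin d)) {s : ℝ} (hs : 0 < s)
    (hI : ∀ p ∈ R, res I (rxnVec p) ≠ 0) {Cg : ℝ} (hCg : 0 ≤ Cg) :
    ∃ (D : Finset (Cplx d × Cplx d)) (χ χ' : ℝ → ℝ) (R₁ R₂ C B : ℝ),
      D ⊆ R ∧ IsCutOff χ χ' R₁ R₂ C ∧ 0 ≤ R₂ ∧ 0 ≤ B ∧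
      (∀ g₁ ∈ D, ∀ g₂ ∈ D, g₁ ≠ g₂ → ∀ a b : ℝ, a • rxnVec g₁ + b • rxnVec g₂ = 0 → a = 0 ∧ b = 0) ∧
      ∀ x : Fin d → ℝ, (∀ i, 0 < x i) → (∀ p ∈ R, |off I s (rxnVec p) x| ≤ Cg) →
        (∀ g₁ ∈ D, ∀ g₂ ∈ D, g₁ ≠ g₂ → |phi (rxnVec g₁) x| ≤ B → B < |phi (rxnVec g₂) x|) →
        ∀ k : Cplx d × Cplx d → ℝ, (∀ p, ε ≤ k p ∧ k p ≤ ε⁻¹) →
          (dot (grad D (fun g => res I (rxnVec g)) χ χ' (Yv I s x)) (res I (massAction R k x)) ≤ 0) ∧
          ∀ p₁ ∈ R, B < |phi (rxnVec p₁) x| →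
            dot (grad D (fun g => res I (rxnVec g)) χ χ' (Yv I s x)) (res I (massAction R k x)) ≤
              - monom x p₁.1 := by
  classical
  obtain ⟨D, hDR, hrep, hnonpar⟩ := exists_reps R
  have hvR : ∀ g ∈ R, rxnVec g ≠ 0 := fun g hg => rxnVec_ne_zero (hne g hg)
  have hvD : ∀ g ∈ D, rxnVec g ≠ 0 := fun g hg => hvR g (hDR hg)
  have hvfD : ∀ g ∈ D, (fun g => res I (rxnVec g)) g ≠ 0 := fun g hg => hI g (hDR hg)
  have hIfD : ∀ g ∈ D, IntLike ((fun g => res I (rxnVec g)) g) :=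
    fun g _ => res_intLike (rxnVec_intLike g) I
  choose! rep hrepD c hcne hcrep using hrep
  obtain ⟨c₀, c₁, hc₀pos, hc₁nn, hc₀, hc₁⟩ := exists_c_bounds R c hcne
  obtain ⟨R₀, hR₀pos, hthr⟩ := exists_R₀ R (c₁ := c₁) hε hc₀pos hc₁nn
  have hR₁pos : 0 < R₀ + Cg + 1 := by linarith
  obtain ⟨χ, χ', C, hC, hcut⟩ := exists_cutOff hR₁pos (by linarith : R₀ + Cg + 1 < R₀ + Cg + 2)
  have hR₂pos : 0 ≤ R₀ + Cg + 2 := by linarith
  obtain ⟨A₀, hA₀⟩ : ∃ A₀ : ℝ, A₀ = C * (R₀ + Cg + 2) * (Real.exp (R₀ + Cg + 2) - 1) + (R₀ + Cg + 2) :=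
    ⟨_, rfl⟩
  have hexp0 : 0 ≤ Real.exp (R₀ + Cg + 2) - 1 := by
    have := Real.add_one_le_exp (R₀ + Cg + 2)
    linarith
  have hA₀0 : 0 ≤ A₀ := by rw [hA₀]; positivity
  obtain ⟨E, hEdef⟩ : ∃ E : ℝ, E = (D.card : ℝ) * (A₀ * EwR R) + Cg := ⟨_, rfl⟩
  have hEw := EwR_nonneg R
  have hE : 0 ≤ E := by rw [hEdef]; positivity
  obtain ⟨CA, D₀, hD₀, hCA, hfar⟩ := exists_far_constants R hε hE
  have hB0 : 0 ≤ D₀ + D₀ / c₀ + (R₀ + Cg + 2) + Cg := by positivity
  refine ⟨D, χ, χ', R₀ + Cg + 1, R₀ + Cg + 2, C, D₀ + D₀ / c₀ + (R₀ + Cg + 2) + Cg, hDR, hcut, hR₂pos,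
    hB0, ?_, ?_⟩
  · intro g₁ hg₁ g₂ hg₂ hne'
    exact indep_of_nonparallel (hvD _ hg₁) (hvD _ hg₂) (hnonpar _ hg₁ _ hg₂ hne')
  intro x hx hoff hexcl k hk
  have hy : ∀ i, 0 < Yv I s x i := Yv_pos hs hx
  -- rewrite the pairing
  rw [dot_res_massAction _ I R k hx]
  have hL : ∀ p ∈ R, dot (grad D (fun g => res I (rxnVec g)) χ χ' (Yv I s x)) (res I (rxnVec p)) ≤
      psi x p.2 - psi x p.1 + E := by
    intro p hp
    have h1 := grad_sub_log_bound hcut hC hR₂pos D (fun g => res I (rxnVec g)) hvfD hIfD hy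
      (res I (rxnVec p))
    rw [← hA₀] at h1
    have h2 := sum_abs_res_le hp I
    have h3 : (D.card : ℝ) * (A₀ * ∑ i, |res I (rxnVec p) i|) ≤ (D.card : ℝ) * (A₀ * EwR R) :=
      mul_le_mul_of_nonneg_left (mul_le_mul_of_nonneg_left h2 hA₀0) (Nat.cast_nonneg _)
    have h4 := le_abs_self (dot (grad D (fun g => res I (rxnVec g)) χ χ' (Yv I s x))
      (res I (rxnVec p)) - dot (logv (Yv I s x)) (res I (rxnVec p)))
    have h5 : dot (logv (Yv I s x)) (res I (rxnVec p)) = phi (rxnVec p) x - off I s (rxnVec p) x := by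
      rw [dot_logv_eq_phi]
      unfold off
      ring
    have h6 := hoff p hp
    have h7 := le_abs_self (- off I s (rxnVec p) x)
    rw [abs_neg] at h7
    rw [psi_sub_eq_phi, hEdef]
    linarith
  have hcl := classes_sum (ψ := psi x) (k := k) hne hWR hε hk hE hL hCA hfar ?_
  · refine ⟨hcl.1, fun p₁ hp₁ hbig => ?_⟩
    have hbig' : D₀ < |psi x p₁.2 - psi x p₁.1| := by
      rw [psi_sub_eq_phi]
      have : 0 ≤ D₀ / c₀ := by positivity
      linarith
    have := hcl.2 p₁ hp₁ hbig'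
    rwa [← monom_eq_exp hx] at this
  · -- the near classes
    intro A hAR _ _ r hrA hmax htop2 hspread
    have hrelφ : ∀ q ∈ A, psi x q.2 - psi x q.1 = c q * phi (rxnVec (rep q)) x := by
      intro q hq
      rw [psi_sub_eq_phi, hcrep q (hAR hq)]
      unfold phi
      rw [Finset.mul_sum]
      refine Finset.sum_congr rfl fun i _ => ?_
      simp only [Pi.smul_apply, smul_eq_mul]
      ring
    have hnearrep : ∀ q ∈ A, |phi (rxnVec (rep q)) x| ≤ D₀ / c₀ := by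
      intro q hq
      have h1 := hspread q hq
      rw [hrelφ q hq, abs_mul] at h1
      have h2 := hc₀ q (hAR hq)
      have h3 : c₀ * |phi (rxnVec (rep q)) x| ≤ D₀ :=
        le_trans (mul_le_mul_of_nonneg_right h2 (abs_nonneg _)) h1
      rw [le_div_iff₀ hc₀pos]
      linarith
    have hD₀c : 0 ≤ D₀ / c₀ := by positivity
    have hgD : rep r ∈ D := hrepD r (hAR hrA)
    have hsame : ∀ q ∈ A, rep q = rep r := by
      intro q hq
      by_contra hne'
      have h1 := hexcl (rep q) (hrepD q (hAR hq)) (rep r) hgD hne'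
        (by have := hnearrep q hq; linarith)
      have h2 := hnearrep r hrA
      linarith
    have hother : ∀ g' ∈ D, g' ≠ rep r → R₀ + Cg + 2 < |phi (res I (rxnVec g')) (Yv I s x)| := by
      intro g' hg' hne'
      have h1 := hexcl (rep r) hgD g' hg' hne'.symm (by have := hnearrep r hrA; linarith)
      have h2 := hoff g' (hDR hg')
      unfold off at h2
      have h3 : |phi (rxnVec g') x| - |phi (res I (rxnVec g')) (Yv I s x)| ≤
          |phi (rxnVec g') x - phi (res I (rxnVec g')) (Yv I s x)| := abs_sub_abs_le_abs_sub _ _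
      linarith
    refine near_class_gen (vf := fun g => res I (rxnVec g)) (w := fun q => res I (rxnVec q))
      (ψ := psi x) (φ := phi (rxnVec (rep r)) x) (Cg := Cg) (R₀ := R₀) hcut (by linarith) hR₀pos.le hCg
      hε hvfD hgD hy hother (c := c) (fun q _ => hk q) hc₀pos (fun q hq => hcne q (hAR hq))
      (fun q hq => hc₀ q (hAR hq)) (fun q hq => hc₁ q (hAR hq)) ?_ ?_ ?_ hmax htop2 hrA rfl
      (hthr A hAR)
    · intro q hq
      have := hcrep q (hAR hq)
      rw [hsame q hq] at this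
      rw [this, res_smul]
    · intro q hq
      have := hrelφ q hq
      rwa [hsame q hq] at this
    · exact hoff (rep r) (hDR hgD)

/-- The plain static estimate in rescaled coordinates, for edges. -/
theorem edge_static (R : Finset (Cplx d × Cplx d)) (hne : ∀ p ∈ R, p.1 ≠ p.2)
    (hWR : WeaklyReversible R) {ε : ℝ} (hε : 0 < ε) (I : Finset (Fin d)) (s : ℝ)
    {Eg : ℝ} (hEg : 0 ≤ Eg) :
    ∃ B : ℝ, 0 ≤ B ∧ ∀ x : Fin d → ℝ, (∀ i, 0 < x i) → (∀ p ∈ R, |off I s (rxnVec p) x| ≤ Eg) →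
      (∀ p ∈ R, |phi (rxnVec p) x| ≤ B → res I (rxnVec p) = 0) →
      ∀ k : Cplx d × Cplx d → ℝ, (∀ p, ε ≤ k p ∧ k p ≤ ε⁻¹) →
        (dot (logv (Yv I s x)) (res I (massAction R k x)) ≤ 0) ∧
        ∀ p₁ ∈ R, B < |phi (rxnVec p₁) x| →
          dot (logv (Yv I s x)) (res I (massAction R k x)) ≤ - monom x p₁.1 := by
  classical
  obtain ⟨CA, D₀, hD₀, hCA, hfar⟩ := exists_far_constants R hε hEg
  refine ⟨D₀, hD₀, ?_⟩
  intro x hx hoff hexcl k hk
  rw [dot_res_massAction _ I R k hx]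
  have hL : ∀ p ∈ R, dot (logv (Yv I s x)) (res I (rxnVec p)) ≤ psi x p.2 - psi x p.1 + Eg := by
    intro p hp
    have h5 : dot (logv (Yv I s x)) (res I (rxnVec p)) = phi (rxnVec p) x - off I s (rxnVec p) x := by
      rw [dot_logv_eq_phi]
      unfold off
      ring
    have h6 := hoff p hp
    have h7 := le_abs_self (- off I s (rxnVec p) x)
    rw [abs_neg] at h7
    rw [psi_sub_eq_phi, h5]
    linarith
  have hcl := classes_sum (ψ := psi x) (k := k) hne hWR hε hk hEg hL hCA hfar ?_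
  · refine ⟨hcl.1, fun p₁ hp₁ hbig => ?_⟩
    have hbig' : D₀ < |psi x p₁.2 - psi x p₁.1| := by
      rwa [psi_sub_eq_phi]
    have := hcl.2 p₁ hp₁ hbig'
    rwa [← monom_eq_exp hx] at this
  · intro A hAR _ _ r hrA hmax htop2 hspread
    refine le_of_eq (Finset.sum_eq_zero fun q hq => ?_)
    have h1 := hspread q hq
    rw [psi_sub_eq_phi] at h1
    rw [hexcl q (hAR hq) h1]
    simp [dot]

end Vale.Agent.Lib.P072
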