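import Vale.Agent.Lib.P072.PermBarrier

/-!
Permanence of weakly reversible mass-action systems of rank at most two.
-/

open Finset Filter Topology

namespace Vale.Agent.Lib.P072

variable {d : ℕ}

lemma monom_pos {x : Fin d → ℝ} (hx : ∀ i, 0 < x i) (y : Cplx d) : 0 < monom x y :=
  Finset.prod_pos fun i _ => pow_pos (hx i) _

lemma IsSol.mem_class {R : Finset (Cplx d × Cplx d)} {k : ℝ → Cplx d × Cplx d → ℝ} {T : ℝ}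
    {x : ℝ → Fin d → ℝ} (hx : IsSol R k T x) {x₀ : Fin d → ℝ} (h0 : x 0 - x₀ ∈ stoich R)
    {t : ℝ} (ht : t ∈ Set.Ico 0 T) : x t - x₀ ∈ stoich R := by
  have h1 := sub_mem_stoich R hx.cont hx.der ht
  have : x t - x₀ = (x t - x 0) + (x 0 - x₀) := by abel
  rw [this]
  exact Submodule.add_mem _ h1 h0

/-- Trapping by a barrier: a solution staying in the region stays away from the face. -/
lemma trap_level {R : Finset (Cplx d × Cplx d)} {ε : ℝ} {x₀ : Fin d → ℝ} {Z : Set (Fin d → ℝ)}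
    {I : Finset (Fin d)} (hB : HasBarrier R ε x₀ Z I) {x₁ : Fin d → ℝ} (hx₁ : ∀ i, 0 < x₁ i)
    (hx₁S : x₁ - x₀ ∈ stoich R) (hx₁Z : x₁ ∈ Z) :
    ∃ η, 0 < η ∧ η ≤ ∑ i ∈ I, x₁ i ∧ ∀ (k : ℝ → Cplx d × Cplx d → ℝ) (T : ℝ) (x : ℝ → Fin d → ℝ),
      (∀ t p, ε ≤ k t p ∧ k t p ≤ ε⁻¹) → IsSol R k T x → x 0 = x₁ → (∀ t ∈ Set.Ico 0 T, x t ∈ Z) →
      ∀ t ∈ Set.Ico 0 T, η ≤ ∑ i ∈ I, x t i := by
  obtain ⟨F, Dl, V, κ, ξ₀, hT, hκ, hξ₀, hlt, hst, hη⟩ := hB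
  have hgap : 0 < V - F x₁ := sub_pos.mpr (hlt x₁ hx₁ hx₁S hx₁Z)
  obtain ⟨ξ, hξ⟩ : ∃ ξ, ξ = min ξ₀ (V - F x₁) := ⟨_, rfl⟩
  have hξpos : 0 < ξ := by rw [hξ]; exact lt_min hξ₀ hgap
  have hξ1 : ξ ≤ ξ₀ := by rw [hξ]; exact min_le_left _ _
  have hξ2 : ξ ≤ V - F x₁ := by rw [hξ]; exact min_le_right _ _
  obtain ⟨η, hηpos, hηle⟩ := hη ξ hξpos
  refine ⟨η, hηpos, hηle x₁ hx₁ hx₁S hx₁Z (by linarith), ?_⟩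
  intro k T x hk hx hx0 hxZ t ht
  have hcl : x 0 - x₀ ∈ stoich R := by rw [hx0]; exact hx₁S
  have hfence := fence hT hx (a := 0) (w := V - ξ) le_rfl (by rw [hx0]; linarith) (by
    intro s hs hbig
    have h1 := hst (x s) (hx.pos s hs) (hx.mem_class hcl hs) (hxZ s hs) (by linarith) (k s) (hk s) 0
      (fun p _ => (monom_pos (hx.pos s hs) _).le)
    simpa using h1) t ht
  exact hηle (x t) (hx.pos t ht) (hx.mem_class hcl ht) (hxZ t ht) hfence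

/-- Absorption by a barrier. -/
lemma absorb_level {R : Finset (Cplx d × Cplx d)} {ε : ℝ} {x₀ : Fin d → ℝ} {Z : Set (Fin d → ℝ)}
    {I : Finset (Fin d)} (hB : HasBarrier R ε x₀ Z I) :
    ∃ η₀, 0 < η₀ ∧ ∀ μ₀ : ℝ, 0 < μ₀ → ∃ τ : ℝ, 0 ≤ τ ∧
      ∀ (k : ℝ → Cplx d × Cplx d → ℝ) (T : ℝ) (x : ℝ → Fin d → ℝ) (a : ℝ),
        (∀ t p, ε ≤ k t p ∧ k t p ≤ ε⁻¹) → IsSol R k T x → x 0 - x₀ ∈ stoich R → 0 ≤ a →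
        (∀ t ∈ Set.Ico a T, x t ∈ Z) → (∀ t ∈ Set.Ico a T, ∀ p ∈ R, μ₀ ≤ monom (x t) p.1) →
        ∀ t ∈ Set.Ico a T, a + τ ≤ t → η₀ ≤ ∑ i ∈ I, x t i := by
  obtain ⟨F, Dl, V, κ, ξ₀, hT, hκ, hξ₀, hlt, hst, hη⟩ := hB
  obtain ⟨η₀, hη₀, hle⟩ := hη ξ₀ hξ₀
  refine ⟨η₀, hη₀, ?_⟩
  intro μ₀ hμ₀
  have hκμ : 0 < κ * μ₀ := mul_pos hκ hμ₀
  refine ⟨ξ₀ / (κ * μ₀), by positivity, ?_⟩
  intro k T x a hk hx hcl ha hxZ hmon t ht htτ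
  have hsub : ∀ s ∈ Set.Ico a T, s ∈ Set.Ico 0 T := fun s hs => ⟨le_trans ha hs.1, hs.2⟩
  have haT : a ∈ Set.Ico a T := ⟨le_rfl, lt_of_le_of_lt ht.1 ht.2⟩
  have hdec := decay hT hx (a := a) (w := V - ξ₀) (κ := κ * μ₀) ha hκμ (by
    intro s hs hbig
    have h1 := hst (x s) (hx.pos s (hsub s hs)) (hx.mem_class hcl (hsub s hs)) (hxZ s hs) hbig (k s)
      (hk s) μ₀ (fun p hp => hmon s hs p hp)
    linarith) t ht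
  have hFa := hlt (x a) (hx.pos a (hsub a haT)) (hx.mem_class hcl (hsub a haT)) (hxZ a haT)
  have htime : a + (F (x a) - (V - ξ₀)) / (κ * μ₀) ≤ t := by
    refine le_trans ?_ htτ
    have : (F (x a) - (V - ξ₀)) / (κ * μ₀) ≤ ξ₀ / (κ * μ₀) :=
      div_le_div_of_nonneg_right (by linarith) hκμ.le
    linarith
  exact hle (x t) (hx.pos t (hsub t ht)) (hx.mem_class hcl (hsub t ht)) (hxZ t ht) (hdec htime)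

/-- `J` is the set of vanishing coordinates of a point of the closed class, and no nonzero direction
vanishes on `J`. -/
def IsVertexSet (R : Finset (Cplx d × Cplx d)) (x₀ : Fin d → ℝ) (J : Finset (Fin d)) : Prop :=
  J.Nonempty ∧ (∃ z : Fin d → ℝ, z - x₀ ∈ stoich R ∧ (∀ i, 0 ≤ z i) ∧ ∀ i, z i = 0 ↔ i ∈ J) ∧
    ∀ w ∈ stoich R, (∀ i ∈ J, w i = 0) → w = 0

/-- `J` is the set of vanishing coordinates of a point of the closed class, and some nonzero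
direction vanishes on `J`. -/
def IsEdgeSet (R : Finset (Cplx d × Cplx d)) (x₀ : Fin d → ℝ) (J : Finset (Fin d)) : Prop :=
  J.Nonempty ∧ (∃ z : Fin d → ℝ, z - x₀ ∈ stoich R ∧ (∀ i, 0 ≤ z i) ∧ ∀ i, z i = 0 ↔ i ∈ J) ∧
    ∃ f ∈ stoich R, f ≠ 0 ∧ ∀ i ∈ J, f i = 0

/-- Constraints at all vertex and edge sets give a positive lower bound. -/
lemma pos_of_constraints {R : Finset (Cplx d × Cplx d)} {x₀ : Fin d → ℝ} {M : ℝ}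
    {𝓥 𝓔 : Finset (Finset (Fin d))} (h𝓥 : ∀ J, IsVertexSet R x₀ J → J ∈ 𝓥)
    (h𝓔 : ∀ J, IsEdgeSet R x₀ J → J ∈ 𝓔) {ηv ηe : Finset (Fin d) → ℝ}
    (hηv : ∀ J ∈ 𝓥, 0 < ηv J) (hηe : ∀ J ∈ 𝓔, 0 < ηe J) :
    ∃ m, 0 < m ∧ ∀ x : Fin d → ℝ, x - x₀ ∈ stoich R → (∀ i, 0 ≤ x i ∧ x i ≤ M) →
      (∀ J ∈ 𝓥, ηv J ≤ ∑ i ∈ J, x i) → (∀ J ∈ 𝓔, ηe J ≤ ∑ i ∈ J, x i) → ∀ i, m ≤ x i := by
  classical
  have hC : IsCompact (CBox R x₀ M 𝓥 ηv ∩ CBox R x₀ M 𝓔 ηe) :=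
    (isCompact_CBox R x₀ M 𝓥 ηv).inter (isCompact_CBox R x₀ M 𝓔 ηe)
  have hpos : ∀ i : Fin d, ∃ c, 0 < c ∧ ∀ x ∈ CBox R x₀ M 𝓥 ηv ∩ CBox R x₀ M 𝓔 ηe, c ≤ x i := by
    intro i
    refine exists_lower_of_pos hC (continuous_apply i) ?_
    intro x hx
    by_contra hle
    have hxi : x i = 0 := le_antisymm (not_lt.mp hle) (hx.1.2.1 i).1
    obtain ⟨J, hJ⟩ : ∃ J : Finset (Fin d), J = Finset.univ.filter fun i => x i = 0 := ⟨_, rfl⟩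
    have hJmem : ∀ i, x i = 0 ↔ i ∈ J := fun i => by simp [hJ]
    have hJne : J.Nonempty := ⟨i, (hJmem i).1 hxi⟩
    have hsum0 : ∑ i ∈ J, x i = 0 := Finset.sum_eq_zero fun i hi => (hJmem i).2 hi
    have hwit : ∃ z : Fin d → ℝ, z - x₀ ∈ stoich R ∧ (∀ i, 0 ≤ z i) ∧ ∀ i, z i = 0 ↔ i ∈ J :=
      ⟨x, hx.1.1, fun i => (hx.1.2.1 i).1, hJmem⟩
    by_cases hS : ∀ w ∈ stoich R, (∀ i ∈ J, w i = 0) → w = 0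
    · have hJ𝓥 := h𝓥 J ⟨hJne, hwit, hS⟩
      have h1 := hx.1.2.2 J hJ𝓥
      have h2 := hηv J hJ𝓥
      linarith
    · push Not at hS
      obtain ⟨w, hw, hwJ, hw0⟩ := hS
      have hJ𝓔 := h𝓔 J ⟨hJne, hwit, w, hw, hw0, hwJ⟩
      have h1 := hx.2.2.2 J hJ𝓔
      have h2 := hηe J hJ𝓔
      linarith
  choose c hc hcle using hpos
  obtain ⟨m, hm, hmle⟩ := exists_lower_fin (Finset.univ : Finset (Fin d)) c (fun i _ => hc i)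
  refine ⟨m, hm, ?_⟩
  intro x hxS hxbox hv he i
  have hxC : x ∈ CBox R x₀ M 𝓥 ηv ∩ CBox R x₀ M 𝓔 ηe :=
    ⟨⟨hxS, hxbox, hv⟩, ⟨hxS, hxbox, he⟩⟩
  exact le_trans (hmle i (Finset.mem_univ i)) (hcle i x hxC)

/-- The compact part of the class between two bounds. -/
def KBox (R : Finset (Cplx d × Cplx d)) (x₀ : Fin d → ℝ) (m M : ℝ) : Set (Fin d → ℝ) :=
  {x | x - x₀ ∈ stoich R ∧ ∀ i, m ≤ x i ∧ x i ≤ M}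

lemma isCompact_KBox (R : Finset (Cplx d × Cplx d)) (x₀ : Fin d → ℝ) (m M : ℝ) :
    IsCompact (KBox R x₀ m M) := by
  have hsub : KBox R x₀ m M ⊆ Set.Icc (fun _ => m) (fun _ => M) := by
    intro x hx
    exact ⟨fun i => (hx.2 i).1, fun i => (hx.2 i).2⟩
  refine IsCompact.of_isClosed_subset isCompact_Icc ?_ hsub
  have h1 : IsClosed {x : Fin d → ℝ | x - x₀ ∈ stoich R} :=
    (Submodule.closed_of_finiteDimensional (stoich R)).preimage (continuous_id.sub continuous_const)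
  have h2 : IsClosed {x : Fin d → ℝ | ∀ i, m ≤ x i ∧ x i ≤ M} := by
    have : {x : Fin d → ℝ | ∀ i, m ≤ x i ∧ x i ≤ M} = ⋂ i, {x | m ≤ x i ∧ x i ≤ M} := by
      ext x; simp
    rw [this]
    refine isClosed_iInter fun i => ?_
    exact (isClosed_le continuous_const (continuous_apply i)).inter
      (isClosed_le (continuous_apply i) continuous_const)
  exact h1.inter h2

/-- Lower bound for the monomials of a network when all coordinates are bounded below. -/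
lemma exists_monom_lower (R : Finset (Cplx d × Cplx d)) {m : ℝ} (hm : 0 < m) :
    ∃ μ₀, 0 < μ₀ ∧ ∀ x : Fin d → ℝ, (∀ i, m ≤ x i) → ∀ p ∈ R, μ₀ ≤ monom x p.1 := by
  obtain ⟨μ₀, hμ₀, hle⟩ := exists_lower_fin R (fun p => monom (fun _ => m) p.1)
    (fun p _ => monom_pos (fun _ => hm) _)
  refine ⟨μ₀, hμ₀, ?_⟩
  intro x hx p hp
  refine le_trans (hle p hp) ?_
  unfold monom
  exact Finset.prod_le_prod (fun i _ => pow_nonneg hm.le _)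
    (fun i _ => pow_le_pow_left₀ hm.le (hx i) _)

/-- Main theorem: permanence with a compact set independent of the initial value and of the rates. -/
theorem main_permanent (R : Finset (Cplx d × Cplx d)) (hne : ∀ p ∈ R, p.1 ≠ p.2)
    (hWR : WeaklyReversible R) (hdim : Module.finrank ℝ (stoich R) ≤ 2) {ε : ℝ} (hε : 0 < ε)
    {x₀ : Fin d → ℝ} (hx₀ : ∀ i, 0 < x₀ i) :
    ∃ K : Set (Fin d → ℝ), IsCompact K ∧ (∀ x ∈ K, (∀ i, 0 < x i) ∧ x - x₀ ∈ stoich R) ∧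
      ∀ x₁ : Fin d → ℝ, (∀ i, 0 < x₁ i) → x₁ - x₀ ∈ stoich R →
        ∃ K₁ : Set (Fin d → ℝ), IsCompact K₁ ∧ (∀ x ∈ K₁, (∀ i, 0 < x i) ∧ x - x₀ ∈ stoich R) ∧
        ∃ T₀ : ℝ, ∀ (k : ℝ → Cplx d × Cplx d → ℝ) (T : ℝ) (x : ℝ → Fin d → ℝ),
          (∀ t p, ε ≤ k t p ∧ k t p ≤ ε⁻¹) → IsSol R k T x → x 0 = x₁ →
          ∀ t ∈ Set.Ico 0 T, x t ∈ K₁ ∧ (T₀ ≤ t → x t ∈ K) := by
  classical
  obtain ⟨F, Dl, ρ, w₀, hT, hρ, hproper, hlow, hdecay⟩ := top_level R hne hWR hdim hε hx₀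
  obtain ⟨𝓥, h𝓥⟩ : ∃ 𝓥 : Finset (Finset (Fin d)), ∀ J, J ∈ 𝓥 ↔ IsVertexSet R x₀ J :=
    ⟨Finset.univ.filter (IsVertexSet R x₀), fun J => by simp⟩
  obtain ⟨𝓔, h𝓔⟩ : ∃ 𝓔 : Finset (Finset (Fin d)), ∀ J, J ∈ 𝓔 ↔ IsEdgeSet R x₀ J :=
    ⟨Finset.univ.filter (IsEdgeSet R x₀), fun J => by simp⟩
  -- the barriers
  have hBv : ∀ M : ℝ, 1 ≤ M → ∀ J ∈ 𝓥, HasBarrier R ε x₀ {x | ∀ i, x i ≤ M} J := by
    intro M hM J hJ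
    obtain ⟨hJne, ⟨z, hzS, hz0, hzI⟩, hS0⟩ := (h𝓥 J).1 hJ
    exact barrier_vertex R hne hWR hdim hε hx₀ hM hJne hzS hz0 hzI hS0
  have hBe : ∀ (M : ℝ) (η : Finset (Fin d) → ℝ), 1 ≤ M → (∀ J ∈ 𝓥, 0 < η J) → ∀ J ∈ 𝓔,
      HasBarrier R ε x₀ {x | (∀ i, x i ≤ M) ∧ ∀ J ∈ 𝓥, η J ≤ ∑ i ∈ J, x i} J := by
    intro M η hM hη J hJ
    obtain ⟨hJne, ⟨z, hzS, hz0, hzI⟩, f, hfS, hf0, hfI⟩ := (h𝓔 J).1 hJ
    refine barrier_edge R hne hWR hdim hε hx₀ hM hJne hzS hz0 hzI hfS hf0 hfI 𝓥 η hη ?_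
    intro J' hJ'ne z' hz'S hz'0 hz'I hS0
    exact (h𝓥 J').2 ⟨hJ'ne, ⟨z', hz'S, hz'0, hz'I⟩, hS0⟩
  -- the fixed compact set
  obtain ⟨Ms, hMs1, hMs⟩ := hproper w₀
  have hAv : ∀ J, ∃ η₀, J ∈ 𝓥 → 0 < η₀ ∧ ∀ μ₀ : ℝ, 0 < μ₀ → ∃ τ : ℝ, 0 ≤ τ ∧
      ∀ (k : ℝ → Cplx d × Cplx d → ℝ) (T : ℝ) (x : ℝ → Fin d → ℝ) (a : ℝ),
        (∀ t p, ε ≤ k t p ∧ k t p ≤ ε⁻¹) → IsSol R k T x → x 0 - x₀ ∈ stoich R → 0 ≤ a →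
        (∀ t ∈ Set.Ico a T, x t ∈ {x | ∀ i, x i ≤ Ms}) →
        (∀ t ∈ Set.Ico a T, ∀ p ∈ R, μ₀ ≤ monom (x t) p.1) →
        ∀ t ∈ Set.Ico a T, a + τ ≤ t → η₀ ≤ ∑ i ∈ J, x t i := by
    intro J
    by_cases hJ : J ∈ 𝓥
    · obtain ⟨η₀, h1, h2⟩ := absorb_level (hBv Ms hMs1 J hJ)
      exact ⟨η₀, fun _ => ⟨h1, h2⟩⟩
    · exact ⟨0, fun h => absurd h hJ⟩
  choose ηv hηv using hAv
  have hηvpos : ∀ J ∈ 𝓥, 0 < ηv J := fun J hJ => (hηv J hJ).1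
  have hAe : ∀ J, ∃ η₀, J ∈ 𝓔 → 0 < η₀ ∧ ∀ μ₀ : ℝ, 0 < μ₀ → ∃ τ : ℝ, 0 ≤ τ ∧
      ∀ (k : ℝ → Cplx d × Cplx d → ℝ) (T : ℝ) (x : ℝ → Fin d → ℝ) (a : ℝ),
        (∀ t p, ε ≤ k t p ∧ k t p ≤ ε⁻¹) → IsSol R k T x → x 0 - x₀ ∈ stoich R → 0 ≤ a →
        (∀ t ∈ Set.Ico a T, x t ∈ {x | (∀ i, x i ≤ Ms) ∧ ∀ J ∈ 𝓥, ηv J ≤ ∑ i ∈ J, x i}) →
        (∀ t ∈ Set.Ico a T, ∀ p ∈ R, μ₀ ≤ monom (x t) p.1) →
        ∀ t ∈ Set.Ico a T, a + τ ≤ t → η₀ ≤ ∑ i ∈ J, x t i := by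
    intro J
    by_cases hJ : J ∈ 𝓔
    · obtain ⟨η₀, h1, h2⟩ := absorb_level (hBe Ms ηv hMs1 hηvpos J hJ)
      exact ⟨η₀, fun _ => ⟨h1, h2⟩⟩
    · exact ⟨0, fun h => absurd h hJ⟩
  choose ηe hηe using hAe
  have hηepos : ∀ J ∈ 𝓔, 0 < ηe J := fun J hJ => (hηe J hJ).1
  obtain ⟨ms, hms, hmslow⟩ := pos_of_constraints (M := Ms) (fun J h => (h𝓥 J).2 h)
    (fun J h => (h𝓔 J).2 h) hηvpos hηepos
  refine ⟨KBox R x₀ ms Ms, isCompact_KBox R x₀ ms Ms, fun x hx =>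
    ⟨fun i => lt_of_lt_of_le hms (hx.2 i).1, hx.1⟩, ?_⟩
  -- the part depending on the initial value
  intro x₁ hx₁ hx₁S
  obtain ⟨w₁, hw₁⟩ : ∃ w₁, w₁ = max (F x₁) w₀ := ⟨_, rfl⟩
  have hw₁a : F x₁ ≤ w₁ := by rw [hw₁]; exact le_max_left _ _
  have hw₁b : w₀ ≤ w₁ := by rw [hw₁]; exact le_max_right _ _
  obtain ⟨M₁, hM₁1, hM₁⟩ := hproper w₁
  have hx₁M : x₁ ∈ {x : Fin d → ℝ | ∀ i, x i ≤ M₁} := hM₁ x₁ hx₁ hw₁a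
  -- a priori upper bound
  have htop : ∀ (k : ℝ → Cplx d × Cplx d → ℝ) (T : ℝ) (x : ℝ → Fin d → ℝ),
      (∀ t p, ε ≤ k t p ∧ k t p ≤ ε⁻¹) → IsSol R k T x → x 0 = x₁ →
      ∀ t ∈ Set.Ico 0 T, ∀ i, x t i ≤ M₁ := by
    intro k T x hk hx hx0 t ht
    have hcl : x 0 - x₀ ∈ stoich R := by rw [hx0]; exact hx₁S
    have h1 := fence hT hx (a := 0) (w := w₁) le_rfl (by rw [hx0]; exact hw₁a) (by
      intro s hs hbig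
      have hnot : ¬ ∀ i, x s i ≤ ρ := fun hle => by
        have := hlow (x s) (hx.pos s hs) hle
        linarith
      have h2 := hdecay (x s) (hx.pos s hs) (hx.mem_class hcl hs) hnot (k s) (hk s) 0
        (fun p _ => (monom_pos (hx.pos s hs) _).le)
      simpa using h2) t ht
    exact hM₁ (x t) (hx.pos t ht) h1
  -- a priori distance from the vertices
  have hTv : ∀ J, ∃ η, J ∈ 𝓥 → 0 < η ∧ η ≤ ∑ i ∈ J, x₁ i ∧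
      ∀ (k : ℝ → Cplx d × Cplx d → ℝ) (T : ℝ) (x : ℝ → Fin d → ℝ),
      (∀ t p, ε ≤ k t p ∧ k t p ≤ ε⁻¹) → IsSol R k T x → x 0 = x₁ →
      (∀ t ∈ Set.Ico 0 T, x t ∈ {x : Fin d → ℝ | ∀ i, x i ≤ M₁}) →
      ∀ t ∈ Set.Ico 0 T, η ≤ ∑ i ∈ J, x t i := by
    intro J
    by_cases hJ : J ∈ 𝓥
    · obtain ⟨η, h1, h2, h3⟩ := trap_level (hBv M₁ hM₁1 J hJ) hx₁ hx₁S hx₁M
      exact ⟨η, fun _ => ⟨h1, h2, h3⟩⟩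
    · exact ⟨0, fun h => absurd h hJ⟩
  choose η1v hη1v using hTv
  have hη1vpos : ∀ J ∈ 𝓥, 0 < η1v J := fun J hJ => (hη1v J hJ).1
  have hvert : ∀ (k : ℝ → Cplx d × Cplx d → ℝ) (T : ℝ) (x : ℝ → Fin d → ℝ),
      (∀ t p, ε ≤ k t p ∧ k t p ≤ ε⁻¹) → IsSol R k T x → x 0 = x₁ →
      ∀ t ∈ Set.Ico 0 T, ∀ J ∈ 𝓥, η1v J ≤ ∑ i ∈ J, x t i := by
    intro k T x hk hx hx0 t ht J hJ
    exact (hη1v J hJ).2.2 k T x hk hx hx0 (fun s hs => htop k T x hk hx hx0 s hs) t ht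
  -- a priori distance from the edges
  have hx₁Z' : x₁ ∈ {x : Fin d → ℝ | (∀ i, x i ≤ M₁) ∧ ∀ J ∈ 𝓥, η1v J ≤ ∑ i ∈ J, x i} :=
    ⟨hx₁M, fun J hJ => (hη1v J hJ).2.1⟩
  have hTe : ∀ J, ∃ η, J ∈ 𝓔 → 0 < η ∧ η ≤ ∑ i ∈ J, x₁ i ∧
      ∀ (k : ℝ → Cplx d × Cplx d → ℝ) (T : ℝ) (x : ℝ → Fin d → ℝ),
      (∀ t p, ε ≤ k t p ∧ k t p ≤ ε⁻¹) → IsSol R k T x → x 0 = x₁ →
      (∀ t ∈ Set.Ico 0 T, x t ∈ {x : Fin d → ℝ | (∀ i, x i ≤ M₁) ∧ ∀ J ∈ 𝓥, η1v J ≤ ∑ i ∈ J, x i}) →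
      ∀ t ∈ Set.Ico 0 T, η ≤ ∑ i ∈ J, x t i := by
    intro J
    by_cases hJ : J ∈ 𝓔
    · obtain ⟨η, h1, h2, h3⟩ := trap_level (hBe M₁ η1v hM₁1 hη1vpos J hJ) hx₁ hx₁S hx₁Z'
      exact ⟨η, fun _ => ⟨h1, h2, h3⟩⟩
    · exact ⟨0, fun h => absurd h hJ⟩
  choose η1e hη1e using hTe
  have hη1epos : ∀ J ∈ 𝓔, 0 < η1e J := fun J hJ => (hη1e J hJ).1
  have hedge : ∀ (k : ℝ → Cplx d × Cplx d → ℝ) (T : ℝ) (x : ℝ → Fin d → ℝ),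
      (∀ t p, ε ≤ k t p ∧ k t p ≤ ε⁻¹) → IsSol R k T x → x 0 = x₁ →
      ∀ t ∈ Set.Ico 0 T, ∀ J ∈ 𝓔, η1e J ≤ ∑ i ∈ J, x t i := by
    intro k T x hk hx hx0 t ht J hJ
    exact (hη1e J hJ).2.2 k T x hk hx hx0
      (fun s hs => ⟨htop k T x hk hx hx0 s hs, hvert k T x hk hx hx0 s hs⟩) t ht
  obtain ⟨m₁, hm₁, hm₁low⟩ := pos_of_constraints (M := M₁) (fun J h => (h𝓥 J).2 h)
    (fun J h => (h𝓔 J).2 h) hη1vpos hη1epos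
  -- the compact set depending on the initial value
  have hlow₁ : ∀ (k : ℝ → Cplx d × Cplx d → ℝ) (T : ℝ) (x : ℝ → Fin d → ℝ),
      (∀ t p, ε ≤ k t p ∧ k t p ≤ ε⁻¹) → IsSol R k T x → x 0 = x₁ →
      ∀ t ∈ Set.Ico 0 T, ∀ i, m₁ ≤ x t i := by
    intro k T x hk hx hx0 t ht
    have hcl : x 0 - x₀ ∈ stoich R := by rw [hx0]; exact hx₁S
    exact hm₁low (x t) (hx.mem_class hcl ht)
      (fun i => ⟨(hx.pos t ht i).le, htop k T x hk hx hx0 t ht i⟩)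
      (hvert k T x hk hx hx0 t ht) (hedge k T x hk hx hx0 t ht)
  obtain ⟨μ₀, hμ₀, hμ₀le⟩ := exists_monom_lower R hm₁
  have hmon : ∀ (k : ℝ → Cplx d × Cplx d → ℝ) (T : ℝ) (x : ℝ → Fin d → ℝ),
      (∀ t p, ε ≤ k t p ∧ k t p ≤ ε⁻¹) → IsSol R k T x → x 0 = x₁ →
      ∀ t ∈ Set.Ico 0 T, ∀ p ∈ R, μ₀ ≤ monom (x t) p.1 :=
    fun k T x hk hx hx0 t ht p hp => hμ₀le (x t) (hlow₁ k T x hk hx hx0 t ht) p hp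
  -- times of absorption
  obtain ⟨T₁, hT₁⟩ : ∃ T₁, T₁ = max 0 ((F x₁ - w₀) / μ₀) := ⟨_, rfl⟩
  have hT₁0 : 0 ≤ T₁ := by rw [hT₁]; exact le_max_left _ _
  have hT₁b : (F x₁ - w₀) / μ₀ ≤ T₁ := by rw [hT₁]; exact le_max_right _ _
  have htauv : ∀ J, ∃ τ : ℝ, 0 ≤ τ ∧ (J ∈ 𝓥 →
      ∀ (k : ℝ → Cplx d × Cplx d → ℝ) (T : ℝ) (x : ℝ → Fin d → ℝ) (a : ℝ),
        (∀ t p, ε ≤ k t p ∧ k t p ≤ ε⁻¹) → IsSol R k T x → x 0 - x₀ ∈ stoich R → 0 ≤ a →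
        (∀ t ∈ Set.Ico a T, x t ∈ {x | ∀ i, x i ≤ Ms}) →
        (∀ t ∈ Set.Ico a T, ∀ p ∈ R, μ₀ ≤ monom (x t) p.1) →
        ∀ t ∈ Set.Ico a T, a + τ ≤ t → ηv J ≤ ∑ i ∈ J, x t i) := by
    intro J
    by_cases hJ : J ∈ 𝓥
    · obtain ⟨τ, h1, h2⟩ := (hηv J hJ).2 μ₀ hμ₀
      exact ⟨τ, h1, fun _ => h2⟩
    · exact ⟨0, le_rfl, fun h => absurd h hJ⟩
  choose τv hτv0 hτv using htauv
  have htaue : ∀ J, ∃ τ : ℝ, 0 ≤ τ ∧ (J ∈ 𝓔 →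
      ∀ (k : ℝ → Cplx d × Cplx d → ℝ) (T : ℝ) (x : ℝ → Fin d → ℝ) (a : ℝ),
        (∀ t p, ε ≤ k t p ∧ k t p ≤ ε⁻¹) → IsSol R k T x → x 0 - x₀ ∈ stoich R → 0 ≤ a →
        (∀ t ∈ Set.Ico a T, x t ∈ {x | (∀ i, x i ≤ Ms) ∧ ∀ J ∈ 𝓥, ηv J ≤ ∑ i ∈ J, x i}) →
        (∀ t ∈ Set.Ico a T, ∀ p ∈ R, μ₀ ≤ monom (x t) p.1) →
        ∀ t ∈ Set.Ico a T, a + τ ≤ t → ηe J ≤ ∑ i ∈ J, x t i) := by
    intro J
    by_cases hJ : J ∈ 𝓔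
    · obtain ⟨τ, h1, h2⟩ := (hηe J hJ).2 μ₀ hμ₀
      exact ⟨τ, h1, fun _ => h2⟩
    · exact ⟨0, le_rfl, fun h => absurd h hJ⟩
  choose τe hτe0 hτe using htaue
  obtain ⟨T₂, hT₂⟩ : ∃ T₂, T₂ = T₁ + ∑ J ∈ 𝓥, τv J := ⟨_, rfl⟩
  obtain ⟨T₃, hT₃⟩ : ∃ T₃, T₃ = T₂ + ∑ J ∈ 𝓔, τe J := ⟨_, rfl⟩
  have hsumv : ∀ J ∈ 𝓥, τv J ≤ ∑ J ∈ 𝓥, τv J := fun J hJ =>
    Finset.single_le_sum (fun J _ => hτv0 J) hJ
  have hsume : ∀ J ∈ 𝓔, τe J ≤ ∑ J ∈ 𝓔, τe J := fun J hJ =>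
    Finset.single_le_sum (fun J _ => hτe0 J) hJ
  have hsumv0 : 0 ≤ ∑ J ∈ 𝓥, τv J := Finset.sum_nonneg fun J _ => hτv0 J
  have hsume0 : 0 ≤ ∑ J ∈ 𝓔, τe J := Finset.sum_nonneg fun J _ => hτe0 J
  have hT₂0 : T₁ ≤ T₂ := by rw [hT₂]; linarith
  have hT₃0 : T₂ ≤ T₃ := by rw [hT₃]; linarith
  refine ⟨KBox R x₀ m₁ M₁, isCompact_KBox R x₀ m₁ M₁, fun x hx =>
    ⟨fun i => lt_of_lt_of_le hm₁ (hx.2 i).1, hx.1⟩, T₃, ?_⟩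
  intro k T x hk hx hx0 t ht
  have hcl : x 0 - x₀ ∈ stoich R := by rw [hx0]; exact hx₁S
  constructor
  · exact ⟨hx.mem_class hcl ht, fun i => ⟨hlow₁ k T x hk hx hx0 t ht i, htop k T x hk hx hx0 t ht i⟩⟩
  · intro htT₃
    -- phase one: the upper bound
    have hsub₁ : ∀ s, T₁ ≤ s → s < T → s ∈ Set.Ico 0 T := fun s h1 h2 => ⟨le_trans hT₁0 h1, h2⟩
    have hphase1 : ∀ s, T₁ ≤ s → s < T → ∀ i, x s i ≤ Ms := by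
      intro s hs hsT
      have hdec := decay hT hx (a := 0) (w := w₀) (κ := μ₀) le_rfl hμ₀ (by
        intro u hu hbig
        have hnot : ¬ ∀ i, x u i ≤ ρ := fun hle => by
          have := hlow (x u) (hx.pos u hu) hle
          linarith
        exact hdecay (x u) (hx.pos u hu) (hx.mem_class hcl hu) hnot (k u) (hk u) μ₀
          (fun p hp => hmon k T x hk hx hx0 u hu p hp)) s (hsub₁ s hs hsT) (by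
        rw [hx0]
        linarith)
      exact hMs (x s) (hx.pos s (hsub₁ s hs hsT)) hdec
    -- phase two: the vertices
    have hphase2 : ∀ s, T₂ ≤ s → s < T → ∀ J ∈ 𝓥, ηv J ≤ ∑ i ∈ J, x s i := by
      intro s hs hsT J hJ
      refine hτv J hJ k T x T₁ hk hx hcl hT₁0
        (fun u hu => hphase1 u hu.1 hu.2)
        (fun u hu p hp => hmon k T x hk hx hx0 u (hsub₁ u hu.1 hu.2) p hp) s
        ⟨le_trans hT₂0 hs, hsT⟩ ?_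
      have := hsumv J hJ
      rw [hT₂] at hs
      linarith
    -- phase three: the edges
    have hsub₂ : ∀ s, T₂ ≤ s → s < T → s ∈ Set.Ico 0 T :=
      fun s h1 h2 => ⟨le_trans hT₁0 (le_trans hT₂0 h1), h2⟩
    have hphase3 : ∀ s, T₃ ≤ s → s < T → ∀ J ∈ 𝓔, ηe J ≤ ∑ i ∈ J, x s i := by
      intro s hs hsT J hJ
      refine hτe J hJ k T x T₂ hk hx hcl (le_trans hT₁0 hT₂0)
        (fun u hu => ⟨hphase1 u (le_trans hT₂0 hu.1) hu.2, hphase2 u hu.1 hu.2⟩)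
        (fun u hu p hp => hmon k T x hk hx hx0 u (hsub₂ u hu.1 hu.2) p hp) s
        ⟨le_trans hT₃0 hs, hsT⟩ ?_
      have := hsume J hJ
      rw [hT₃] at hs
      linarith
    have hT₁T₃ : T₁ ≤ t := le_trans hT₂0 (le_trans hT₃0 htT₃)
    have hT₂T₃ : T₂ ≤ t := le_trans hT₃0 htT₃
    have hup := hphase1 t hT₁T₃ ht.2
    refine ⟨hx.mem_class hcl ht, fun i => ⟨?_, hup i⟩⟩
    exact hmslow (x t) (hx.mem_class hcl ht) (fun i => ⟨(hx.pos t ht i).le, hup i⟩)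
      (hphase2 t hT₂T₃ ht.2) (hphase3 t htT₃ ht.2) i

end Vale.Agent.Lib.P072
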