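import Vale.Agent.Lib.P072.PermClass

/-!
If all reaction log-ratios are bounded at a point of the stoichiometric class, then the point lies
in a compact subset of the open class.
-/

open Finset Filter Topology

namespace Vale.Agent.Lib.P072

variable {d : ℕ}

/-- Bounded linear section of the map from reaction coefficients onto the stoichiometric subspace. -/
lemma exists_section (R : Finset (Cplx d × Cplx d)) :
    ∃ K : ℝ, 0 ≤ K ∧ ∀ s ∈ stoich R, ∃ a : ↥R → ℝ, s = ∑ p : ↥R, a p • rxnVec p.1 ∧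
      ∑ p : ↥R, |a p| ≤ K * ‖s‖ := by
  classical
  let v : ↥R → (Fin d → ℝ) := fun p => rxnVec p.1
  let T : (↥R → ℝ) →ₗ[ℝ] (Fin d → ℝ) := Fintype.linearCombination ℝ v
  have hrange : LinearMap.range T = stoich R := by
    have h1 : Set.range v = rxnVec '' (R : Set (Cplx d × Cplx d)) := by
      ext w
      constructor
      · rintro ⟨p, rfl⟩
        exact ⟨p.1, p.2, rfl⟩
      · rintro ⟨p, hp, rfl⟩
        exact ⟨⟨p, hp⟩, rfl⟩
    unfold stoich
    rw [← h1]
    exact Fintype.range_linearCombination ℝ v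
  obtain ⟨g, hg⟩ := T.rangeRestrict.exists_rightInverse_of_surjective (LinearMap.range_rangeRestrict T)
  let G : ↥(LinearMap.range T) →L[ℝ] (↥R → ℝ) := LinearMap.toContinuousLinearMap g
  refine ⟨(Fintype.card ↥R : ℝ) * ‖G‖, by positivity, ?_⟩
  intro s hs
  have hs' : s ∈ LinearMap.range T := by rw [hrange]; exact hs
  refine ⟨g ⟨s, hs'⟩, ?_, ?_⟩
  · have h1 : T.rangeRestrict (g ⟨s, hs'⟩) = ⟨s, hs'⟩ := by
      have := LinearMap.congr_fun hg ⟨s, hs'⟩
      exact this
    have h2 : T (g ⟨s, hs'⟩) = s := by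
      have := congrArg Subtype.val h1
      exact this
    have h3 : T (g ⟨s, hs'⟩) = ∑ p : ↥R, g ⟨s, hs'⟩ p • rxnVec p.1 := by
      simp only [T, Fintype.linearCombination_apply]
      rfl
    exact h2.symm.trans h3
  · have h3 : ‖g ⟨s, hs'⟩‖ ≤ ‖G‖ * ‖s‖ := by
      have := G.le_opNorm ⟨s, hs'⟩
      simpa [G] using this
    have h4 : ∀ p : ↥R, |g ⟨s, hs'⟩ p| ≤ ‖G‖ * ‖s‖ := by
      intro p
      have := norm_le_pi_norm (g ⟨s, hs'⟩) p
      rw [Real.norm_eq_abs] at this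
      linarith
    calc ∑ p : ↥R, |g ⟨s, hs'⟩ p| ≤ ∑ _p : ↥R, ‖G‖ * ‖s‖ := Finset.sum_le_sum fun p _ => h4 p
      _ = (Fintype.card ↥R : ℝ) * ‖G‖ * ‖s‖ := by
        rw [Finset.sum_const, Finset.card_univ, nsmul_eq_mul]; ring

/-- `phi` is linear in the direction. -/
lemma phi_add_sum {ι : Type*} (t : Finset ι) (a : ι → ℝ) (w : ι → Fin d → ℝ) (x : Fin d → ℝ) :
    phi (∑ p ∈ t, a p • w p) x = ∑ p ∈ t, a p * phi (w p) x := by
  unfold phi
  simp only [Finset.sum_apply, Pi.smul_apply, smul_eq_mul, Finset.sum_mul, Finset.mul_sum]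
  rw [Finset.sum_comm]
  refine Finset.sum_congr rfl fun p _ => Finset.sum_congr rfl fun i _ => by ring

/-- Positive lower bound for finitely many positive numbers. -/
lemma exists_lower_fin {ι : Type*} (t : Finset ι) (c : ι → ℝ) (hc : ∀ i ∈ t, 0 < c i) :
    ∃ c₀ : ℝ, 0 < c₀ ∧ ∀ i ∈ t, c₀ ≤ c i := by
  have hsuminv : 0 ≤ ∑ p ∈ t, |c p|⁻¹ := Finset.sum_nonneg fun p _ => inv_nonneg.mpr (abs_nonneg _)
  refine ⟨(1 + ∑ p ∈ t, |c p|⁻¹)⁻¹, inv_pos.mpr (by linarith), ?_⟩
  intro p hp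
  have h1 : |c p|⁻¹ ≤ ∑ p ∈ t, |c p|⁻¹ :=
    Finset.single_le_sum (f := fun p => |c p|⁻¹) (fun q _ => inv_nonneg.mpr (abs_nonneg _)) hp
  have h2 : 0 < |c p| := abs_pos.mpr (hc p hp).ne'
  have h3 : |c p|⁻¹ ≤ 1 + ∑ p ∈ t, |c p|⁻¹ := by linarith
  have h4 := inv_le_of_inv_le₀ h2 h3
  rwa [abs_of_pos (hc p hp)] at h4

/-- All log-ratios bounded implies the point stays in a compact subset of the open class. -/
theorem proper_of_all_near (R : Finset (Cplx d × Cplx d)) {x₀ : Fin d → ℝ} (hx₀ : ∀ i, 0 < x₀ i)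
    {B : ℝ} (hB : 0 ≤ B) :
    ∃ ρ m : ℝ, 1 ≤ ρ ∧ 0 < m ∧ ∀ x : Fin d → ℝ, (∀ i, 0 < x i) → x - x₀ ∈ stoich R →
      (∀ p ∈ R, |phi (rxnVec p) x| ≤ B) → ∀ i, m ≤ x i ∧ x i ≤ ρ := by
  classical
  obtain ⟨K, hK, hsec⟩ := exists_section R
  obtain ⟨L, hL⟩ : ∃ L : ℝ, L = ∑ i, |Real.log (x₀ i)| := ⟨_, rfl⟩
  have hL0 : 0 ≤ L := by
    rw [hL]; exact Finset.sum_nonneg fun i _ => abs_nonneg _
  obtain ⟨cm, hcm⟩ : ∃ cm : ℝ, cm = ∑ i, x₀ i := ⟨_, rfl⟩
  have hcm0 : ∀ i, x₀ i ≤ cm := fun i => by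
    rw [hcm]
    exact Finset.single_le_sum (f := x₀) (fun j _ => (hx₀ j).le) (Finset.mem_univ i)
  have hcmnn : 0 ≤ cm := by
    rw [hcm]; exact Finset.sum_nonneg fun i _ => (hx₀ i).le
  obtain ⟨X₀, hX₀⟩ : ∃ X₀ : ℝ, X₀ = max (cm + 1) (Real.exp (K * B + 2 * L)) := ⟨_, rfl⟩
  have hX₀pos : 0 < X₀ := by
    rw [hX₀]
    exact lt_of_lt_of_le (Real.exp_pos _) (le_max_right _ _)
  obtain ⟨B₁, hB₁⟩ : ∃ B₁ : ℝ, B₁ = X₀ * (K * B + L) := ⟨_, rfl⟩
  have hB₁0 : 0 ≤ B₁ := by rw [hB₁]; positivity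
  obtain ⟨m, hm, hmle⟩ := exists_lower_fin (Finset.univ : Finset (Fin d))
    (fun j => x₀ j / 2 * Real.exp (-(2 * B₁ / x₀ j)))
    (fun j _ => mul_pos (half_pos (hx₀ j)) (Real.exp_pos _))
  refine ⟨1 + cm + X₀, m, by linarith, hm, ?_⟩
  intro x hx hxS hnear
  obtain ⟨s, hs⟩ : ∃ s, s = x - x₀ := ⟨_, rfl⟩
  have hsS : s ∈ stoich R := by rw [hs]; exact hxS
  have hxs : ∀ j, x j = x₀ j + s j := by
    intro j
    rw [hs]
    simp
  obtain ⟨a, hsa, ha⟩ := hsec s hsS
  -- the sum `∑ s_j log x_j` is controlled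
  have hsum : ∑ j, s j * Real.log (x j) = ∑ p : ↥R, a p * phi (rxnVec p.1) x := by
    have h1 : phi s x = ∑ j, s j * Real.log (x j) := rfl
    rw [← h1, hsa]
    exact phi_add_sum Finset.univ a (fun p => rxnVec p.1) x
  have hX : ∀ j, |s j| ≤ ‖s‖ := fun j => by
    have := norm_le_pi_norm s j
    rwa [Real.norm_eq_abs] at this
  have hup : ∑ j, s j * Real.log (x j) ≤ (K * B) * ‖s‖ := by
    rw [hsum]
    calc ∑ p : ↥R, a p * phi (rxnVec p.1) x ≤ ∑ p : ↥R, |a p| * B := by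
          refine Finset.sum_le_sum fun p _ => ?_
          calc a p * phi (rxnVec p.1) x ≤ |a p * phi (rxnVec p.1) x| := le_abs_self _
            _ = |a p| * |phi (rxnVec p.1) x| := abs_mul _ _
            _ ≤ |a p| * B := mul_le_mul_of_nonneg_left (hnear p.1 p.2) (abs_nonneg _)
      _ = (∑ p : ↥R, |a p|) * B := by rw [Finset.sum_mul]
      _ ≤ (K * ‖s‖) * B := mul_le_mul_of_nonneg_right ha hB
      _ = (K * B) * ‖s‖ := by ring
  have hterm : ∀ j, 0 ≤ s j * (Real.log (x j) - Real.log (x₀ j)) := by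
    intro j
    rcases le_total 0 (s j) with h3 | h3
    · apply mul_nonneg h3
      have : Real.log (x₀ j) ≤ Real.log (x j) := by
        apply Real.log_le_log (hx₀ j)
        rw [hxs j]; linarith
      linarith
    · apply mul_nonneg_of_nonpos_of_nonpos h3
      have : Real.log (x j) ≤ Real.log (x₀ j) := by
        apply Real.log_le_log (hx j)
        rw [hxs j]; linarith
      linarith
  have hlow0 : -(‖s‖ * L) ≤ ∑ j, s j * Real.log (x₀ j) := by
    have h3 : ∀ j, -(‖s‖ * |Real.log (x₀ j)|) ≤ s j * Real.log (x₀ j) := by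
      intro j
      have h4 : |s j * Real.log (x₀ j)| ≤ ‖s‖ * |Real.log (x₀ j)| := by
        rw [abs_mul]
        exact mul_le_mul_of_nonneg_right (hX j) (abs_nonneg _)
      have := neg_abs_le (s j * Real.log (x₀ j))
      linarith
    calc -(‖s‖ * L) = ∑ j, -(‖s‖ * |Real.log (x₀ j)|) := by
          rw [hL, Finset.mul_sum, Finset.sum_neg_distrib]
      _ ≤ _ := Finset.sum_le_sum fun j _ => h3 j
  have htotal : ∑ j, s j * (Real.log (x j) - Real.log (x₀ j)) ≤ ‖s‖ * (K * B + L) := by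
    have : ∑ j, s j * (Real.log (x j) - Real.log (x₀ j)) =
        ∑ j, s j * Real.log (x j) - ∑ j, s j * Real.log (x₀ j) := by
      rw [← Finset.sum_sub_distrib]
      exact Finset.sum_congr rfl fun j _ => by ring
    rw [this]
    nlinarith
  have hsingle : ∀ j, s j * (Real.log (x j) - Real.log (x₀ j)) ≤ ‖s‖ * (K * B + L) := by
    intro j
    refine le_trans ?_ htotal
    exact Finset.single_le_sum (f := fun j => s j * (Real.log (x j) - Real.log (x₀ j)))
      (fun j _ => hterm j) (Finset.mem_univ j)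
  -- the bound on the norm of `s`
  have hsnorm : ‖s‖ ≤ X₀ := by
    by_contra hcon
    push Not at hcon
    have hXc : cm + 1 < ‖s‖ := lt_of_le_of_lt (by rw [hX₀]; exact le_max_left _ _) hcon
    have hXe : Real.exp (K * B + 2 * L) < ‖s‖ :=
      lt_of_le_of_lt (by rw [hX₀]; exact le_max_right _ _) hcon
    have hspos : 0 < ‖s‖ := lt_trans (Real.exp_pos _) hXe
    -- a coordinate attaining the norm
    have hattain : ∃ i₀, |s i₀| = ‖s‖ := by
      by_cases hd : Nonempty (Fin d)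
      · obtain ⟨i₀, -, hmax⟩ := Finset.exists_max_image Finset.univ (fun j => |s j|)
          ⟨hd.some, Finset.mem_univ _⟩
        refine ⟨i₀, le_antisymm (hX i₀) ?_⟩
        exact (pi_norm_le_iff_of_nonneg (abs_nonneg _)).2 fun j => by
          simpa [Real.norm_eq_abs] using hmax j (Finset.mem_univ j)
      · exfalso
        have hnorm0 : ‖s‖ ≤ 0 := (pi_norm_le_iff_of_nonneg le_rfl).2 fun j => absurd ⟨j⟩ hd
        linarith
    obtain ⟨i₀, hi₀⟩ := hattain
    have hsi₀ : s i₀ = ‖s‖ := by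
      rcases abs_cases (s i₀) with ⟨h3, _⟩ | ⟨h3, h4⟩
      · rw [← hi₀, h3]
      · exfalso
        have h5 := hx i₀
        rw [hxs i₀] at h5
        have h6 := hcm0 i₀
        have : ‖s‖ = - s i₀ := by rw [← hi₀, h3]
        linarith
    have hlog : K * B + 2 * L < Real.log ‖s‖ := by
      rwa [Real.lt_log_iff_exp_lt hspos]
    have h5 := hsingle i₀
    rw [hsi₀] at h5
    have h6 : Real.log ‖s‖ ≤ Real.log (x i₀) := by
      apply Real.log_le_log hspos
      rw [hxs i₀, hsi₀]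
      linarith [hx₀ i₀]
    have h7 : Real.log (x₀ i₀) ≤ L := by
      rw [hL]
      exact le_trans (le_abs_self _) (Finset.single_le_sum (f := fun j => |Real.log (x₀ j)|)
        (fun j _ => abs_nonneg _) (Finset.mem_univ i₀))
    have h8 : K * B + L < Real.log (x i₀) - Real.log (x₀ i₀) := by linarith
    have := mul_lt_mul_of_pos_left h8 hspos
    linarith
  intro i
  constructor
  · -- lower bound
    refine le_trans (hmle i (Finset.mem_univ i)) ?_
    have hxi := hx₀ i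
    have hexp1 : Real.exp (-(2 * B₁ / x₀ i)) ≤ 1 := by
      rw [Real.exp_le_one_iff]
      have : 0 ≤ 2 * B₁ / x₀ i := by positivity
      linarith
    by_cases hcase : x₀ i / 2 ≤ x i
    · calc x₀ i / 2 * Real.exp (-(2 * B₁ / x₀ i)) ≤ x₀ i / 2 * 1 :=
            mul_le_mul_of_nonneg_left hexp1 (by positivity)
        _ ≤ x i := by linarith
    · push Not at hcase
      have h1 := hsingle i
      have h2 : ‖s‖ * (K * B + L) ≤ B₁ := by
        rw [hB₁]
        exact mul_le_mul_of_nonneg_right hsnorm (by positivity)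
      have h3 : s i ≤ - (x₀ i / 2) := by rw [hs]; simp only [Pi.sub_apply]; linarith
      have h4 : Real.log (x i) ≤ Real.log (x₀ i) := by
        apply Real.log_le_log (hx i)
        linarith
      have h5 : (x₀ i / 2) * (Real.log (x₀ i) - Real.log (x i)) ≤ B₁ := by
        have h6 : (x₀ i / 2) * (Real.log (x₀ i) - Real.log (x i)) ≤
            (- s i) * (Real.log (x₀ i) - Real.log (x i)) :=
          mul_le_mul_of_nonneg_right (by linarith) (by linarith)
        have h7 : (- s i) * (Real.log (x₀ i) - Real.log (x i)) =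
            s i * (Real.log (x i) - Real.log (x₀ i)) := by ring
        linarith
      have h6 : Real.log (x₀ i) - Real.log (x i) ≤ 2 * B₁ / x₀ i := by
        rw [le_div_iff₀ hxi]
        nlinarith
      have h7 : Real.exp (-(2 * B₁ / x₀ i)) ≤ x i / x₀ i := by
        rw [← Real.exp_log (div_pos (hx i) hxi), Real.log_div (hx i).ne' hxi.ne']
        exact Real.exp_le_exp.mpr (by linarith)
      calc x₀ i / 2 * Real.exp (-(2 * B₁ / x₀ i)) ≤ x₀ i / 2 * (x i / x₀ i) :=
            mul_le_mul_of_nonneg_left h7 (by positivity)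
        _ = x i / 2 := by field_simp
        _ ≤ x i := by linarith [hx i]
  · -- upper bound
    rw [hxs i]
    have h1 := le_trans (le_abs_self (s i)) (hX i)
    have h2 := hcm0 i
    linarith

/-- General form of the span lemma in rank at most two. -/
lemma mem_span_two_vec {R : Finset (Cplx d × Cplx d)} (hdim : Module.finrank ℝ (stoich R) ≤ 2)
    {u w : Fin d → ℝ} (hu : u ∈ stoich R) (hw : w ∈ stoich R)
    (hind : ∀ a b : ℝ, a • u + b • w = 0 → a = 0 ∧ b = 0)
    {s : Fin d → ℝ} (hs : s ∈ stoich R) :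
    ∃ a b : ℝ, s = a • u + b • w := by
  have hli : LinearIndependent ℝ ![u, w] := by
    rw [LinearIndependent.pair_iff]
    exact hind
  have hfin : Module.finrank ℝ (Submodule.span ℝ (Set.range ![u, w])) = 2 := by
    rw [finrank_span_eq_card hli]
    simp
  have hrange : Set.range ![u, w] = {u, w} := by
    ext v
    constructor
    · rintro ⟨i, rfl⟩
      fin_cases i <;> simp
    · rintro (rfl | rfl)
      · exact ⟨0, rfl⟩
      · exact ⟨1, rfl⟩
  rw [hrange] at hfin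
  have hle : Submodule.span ℝ {u, w} ≤ stoich R := by
    rw [Submodule.span_le]
    intro v hv
    rcases hv with rfl | rfl
    · exact hu
    · exact hw
  have heq := Submodule.eq_of_le_of_finrank_le hle (by rw [hfin]; exact hdim)
  rw [← heq, Submodule.mem_span_pair] at hs
  obtain ⟨a, b, h⟩ := hs
  exact ⟨a, b, h.symm⟩

lemma rxnVec_mem_stoich {R : Finset (Cplx d × Cplx d)} {p : Cplx d × Cplx d} (hp : p ∈ R) :
    rxnVec p ∈ stoich R := Submodule.subset_span ⟨p, hp, rfl⟩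

/-- Two independent near directions imply that all directions are near. -/
lemma all_near_of_two_near {R : Finset (Cplx d × Cplx d)} (hdim : Module.finrank ℝ (stoich R) ≤ 2)
    {g₁ g₂ : Cplx d × Cplx d} (hg₁ : g₁ ∈ R) (hg₂ : g₂ ∈ R)
    (hind : ∀ a b : ℝ, a • rxnVec g₁ + b • rxnVec g₂ = 0 → a = 0 ∧ b = 0) {B : ℝ} (hB : 0 ≤ B) :
    ∃ B' : ℝ, 0 ≤ B' ∧ ∀ x : Fin d → ℝ, |phi (rxnVec g₁) x| ≤ B → |phi (rxnVec g₂) x| ≤ B →
      ∀ p ∈ R, |phi (rxnVec p) x| ≤ B' := by
  classical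
  have hex : ∀ p : Cplx d × Cplx d, ∃ a b : ℝ, p ∈ R → rxnVec p = a • rxnVec g₁ + b • rxnVec g₂ := by
    intro p
    by_cases hp : p ∈ R
    · obtain ⟨a, b, h⟩ := mem_span_two_vec hdim (rxnVec_mem_stoich hg₁) (rxnVec_mem_stoich hg₂) hind
        (rxnVec_mem_stoich hp)
      exact ⟨a, b, fun _ => h⟩
    · exact ⟨0, 0, fun h => absurd h hp⟩
  choose a b hab using hex
  refine ⟨∑ p ∈ R, (|a p| + |b p|) * B, Finset.sum_nonneg fun p _ => by positivity, ?_⟩
  intro x h1 h2 p hp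
  have hphi : phi (rxnVec p) x = a p * phi (rxnVec g₁) x + b p * phi (rxnVec g₂) x := by
    rw [hab p hp]
    unfold phi
    rw [Finset.mul_sum, Finset.mul_sum, ← Finset.sum_add_distrib]
    refine Finset.sum_congr rfl fun i _ => ?_
    simp only [Pi.add_apply, Pi.smul_apply, smul_eq_mul]
    ring
  have hle : |phi (rxnVec p) x| ≤ (|a p| + |b p|) * B := by
    rw [hphi]
    refine le_trans (abs_add_le _ _) ?_
    rw [abs_mul, abs_mul, add_mul]
    exact add_le_add (mul_le_mul_of_nonneg_left h1 (abs_nonneg _))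
      (mul_le_mul_of_nonneg_left h2 (abs_nonneg _))
  refine le_trans hle ?_
  exact Finset.single_le_sum (f := fun p => (|a p| + |b p|) * B)
    (fun q _ => by positivity) hp

end Vale.Agent.Lib.P072
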