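import Vale.Agent.Lib.P072.Network

/-!
The vector field does not increase the flattened Lyapunov function outside a bounded part of the
stoichiometric class, for networks of rank at most two.
-/

open Finset Filter Topology

namespace Vale.Agent.Lib.P072

variable {d : ℕ}

lemma rxnVec_ne_zero {p : Cplx d × Cplx d} (h : p.1 ≠ p.2) : rxnVec p ≠ 0 := by
  intro h0
  apply h
  funext i
  have := congrFun h0 i
  simp only [rxnVec, Pi.zero_apply, sub_eq_zero] at this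
  exact_mod_cast this.symm

lemma rxnVec_intLike (p : Cplx d × Cplx d) : IntLike (rxnVec p) := by
  intro i hi
  have h1 : ((p.2 i : ℤ) - (p.1 i : ℤ)) ≠ 0 := by
    intro h
    apply hi
    have : (p.2 i : ℤ) = p.1 i := by linarith
    have h2 : p.2 i = p.1 i := by exact_mod_cast this
    simp [rxnVec, h2]
  have h2 := Int.one_le_abs h1
  have h3 : (rxnVec p i) = (((p.2 i : ℤ) - (p.1 i : ℤ) : ℤ) : ℝ) := by
    simp [rxnVec]
  rw [h3, ← Int.cast_abs]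
  exact_mod_cast h2

/-- Pick one representative for each direction of the reaction vectors. -/
lemma exists_reps (R : Finset (Cplx d × Cplx d)) : ∃ D : Finset (Cplx d × Cplx d), D ⊆ R ∧
    (∀ p ∈ R, ∃ g ∈ D, ∃ c : ℝ, c ≠ 0 ∧ rxnVec p = c • rxnVec g) ∧
    (∀ g₁ ∈ D, ∀ g₂ ∈ D, g₁ ≠ g₂ → ∀ c : ℝ, c ≠ 0 → rxnVec g₁ ≠ c • rxnVec g₂) := by
  classical
  induction R using Finset.induction_on with
  | empty => exact ⟨∅, by simp, by simp, by simp⟩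
  | @insert a s _ ih =>
    obtain ⟨D, hD, h1, h2⟩ := ih
    by_cases hcase : ∃ g ∈ D, ∃ c : ℝ, c ≠ 0 ∧ rxnVec a = c • rxnVec g
    · refine ⟨D, hD.trans (Finset.subset_insert _ _), ?_, h2⟩
      intro p hp
      rcases Finset.mem_insert.1 hp with rfl | hp'
      · exact hcase
      · exact h1 p hp'
    · push Not at hcase
      refine ⟨insert a D, Finset.insert_subset_insert _ hD, ?_, ?_⟩
      · intro p hp
        rcases Finset.mem_insert.1 hp with rfl | hp'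
        · exact ⟨p, Finset.mem_insert_self _ _, 1, one_ne_zero, by simp⟩
        · obtain ⟨g, hg, c, hc, h⟩ := h1 p hp'
          exact ⟨g, Finset.mem_insert_of_mem hg, c, hc, h⟩
      · intro g₁ hg₁ g₂ hg₂ hne c hc
        rcases Finset.mem_insert.1 hg₁ with rfl | hg₁'
        · rcases Finset.mem_insert.1 hg₂ with rfl | hg₂'
          · exact absurd rfl hne
          · exact hcase g₂ hg₂' c hc
        · rcases Finset.mem_insert.1 hg₂ with rfl | hg₂'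
          · intro h
            apply hcase g₁ hg₁' c⁻¹ (inv_ne_zero hc)
            rw [h, smul_smul, inv_mul_cancel₀ hc, one_smul]
          · exact h2 g₁ hg₁' g₂ hg₂' hne c hc

lemma indep_of_nonparallel {v₁ v₂ : Fin d → ℝ} (h₁ : v₁ ≠ 0) (h₂ : v₂ ≠ 0)
    (hpar : ∀ c : ℝ, c ≠ 0 → v₁ ≠ c • v₂) :
    ∀ a b : ℝ, a • v₁ + b • v₂ = 0 → a = 0 ∧ b = 0 := by
  intro a b hab
  by_cases ha : a = 0
  · subst ha
    simp only [zero_smul, zero_add, smul_eq_zero, h₂, or_false] at hab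
    exact ⟨rfl, hab⟩
  · exfalso
    by_cases hb : b = 0
    · subst hb
      simp only [zero_smul, add_zero, smul_eq_zero, ha, h₁, or_self] at hab
    · apply hpar (-b / a) (div_ne_zero (neg_ne_zero.mpr hb) ha)
      have : a • v₁ = (-b) • v₂ := by
        rw [neg_smul]
        exact eq_neg_of_add_eq_zero_left hab
      calc v₁ = a⁻¹ • (a • v₁) := by rw [smul_smul, inv_mul_cancel₀ ha, one_smul]
        _ = a⁻¹ • ((-b) • v₂) := by rw [this]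
        _ = (-b / a) • v₂ := by rw [smul_smul]; congr 1; field_simp

/-- In rank at most two, two independent reaction vectors span the stoichiometric subspace. -/
lemma mem_span_two {R : Finset (Cplx d × Cplx d)} (hdim : Module.finrank ℝ (stoich R) ≤ 2)
    {g₁ g₂ : Cplx d × Cplx d} (hg₁ : g₁ ∈ R) (hg₂ : g₂ ∈ R)
    (hind : ∀ a b : ℝ, a • rxnVec g₁ + b • rxnVec g₂ = 0 → a = 0 ∧ b = 0)
    {s : Fin d → ℝ} (hs : s ∈ stoich R) :
    ∃ a b : ℝ, s = a • rxnVec g₁ + b • rxnVec g₂ := by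
  have hli : LinearIndependent ℝ ![rxnVec g₁, rxnVec g₂] := by
    rw [LinearIndependent.pair_iff]
    exact hind
  have hfin : Module.finrank ℝ (Submodule.span ℝ (Set.range ![rxnVec g₁, rxnVec g₂])) = 2 := by
    rw [finrank_span_eq_card hli]
    simp
  have hrange : Set.range ![rxnVec g₁, rxnVec g₂] = {rxnVec g₁, rxnVec g₂} := by
    ext v
    constructor
    · rintro ⟨i, rfl⟩
      fin_cases i <;> simp
    · rintro (rfl | rfl)
      · exact ⟨0, rfl⟩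
      · exact ⟨1, rfl⟩
  rw [hrange] at hfin
  have hle : Submodule.span ℝ {rxnVec g₁, rxnVec g₂} ≤ stoich R := by
    rw [Submodule.span_le]
    intro v hv
    rcases hv with rfl | rfl
    · exact Submodule.subset_span ⟨g₁, hg₁, rfl⟩
    · exact Submodule.subset_span ⟨g₂, hg₂, rfl⟩
  have heq := Submodule.eq_of_le_of_finrank_le hle (by rw [hfin]; exact hdim)
  rw [← heq, Submodule.mem_span_pair] at hs
  obtain ⟨a, b, h⟩ := hs
  exact ⟨a, b, h.symm⟩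

/-- Sums over reactions split into sums over linkage classes. -/
lemma sum_nonpos_of_classes {R : Finset (Cplx d × Cplx d)} (hWR : WeaklyReversible R)
    (F : Cplx d × Cplx d → ℝ) [∀ a b, Decidable (Rch R a b)]
    (h : ∀ p₀ ∈ R, ∑ q ∈ R.filter (fun q => Rch R p₀.1 q.1), F q ≤ 0) :
    ∑ p ∈ R, F p ≤ 0 := by
  classical
  set key : Cplx d × Cplx d → Finset (Cplx d × Cplx d) :=
    fun p => R.filter fun q => Rch R p.1 q.1 with hkey
  have hmaps : ∀ x ∈ R, key x ∈ R.image key := fun x hx => Finset.mem_image_of_mem _ hx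
  rw [← Finset.sum_fiberwise_of_maps_to hmaps]
  refine Finset.sum_nonpos fun y hy => ?_
  obtain ⟨p₀, hp₀, rfl⟩ := Finset.mem_image.1 hy
  have hset : R.filter (fun x => key x = key p₀) = R.filter (fun q => Rch R p₀.1 q.1) := by
    ext q
    simp only [Finset.mem_filter]
    constructor
    · rintro ⟨hq, hkq⟩
      refine ⟨hq, ?_⟩
      have : q ∈ key q := by
        simp only [hkey, Finset.mem_filter]
        exact ⟨hq, Relation.ReflTransGen.refl⟩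
      rw [hkq] at this
      simpa [hkey] using (Finset.mem_filter.1 this).2
    · rintro ⟨hq, hpq⟩
      refine ⟨hq, ?_⟩
      ext z
      simp only [hkey, Finset.mem_filter]
      constructor
      · rintro ⟨hz, hqz⟩
        exact ⟨hz, hpq.trans hqz⟩
      · rintro ⟨hz, hpz⟩
        exact ⟨hz, (rch_symm hWR hpq).trans hpz⟩
  rw [hset]
  exact h p₀ hp₀

/-- Bounds for finitely many nonzero constants. -/
lemma exists_c_bounds (R : Finset (Cplx d × Cplx d)) (c : Cplx d × Cplx d → ℝ)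
    (hcne : ∀ p ∈ R, c p ≠ 0) :
    ∃ c₀ c₁ : ℝ, 0 < c₀ ∧ 0 ≤ c₁ ∧ (∀ p ∈ R, c₀ ≤ |c p|) ∧ (∀ p ∈ R, |c p| ≤ c₁) := by
  have hsuminv : 0 ≤ ∑ p ∈ R, |c p|⁻¹ := Finset.sum_nonneg fun p _ => inv_nonneg.mpr (abs_nonneg _)
  refine ⟨(1 + ∑ p ∈ R, |c p|⁻¹)⁻¹, ∑ p ∈ R, |c p|, inv_pos.mpr (by linarith),
    Finset.sum_nonneg fun p _ => abs_nonneg _, ?_, fun p hp =>
    Finset.single_le_sum (f := fun p => |c p|) (fun q _ => abs_nonneg _) hp⟩
  intro p hp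
  have h1 : |c p|⁻¹ ≤ ∑ p ∈ R, |c p|⁻¹ :=
    Finset.single_le_sum (f := fun p => |c p|⁻¹) (fun q _ => inv_nonneg.mpr (abs_nonneg _)) hp
  have h2 : 0 < |c p| := abs_pos.mpr (hcne p hp)
  have h3 : |c p|⁻¹ ≤ 1 + ∑ p ∈ R, |c p|⁻¹ := by linarith
  exact inv_le_of_inv_le₀ h2 h3

lemma exists_R₀ (R : Finset (Cplx d × Cplx d)) {ε c₀ c₁ : ℝ} (hε : 0 < ε) (hc₀ : 0 < c₀)
    (hc₁ : 0 ≤ c₁) :
    ∃ R₀ : ℝ, 0 < R₀ ∧ ∀ A ⊆ R, ∀ φ : ℝ, R₀ ≤ φ →
      (A.card : ℝ) * (ε⁻¹ * c₁) * Real.exp (-(c₀ * φ)) ≤ ε * c₀ := by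
  have hεinv : 0 < ε⁻¹ := inv_pos.mpr hε
  obtain ⟨N, hN⟩ : ∃ N : ℝ, N = (R.card : ℝ) := ⟨_, rfl⟩
  have hN0 : 0 ≤ N := by rw [hN]; exact Nat.cast_nonneg _
  obtain ⟨Q, hQ⟩ : ∃ Q : ℝ, Q = N * (ε⁻¹ * c₁) / (ε * c₀) := ⟨_, rfl⟩
  have hQ0 : 0 ≤ Q := by rw [hQ]; positivity
  refine ⟨(Q + 1) / c₀, by positivity, ?_⟩
  intro A hA φ hφ
  have hcard : (A.card : ℝ) ≤ N := by
    rw [hN]
    exact_mod_cast Finset.card_le_card hA
  have h1 : Q + 1 ≤ c₀ * φ := by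
    have : (Q + 1) = c₀ * ((Q + 1) / c₀) := by field_simp
    rw [this]
    exact mul_le_mul_of_nonneg_left hφ hc₀.le
  have h2 : Q ≤ Real.exp (c₀ * φ) := by
    have := Real.add_one_le_exp (c₀ * φ)
    linarith
  have h3 : N * (ε⁻¹ * c₁) ≤ (ε * c₀) * Real.exp (c₀ * φ) := by
    have h4 : 0 < ε * c₀ := by positivity
    have h5 : N * (ε⁻¹ * c₁) = Q * (ε * c₀) := by rw [hQ]; field_simp
    rw [h5]
    nlinarith
  have h6 : Real.exp (-(c₀ * φ)) * Real.exp (c₀ * φ) = 1 := by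
    rw [← Real.exp_add]; simp
  have h7 := Real.exp_pos (-(c₀ * φ))
  calc (A.card : ℝ) * (ε⁻¹ * c₁) * Real.exp (-(c₀ * φ))
      ≤ N * (ε⁻¹ * c₁) * Real.exp (-(c₀ * φ)) := by
        apply mul_le_mul_of_nonneg_right _ h7.le
        exact mul_le_mul_of_nonneg_right hcard (by positivity)
    _ ≤ (ε * c₀) * Real.exp (c₀ * φ) * Real.exp (-(c₀ * φ)) :=
        mul_le_mul_of_nonneg_right h3 h7.le
    _ = ε * c₀ := by
        rw [mul_assoc, mul_comm (Real.exp (c₀ * φ)), h6, mul_one]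

lemma exists_E {R D : Finset (Cplx d × Cplx d)} {χ χ' : ℝ → ℝ} {R₁ R₂ C : ℝ}
    (hcut : IsCutOff χ χ' R₁ R₂ C) (hC : 0 ≤ C) (hR₂ : 0 ≤ R₂)
    (hvD : ∀ g ∈ D, rxnVec g ≠ 0) (hID : ∀ g ∈ D, IntLike (rxnVec g)) :
    ∃ E : ℝ, 0 ≤ E ∧ ∀ x : Fin d → ℝ, (∀ i, 0 < x i) → ∀ p ∈ R,
      dot (grad D rxnVec χ χ' x) (rxnVec p) ≤ dot (logv x) (rxnVec p) + E := by
  obtain ⟨Ew, hEw⟩ : ∃ Ew : ℝ, Ew = ∑ p ∈ R, ∑ i, |rxnVec p i| := ⟨_, rfl⟩
  have hexp0 : 0 ≤ Real.exp R₂ - 1 := by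
    have := Real.add_one_le_exp R₂
    linarith
  obtain ⟨A₀, hA₀⟩ : ∃ A₀ : ℝ, A₀ = C * R₂ * (Real.exp R₂ - 1) + R₂ := ⟨_, rfl⟩
  have hA₀0 : 0 ≤ A₀ := by rw [hA₀]; positivity
  have hEw0 : 0 ≤ Ew := by
    rw [hEw]
    exact Finset.sum_nonneg fun p _ => Finset.sum_nonneg fun i _ => abs_nonneg _
  refine ⟨(D.card : ℝ) * (A₀ * Ew), by positivity, ?_⟩
  intro x hx p hp
  have h1 := grad_sub_log_bound hcut hC hR₂ D rxnVec hvD hID hx (rxnVec p)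
  rw [← hA₀] at h1
  have h2 : ∑ i, |rxnVec p i| ≤ Ew := by
    rw [hEw]
    exact Finset.single_le_sum (f := fun p => ∑ i, |rxnVec p i|)
      (fun q _ => Finset.sum_nonneg fun i _ => abs_nonneg _) hp
  have h3 : (D.card : ℝ) * (A₀ * ∑ i, |rxnVec p i|) ≤ (D.card : ℝ) * (A₀ * Ew) :=
    mul_le_mul_of_nonneg_left (mul_le_mul_of_nonneg_left h2 hA₀0) (Nat.cast_nonneg _)
  have h4 := le_abs_self (dot (grad D rxnVec χ χ' x) (rxnVec p) - dot (logv x) (rxnVec p))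
  linarith

/-- The bounded part of the class: two different directions cannot both be near. -/
lemma exists_rho {R D : Finset (Cplx d × Cplx d)} (hDR : D ⊆ R)
    (hdim : Module.finrank ℝ (stoich R) ≤ 2)
    (hvD : ∀ g ∈ D, rxnVec g ≠ 0)
    (hnonpar : ∀ g₁ ∈ D, ∀ g₂ ∈ D, g₁ ≠ g₂ → ∀ c : ℝ, c ≠ 0 → rxnVec g₁ ≠ c • rxnVec g₂)
    {x₀ : Fin d → ℝ} (hx₀ : ∀ i, 0 < x₀ i) {B : ℝ} (hB0 : 0 ≤ B) :
    ∃ ρ : ℝ, 1 ≤ ρ ∧ ∀ g₁ ∈ D, ∀ g₂ ∈ D, g₁ ≠ g₂ → ∀ x : Fin d → ℝ, (∀ i, 0 < x i) →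
      x - x₀ ∈ stoich R → (¬ ∀ i, x i ≤ ρ) → |phi (rxnVec g₁) x| ≤ B → B < |phi (rxnVec g₂) x| := by
  classical
  have hpair : ∀ pq : (Cplx d × Cplx d) × (Cplx d × Cplx d), ∃ ρ : ℝ,
      pq.1 ∈ D → pq.2 ∈ D → pq.1 ≠ pq.2 → ∀ x : Fin d → ℝ, (∀ i, 0 < x i) → x - x₀ ∈ stoich R →
        |phi (rxnVec pq.1) x| ≤ B → |phi (rxnVec pq.2) x| ≤ B → ∀ i, x i ≤ ρ := by
    intro pq
    by_cases hp : pq.1 ∈ D ∧ pq.2 ∈ D ∧ pq.1 ≠ pq.2
    · obtain ⟨h1, h2, h3⟩ := hp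
      have hind := indep_of_nonparallel (hvD _ h1) (hvD _ h2) (hnonpar _ h1 _ h2 h3)
      obtain ⟨ρ, hρ⟩ := bounded_of_two_near hind hx₀ B hB0
      refine ⟨ρ, fun _ _ _ x hx hxS hb1 hb2 => hρ x hx ?_ hb1 hb2⟩
      obtain ⟨a, b, hab⟩ := mem_span_two hdim (hDR h1) (hDR h2) hind hxS
      refine ⟨a, b, ?_⟩
      rw [add_assoc, ← hab]
      simp
    · refine ⟨0, fun h1 h2 h3 => absurd ⟨h1, h2, h3⟩ hp⟩
  choose Fρ hFρ using hpair
  have hs0 : 0 ≤ ∑ pq ∈ D ×ˢ D, |Fρ pq| := Finset.sum_nonneg fun pq _ => abs_nonneg _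
  refine ⟨1 + ∑ pq ∈ D ×ˢ D, |Fρ pq|, by linarith, ?_⟩
  intro g₁ hg₁ g₂ hg₂ hne' x hx hxS hxρ h1
  by_contra h2
  push Not at h2
  apply hxρ
  intro i
  have h3 := hFρ (g₁, g₂) hg₁ hg₂ hne' x hx hxS h1 h2 i
  have h4 : |Fρ (g₁, g₂)| ≤ ∑ pq ∈ D ×ˢ D, |Fρ pq| :=
    Finset.single_le_sum (f := fun pq => |Fρ pq|) (fun pq _ => abs_nonneg _)
      (Finset.mem_product.2 ⟨hg₁, hg₂⟩)
  have h5 := le_abs_self (Fρ (g₁, g₂))
  linarith

/-- The near case: the class flux has the right sign against the flattened gradient. -/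
lemma near_class {R₀ R₁ R₂ C c₀ c₁ ε m : ℝ} {χ χ' : ℝ → ℝ} (hcut : IsCutOff χ χ' R₁ R₂ C)
    (hR₀ : R₀ < R₁) (hR₀' : 0 ≤ R₀) (hε : 0 < ε) {D : Finset (Cplx d × Cplx d)}
    (hvD : ∀ g ∈ D, rxnVec g ≠ 0) {g : Cplx d × Cplx d} (hgD : g ∈ D) {x : Fin d → ℝ}
    (hx : ∀ i, 0 < x i) (hother : ∀ g' ∈ D, g' ≠ g → R₂ < |phi (rxnVec g') x|)
    {A : Finset (Cplx d × Cplx d)} {k c : Cplx d × Cplx d → ℝ}
    (hk : ∀ q ∈ A, ε ≤ k q ∧ k q ≤ ε⁻¹) (hc₀pos : 0 < c₀)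
    (hcne : ∀ q ∈ A, c q ≠ 0) (hc₀ : ∀ q ∈ A, c₀ ≤ |c q|) (hc₁ : ∀ q ∈ A, |c q| ≤ c₁)
    (hvec : ∀ q ∈ A, rxnVec q = c q • rxnVec g)
    (htop1 : ∀ q ∈ A, psi x q.1 ≤ m) (htop2 : ∀ q ∈ A, psi x q.2 ≤ m)
    {r : Cplx d × Cplx d} (hrA : r ∈ A) (hrm : psi x r.1 = m)
    (hthr : ∀ φ : ℝ, R₀ ≤ φ → (A.card : ℝ) * (ε⁻¹ * c₁) * Real.exp (-(c₀ * φ)) ≤ ε * c₀) :
    ∑ q ∈ A, k q * Real.exp (psi x q.1) * dot (grad D rxnVec χ χ' x) (rxnVec q) ≤ 0 := by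
  have hvne : rxnVec g ≠ 0 := hvD g hgD
  obtain ⟨v, hv⟩ : ∃ v, v = rxnVec g := ⟨_, rfl⟩
  rw [← hv] at hvne hvec
  obtain ⟨φ, hφ⟩ : ∃ φ, φ = phi v x := ⟨_, rfl⟩
  obtain ⟨G, hG⟩ : ∃ G, G = dot (grad D rxnVec χ χ' x) v := ⟨_, rfl⟩
  have hLq : ∀ q ∈ A, dot (grad D rxnVec χ χ' x) (rxnVec q) = c q * G := by
    intro q hq
    rw [hvec q hq, dot_smul_right, hG]
  obtain ⟨Qv, hQv⟩ : ∃ Qv : ℝ, Qv = ∑ i, v i / x i * v i := ⟨_, rfl⟩
  have hQv0 : 0 ≤ Qv := by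
    rw [hQv]
    refine Finset.sum_nonneg fun i _ => ?_
    have : v i / x i * v i = v i ^ 2 / x i := by ring
    rw [this]
    have := hx i
    positivity
  have hDelta0 : 0 ≤ Delta v x := Delta_nonneg v x hvne hx
  have hGform : G = φ - (χ' φ * Qv * Delta v x + χ φ * φ) := by
    rw [hG, dot_grad]
    rw [Finset.sum_eq_single_of_mem g hgD]
    · have h1 : dot (logv x) v = φ := by rw [hφ]; exact dot_logv_eq_phi v x
      have h2 : dot (logv (xstar v x)) v = 0 := by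
        rw [dot_logv_eq_phi]
        exact phi_xstar v x hvne hx
      rw [← hv, ← hφ, ← hQv, h1, h2, sub_zero]
    · intro g' hg' hne'
      obtain ⟨h1, h2⟩ := hcut.far _ (hother g' hg' hne')
      rw [h1, h2]
      ring
  have hsum : ∑ q ∈ A, k q * Real.exp (psi x q.1) * dot (grad D rxnVec χ χ' x) (rxnVec q) =
      (∑ q ∈ A, k q * Real.exp (psi x q.1) * c q) * G := by
    rw [Finset.sum_mul]
    refine Finset.sum_congr rfl fun q hq => ?_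
    rw [hLq q hq]
    ring
  rw [hsum]
  have hrel' : ∀ q ∈ A, psi x q.2 - psi x q.1 = c q * φ := by
    intro q hq
    rw [← dot_logv_rxnVec, hvec q hq, dot_smul_right, dot_logv_eq_phi, hφ]
  by_cases hsmall : |φ| ≤ R₀
  · obtain ⟨h1, h2⟩ := hcut.core φ (by linarith)
    have : G = 0 := by
      rw [hGform, h1, h2]
      ring
    rw [this, mul_zero]
  · push Not at hsmall
    rcases lt_or_ge 0 φ with hpos | hneg
    · -- positive side
      have hφR : R₀ ≤ φ := by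
        rw [abs_of_pos hpos] at hsmall
        exact hsmall.le
      have hJ : ∑ q ∈ A, k q * Real.exp (psi x q.1) * c q ≤ 0 :=
        near_one_sided (ψ := psi x) (c₀ := c₀) (c₁ := c₁) (m := m) (φ := φ) hε hk hc₀pos
          hcne hc₀ hc₁ hrel' htop1 htop2 hrA hrm hpos (hthr φ hφR)
      have hGnn : 0 ≤ G := by
        rw [hGform]
        have h1 := hcut.sign φ
        have h2 := hcut.le_one φ
        have h3 : χ' φ ≤ 0 := by
          by_contra h4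
          push Not at h4
          have := mul_pos h4 hpos
          linarith
        have h4 : χ' φ * Qv * Delta v x ≤ 0 := by
          have : 0 ≤ Qv * Delta v x := mul_nonneg hQv0 hDelta0
          have h5 := mul_nonpos_of_nonpos_of_nonneg h3 this
          linarith [h5, mul_assoc (χ' φ) Qv (Delta v x)]
        have h5 : χ φ * φ ≤ φ := by nlinarith
        linarith
      exact mul_nonpos_of_nonpos_of_nonneg hJ hGnn
    · -- negative side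
      have hneg' : φ < 0 := by
        rcases lt_or_eq_of_le hneg with h | h
        · exact h
        · exfalso
          rw [h, abs_zero] at hsmall
          linarith
      have hφR : R₀ ≤ -φ := by
        rw [abs_of_neg hneg'] at hsmall
        exact hsmall.le
      have hJ : ∑ q ∈ A, k q * Real.exp (psi x q.1) * (- c q) ≤ 0 :=
        near_one_sided (ψ := psi x) (c := fun q => - c q) (c₀ := c₀) (c₁ := c₁) (m := m) (φ := -φ)
          hε hk hc₀pos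
          (fun q hq => neg_ne_zero.mpr (hcne q hq))
          (fun q hq => by rw [abs_neg]; exact hc₀ q hq)
          (fun q hq => by rw [abs_neg]; exact hc₁ q hq)
          (fun q hq => by rw [hrel' q hq]; ring) htop1 htop2 hrA hrm (by linarith)
          (hthr (-φ) hφR)
      have hJ' : 0 ≤ ∑ q ∈ A, k q * Real.exp (psi x q.1) * c q := by
        have : ∑ q ∈ A, k q * Real.exp (psi x q.1) * (- c q) =
            - ∑ q ∈ A, k q * Real.exp (psi x q.1) * c q := by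
          rw [← Finset.sum_neg_distrib]
          refine Finset.sum_congr rfl fun q _ => by ring
        rw [this] at hJ
        linarith
      have hGnp : G ≤ 0 := by
        rw [hGform]
        have h1 := hcut.sign φ
        have h2 := hcut.le_one φ
        have h0 := hcut.nonneg φ
        have h3 : 0 ≤ χ' φ := by
          by_contra h4
          push Not at h4
          have := mul_pos_of_neg_of_neg h4 hneg'
          linarith
        have h4 : 0 ≤ χ' φ * Qv * Delta v x :=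
          mul_nonneg (mul_nonneg h3 hQv0) hDelta0
        have h5 : φ ≤ χ φ * φ := by nlinarith
        linarith
      exact mul_nonpos_of_nonneg_of_nonpos hJ' hGnp

/-- The estimate on one linkage class. -/
lemma class_neg {R D : Finset (Cplx d × Cplx d)} (hne : ∀ p ∈ R, p.1 ≠ p.2)
    (hWR : WeaklyReversible R) {χ χ' : ℝ → ℝ} {R₀ R₁ R₂ C c₀ c₁ ε E CA D₀ B ρ : ℝ} {x₀ : Fin d → ℝ}
    (hcut : IsCutOff χ χ' R₁ R₂ C) (hR₀ : R₀ < R₁) (hR₀' : 0 ≤ R₀) (hε : 0 < ε)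
    (hvD : ∀ g ∈ D, rxnVec g ≠ 0)
    {rep : Cplx d × Cplx d → Cplx d × Cplx d} {c : Cplx d × Cplx d → ℝ}
    (hrepD : ∀ p ∈ R, rep p ∈ D) (hcne : ∀ p ∈ R, c p ≠ 0)
    (hcrep : ∀ p ∈ R, rxnVec p = c p • rxnVec (rep p))
    (hc₀pos : 0 < c₀) (hc₀ : ∀ p ∈ R, c₀ ≤ |c p|) (hc₁ : ∀ p ∈ R, |c p| ≤ c₁)
    (hthr : ∀ A ⊆ R, ∀ φ : ℝ, R₀ ≤ φ →
      (A.card : ℝ) * (ε⁻¹ * c₁) * Real.exp (-(c₀ * φ)) ≤ ε * c₀)
    (hE : 0 ≤ E)
    (hLbound : ∀ x : Fin d → ℝ, (∀ i, 0 < x i) → ∀ p ∈ R,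
      dot (grad D rxnVec χ χ' x) (rxnVec p) ≤ dot (logv x) (rxnVec p) + E)
    (hCAbound : (R.card : ℝ) * ((1 + E) * ε⁻¹) ≤ ε * CA)
    (hfar : ∀ p ∈ R, ∀ q ∈ R, Rch R p.1 q.1 → ∀ ψ : Cplx d → ℝ, ψ q.1 ≤ ψ p.1 - D₀ →
      ∃ r ∈ R, Rch R p.1 r.1 ∧ Rch R r.2 q.1 ∧
        Real.exp (ψ r.1) * (ψ r.2 - ψ r.1 + E) ≤ - CA * Real.exp (ψ p.1))
    (hBD : D₀ / c₀ ≤ B) (hBR : R₂ ≤ B)
    (hnear2 : ∀ g₁ ∈ D, ∀ g₂ ∈ D, g₁ ≠ g₂ → ∀ x : Fin d → ℝ, (∀ i, 0 < x i) →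
      x - x₀ ∈ stoich R → (¬ ∀ i, x i ≤ ρ) → |phi (rxnVec g₁) x| ≤ B → B < |phi (rxnVec g₂) x|)
    {x : Fin d → ℝ} (hx : ∀ i, 0 < x i) (hxS : x - x₀ ∈ stoich R) (hxρ : ¬ ∀ i, x i ≤ ρ)
    {k : Cplx d × Cplx d → ℝ} (hk : ∀ p, ε ≤ k p ∧ k p ≤ ε⁻¹)
    {p₀ : Cplx d × Cplx d} (hp₀ : p₀ ∈ R) [∀ a b, Decidable (Rch R a b)] :
    ∑ q ∈ R.filter (fun q => Rch R p₀.1 q.1),
      k q * Real.exp (psi x q.1) * dot (grad D rxnVec χ χ' x) (rxnVec q) ≤ 0 := by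
  obtain ⟨A, hA⟩ : ∃ A, A = R.filter (fun q => Rch R p₀.1 q.1) := ⟨_, rfl⟩
  rw [← hA]
  have hAmem : ∀ q, q ∈ A ↔ q ∈ R ∧ Rch R p₀.1 q.1 := fun q => by simp [hA]
  have hp₀A : p₀ ∈ A := (hAmem _).2 ⟨hp₀, Relation.ReflTransGen.refl⟩
  have hAsub : A ⊆ R := by
    rw [hA]
    exact Finset.filter_subset _ _
  have hAne : A.Nonempty := ⟨p₀, hp₀A⟩
  have htarget : ∀ q ∈ A, ∃ q' ∈ A, q'.1 = q.2 := by
    intro q hq
    obtain ⟨hqR, hq0⟩ := (hAmem q).1 hq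
    have h1 : Rch R q.2 q.1 := hWR q hqR
    rcases Relation.ReflTransGen.cases_head h1 with h2 | ⟨c', hc', _⟩
    · exact absurd h2.symm (hne q hqR)
    · refine ⟨(q.2, c'), (hAmem _).2 ⟨hc', ?_⟩, rfl⟩
      exact hq0.tail (by simpa using hqR)
  obtain ⟨r, hrA, hrmax⟩ := Finset.exists_max_image A (fun q => psi x q.1) hAne
  obtain ⟨s, hsA, hsmin⟩ := Finset.exists_min_image A (fun q => psi x q.1) hAne
  have htop2 : ∀ q ∈ A, psi x q.2 ≤ psi x r.1 := by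
    intro q hq
    obtain ⟨q', hq', h⟩ := htarget q hq
    rw [← h]
    exact hrmax q' hq'
  have hbot2 : ∀ q ∈ A, psi x s.1 ≤ psi x q.2 := by
    intro q hq
    obtain ⟨q', hq', h⟩ := htarget q hq
    rw [← h]
    exact hsmin q' hq'
  have hrR := hAsub hrA
  have hsR := hAsub hsA
  have hrs : Rch R r.1 s.1 :=
    (rch_symm hWR ((hAmem r).1 hrA).2).trans ((hAmem s).1 hsA).2
  by_cases hfarcase : psi x s.1 ≤ psi x r.1 - D₀
  · -- far class
    obtain ⟨t, htR, hrt, _, hneg⟩ := hfar r hrR s hsR hrs (psi x) hfarcase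
    have htA : t ∈ A := (hAmem t).2 ⟨htR, ((hAmem r).1 hrA).2.trans hrt⟩
    refine far_class_sum (ψ := psi x) (E := E) (C := CA) (m := psi x r.1) (ε := ε) hε
      (fun q _ => hk q) hE ?_ hrmax htop2 htA hneg ?_
    · intro q hq
      have := hLbound x hx q (hAsub hq)
      rwa [dot_logv_rxnVec] at this
    · have hcard : (A.card : ℝ) ≤ (R.card : ℝ) := by
        exact_mod_cast Finset.card_le_card hAsub
      refine le_trans ?_ hCAbound
      refine mul_le_mul_of_nonneg_right hcard ?_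
      have := inv_pos.mpr hε
      positivity
  · -- near class
    push Not at hfarcase
    have hspread : ∀ q ∈ A, |psi x q.2 - psi x q.1| ≤ D₀ := by
      intro q hq
      rw [abs_le]
      have h1 : psi x q.1 ≤ psi x r.1 := hrmax q hq
      have h2 := htop2 q hq
      have h3 : psi x s.1 ≤ psi x q.1 := hsmin q hq
      have h4 := hbot2 q hq
      constructor <;> linarith
    have hrelq : ∀ q ∈ A, psi x q.2 - psi x q.1 = c q * phi (rxnVec (rep q)) x := by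
      intro q hq
      rw [← dot_logv_rxnVec, hcrep q (hAsub hq), dot_smul_right, dot_logv_eq_phi]
    have hnearrep : ∀ q ∈ A, |phi (rxnVec (rep q)) x| ≤ B := by
      intro q hq
      have h1 := hspread q hq
      rw [hrelq q hq, abs_mul] at h1
      have h2 := hc₀ q (hAsub hq)
      have h3 : c₀ * |phi (rxnVec (rep q)) x| ≤ D₀ :=
        le_trans (mul_le_mul_of_nonneg_right h2 (abs_nonneg _)) h1
      have h4 : |phi (rxnVec (rep q)) x| ≤ D₀ / c₀ := by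
        rw [le_div_iff₀ hc₀pos]; linarith
      linarith
    have hgD : rep p₀ ∈ D := hrepD p₀ hp₀
    have hsame : ∀ q ∈ A, rep q = rep p₀ := by
      intro q hq
      by_contra hne'
      have h1 := hnear2 (rep q) (hrepD q (hAsub hq)) (rep p₀) hgD hne' x hx hxS hxρ (hnearrep q hq)
      have h2 := hnearrep p₀ hp₀A
      linarith
    have hother : ∀ g' ∈ D, g' ≠ rep p₀ → R₂ < |phi (rxnVec g') x| := by
      intro g' hg' hne'
      have h1 := hnear2 (rep p₀) hgD g' hg' hne'.symm x hx hxS hxρ (hnearrep p₀ hp₀A)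
      linarith
    refine near_class hcut hR₀ hR₀' hε hvD hgD hx hother (k := k) (c := c) (fun q _ => hk q) hc₀pos
      (fun q hq => hcne q (hAsub hq)) (fun q hq => hc₀ q (hAsub hq))
      (fun q hq => hc₁ q (hAsub hq)) ?_ hrmax htop2 hrA rfl (hthr A hAsub)
    intro q hq
    have := hcrep q (hAsub hq)
    rwa [hsame q hq] at this

/-- Main static estimate. -/
theorem static_neg (R : Finset (Cplx d × Cplx d)) (hne : ∀ p ∈ R, p.1 ≠ p.2)
    (hWR : WeaklyReversible R) (hdim : Module.finrank ℝ (stoich R) ≤ 2) {ε : ℝ} (hε : 0 < ε)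
    (x₀ : Fin d → ℝ) (hx₀ : ∀ i, 0 < x₀ i) :
    ∃ (D : Finset (Cplx d × Cplx d)) (χ χ' : ℝ → ℝ) (R₁ R₂ C ρ : ℝ),
      (∀ g ∈ D, rxnVec g ≠ 0) ∧ (∀ g ∈ D, IntLike (rxnVec g)) ∧ IsCutOff χ χ' R₁ R₂ C ∧
      0 ≤ R₂ ∧ 1 ≤ ρ ∧
      ∀ x : Fin d → ℝ, (∀ i, 0 < x i) → x - x₀ ∈ stoich R → (¬ ∀ i, x i ≤ ρ) →
        ∀ k : Cplx d × Cplx d → ℝ, (∀ p, ε ≤ k p ∧ k p ≤ ε⁻¹) →
          dot (grad D rxnVec χ χ' x) (massAction R k x) ≤ 0 := by
  classical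
  obtain ⟨D, hDR, hrep, hnonpar⟩ := exists_reps R
  have hvD : ∀ g ∈ D, rxnVec g ≠ 0 := fun g hg => rxnVec_ne_zero (hne g (hDR hg))
  have hID : ∀ g ∈ D, IntLike (rxnVec g) := fun g _ => rxnVec_intLike g
  choose! rep hrepD c hcne hcrep using hrep
  obtain ⟨c₀, c₁, hc₀pos, hc₁nn, hc₀, hc₁⟩ := exists_c_bounds R c hcne
  obtain ⟨R₀, hR₀pos, hthr⟩ := exists_R₀ R (c₁ := c₁) hε hc₀pos hc₁nn
  have hR₁pos : 0 < R₀ + 1 := by linarith
  obtain ⟨χ, χ', C, hC, hcut⟩ := exists_cutOff hR₁pos (by linarith : R₀ + 1 < R₀ + 2)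
  have hR₂pos : 0 ≤ R₀ + 2 := by linarith
  obtain ⟨E, hE, hLbound⟩ := exists_E (R := R) hcut hC hR₂pos hvD hID
  have hεinv : 0 < ε⁻¹ := inv_pos.mpr hε
  obtain ⟨CA, hCA⟩ : ∃ CA : ℝ, CA = (R.card : ℝ) * ((1 + E) * ε⁻¹) / ε := ⟨_, rfl⟩
  have hCA0 : 0 ≤ CA := by rw [hCA]; positivity
  have hCAbound : (R.card : ℝ) * ((1 + E) * ε⁻¹) ≤ ε * CA := by
    rw [hCA]
    apply le_of_eq
    field_simp
  obtain ⟨D₀, hD₀, hfar⟩ := far_uniform R E CA hE hCA0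
  have hB0 : 0 ≤ D₀ / c₀ + (R₀ + 2) := by positivity
  obtain ⟨ρ, hρ1, hnear2⟩ := exists_rho hDR hdim hvD hnonpar hx₀ hB0
  refine ⟨D, χ, χ', R₀ + 1, R₀ + 2, C, ρ, hvD, hID, hcut, hR₂pos, hρ1, ?_⟩
  intro x hx hxS hxρ k hk
  have hexpand : dot (grad D rxnVec χ χ' x) (massAction R k x) =
      ∑ p ∈ R, k p * Real.exp (psi x p.1) * dot (grad D rxnVec χ χ' x) (rxnVec p) := by
    unfold massAction
    rw [dot_sum_right]
    refine Finset.sum_congr rfl fun p _ => ?_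
    rw [dot_smul_right, monom_eq_exp hx]
  rw [hexpand]
  apply sum_nonpos_of_classes hWR
  intro p₀ hp₀
  exact class_neg hne hWR hcut (by linarith) hR₀pos.le hε hvD hrepD hcne hcrep hc₀pos hc₀ hc₁ hthr hE
    hLbound hCAbound hfar (by
      have : 0 ≤ R₀ + 2 := hR₂pos
      linarith) (by
      have : 0 ≤ D₀ / c₀ := by positivity
      linarith) hnear2 hx hxS hxρ hk hp₀

end Vale.Agent.Lib.P072
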